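import Vale.Agent.Lib.P333F.Perm

/-!
Abstract path systems on `Fin n`, and the quantities of the analysis. Definitions only.
-/

namespace Vale.Agent.Lib.P333F

variable {n : ℕ}

/-- A path system: a permutation with exactly one tail in every cycle. The arc leaving a tail is
virtual. -/
structure St (n : ℕ) where
  π : Equiv.Perm (Fin n)
  tl : Fin n → Bool
  one : ∀ x, ∃! t, π.SameCycle x t ∧ tl t = true

/-- The weight of the arcs which are not virtual. -/
def St.real (w : Fin n → Fin n → ℕ) (S : St n) : ℕ := ∑ x, if S.tl x = true then 0 else w x (S.π x)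

/-- The weight of the new arc out of `x` when the tail `x` is joined to the head of the path with
tail `θ x`. -/
def hat (w : Fin n → Fin n → ℕ) (π θ : Equiv.Perm (Fin n)) (x : Fin n) : ℕ :=
  if θ x = x then 0 else w x (π (θ x))

/-- Lexicographic order on (weight, node). -/
def lexLe (a : ℕ) (x : Fin n) (b : ℕ) (y : Fin n) : Prop := a < b ∨ (a = b ∧ x ≤ y)

instance (a : ℕ) (x : Fin n) (b : ℕ) (y : Fin n) : Decidable (lexLe a x b y) := by
  unfold lexLe; infer_instance

/-- `θ` only moves tails. -/
def FixNon (S : St n) (θ : Equiv.Perm (Fin n)) : Prop := ∀ x, S.tl x = false → θ x = x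

/-- The permutation after relinking: tails `x` are joined to the head of the path with tail `θ x`. -/
def rho (π θ : Equiv.Perm (Fin n)) : Equiv.Perm (Fin n) := θ.trans π

@[simp] theorem rho_apply (π θ : Equiv.Perm (Fin n)) (x : Fin n) : rho π θ x = π (θ x) := rfl

open Classical in
/-- The new tails after relinking with `θ`. -/
noncomputable def newTl (w : Fin n → Fin n → ℕ) (S : St n) (θ : Equiv.Perm (Fin n)) (x : Fin n) : Bool :=
  decide (S.tl x = true ∧ ∀ y, (rho S.π θ).SameCycle x y → S.tl y = true →
    lexLe (hat w S.π θ x) x (hat w S.π θ y) y)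

/-- A list of arcs that can be added: from tails, into heads of other paths, no common node. -/
structure Usable (S : St n) (U : List (Fin n × Fin n)) : Prop where
  nd1 : (U.map Prod.fst).Nodup
  nd2 : (U.map Prod.snd).Nodup
  src : ∀ e ∈ U, S.tl e.1 = true
  dst : ∀ e ∈ U, ∃ t, S.tl t = true ∧ S.π t = e.2 ∧ t ≠ e.1

/-- The system of singletons. -/
def St.init (n : ℕ) : St n :=
  ⟨1, fun _ => true, fun x => ⟨x, ⟨Equiv.Perm.SameCycle.refl 1 x, rfl⟩, fun y hy => by
    obtain ⟨i, hi⟩ := hy.1
    simpa using hi.symm⟩⟩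

/-- `x` is on a cycle of length two of `τ`. -/
def isP (τ : Equiv.Perm (Fin n)) (x : Fin n) : Prop := τ x ≠ x ∧ τ (τ x) = x

instance (τ : Equiv.Perm (Fin n)) (x : Fin n) : Decidable (isP τ x) := by
  unfold isP; infer_instance

/-- `x` is on a cycle of length at least three of `τ`. -/
def isLg (τ : Equiv.Perm (Fin n)) (x : Fin n) : Prop := τ x ≠ x ∧ τ (τ x) ≠ x

instance (τ : Equiv.Perm (Fin n)) (x : Fin n) : Decidable (isLg τ x) := by
  unfold isLg; infer_instance

/-- The weight of the arc of `τ` out of `x`, zero on fixed points. -/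
def wt (w : Fin n → Fin n → ℕ) (τ : Equiv.Perm (Fin n)) (x : Fin n) : ℕ := hat w 1 τ x

/-- The weight of all arcs on cycles of length two. -/
def w2 (w : Fin n → Fin n → ℕ) (τ : Equiv.Perm (Fin n)) : ℕ :=
  ∑ x, if isP τ x then wt w τ x else 0

/-- The weight of all arcs on cycles of length at least three. -/
def zz (w : Fin n → Fin n → ℕ) (τ : Equiv.Perm (Fin n)) : ℕ :=
  ∑ x, if isLg τ x then wt w τ x else 0

/-- The weight of the heavier arcs of the cycles of length two. -/
def hH (w : Fin n → Fin n → ℕ) (S : St n) : ℕ :=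
  ∑ x, if isP S.π x ∧ S.tl x = false then wt w S.π x else 0

/-- The weight kept on cycles of length at least three. -/
def ret (w : Fin n → Fin n → ℕ) (S : St n) : ℕ :=
  ∑ x, if isLg S.π x ∧ S.tl x = false then wt w S.π x else 0

/-- The arcs of a path. -/
def arcs {ι : Type} (P : List ι) : List (ι × ι) := P.zip P.tail

/-- The weight of the arcs of `P` selected by `f`. -/
def arcSum (w : Fin n → Fin n → ℕ) (P : List (Fin n)) (f : Fin n × Fin n → Prop) [DecidablePred f] : ℕ :=
  ((arcs P).map (fun e => if f e then w e.1 e.2 else 0)).sum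

/-- The arc joins the two nodes of a cycle of length two. -/
def inner (τ : Equiv.Perm (Fin n)) (e : Fin n × Fin n) : Prop := isP τ e.1 ∧ e.2 = τ e.1

instance (τ : Equiv.Perm (Fin n)) : DecidablePred (inner τ) := fun e => by
  unfold inner; infer_instance

/-- The arc joins different cycles of length two. -/
def across (τ : Equiv.Perm (Fin n)) (e : Fin n × Fin n) : Prop :=
  isP τ e.1 ∧ isP τ e.2 ∧ e.2 ≠ τ e.1

instance (τ : Equiv.Perm (Fin n)) : DecidablePred (across τ) := fun e => by
  unfold across; infer_instance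

/-- Exactly one end of the arc is on a cycle of length two. -/
def oneEnd (τ : Equiv.Perm (Fin n)) (e : Fin n × Fin n) : Prop :=
  (isP τ e.1 ∧ ¬ isP τ e.2) ∨ (¬ isP τ e.1 ∧ isP τ e.2)

instance (τ : Equiv.Perm (Fin n)) : DecidablePred (oneEnd τ) := fun e => by
  unfold oneEnd; infer_instance

/-- No end of the arc is on a cycle of length two. -/
def noEnd (τ : Equiv.Perm (Fin n)) (e : Fin n × Fin n) : Prop := ¬ isP τ e.1 ∧ ¬ isP τ e.2

instance (τ : Equiv.Perm (Fin n)) : DecidablePred (noEnd τ) := fun e => by
  unfold noEnd; infer_instance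

/-- The weight kept on the cycles of length two when the cycles are oriented by `t`. -/
def arcK (w : Fin n → Fin n → ℕ) (τ : Equiv.Perm (Fin n)) (t : Fin n → Bool) : ℕ :=
  ∑ x, if isP τ x ∧ t x = false then w x (τ x) else 0

/-- The arcs of `P` usable when only the cycles of length two are kept, oriented by `t`. -/
def UA (τ : Equiv.Perm (Fin n)) (t : Fin n → Bool) (P : List (Fin n)) : List (Fin n × Fin n) :=
  (arcs P).filter (fun e => decide (¬ inner τ e ∧ (isP τ e.1 → t e.1 = true) ∧
    (isP τ e.2 → t e.2 = false)))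

/-- The arcs of `P` between different cycles of length two from a tail to a head. -/
def UB (τ : Equiv.Perm (Fin n)) (t : Fin n → Bool) (P : List (Fin n)) : List (Fin n × Fin n) :=
  (arcs P).filter (fun e => decide (across τ e ∧ t e.1 = true ∧ t e.2 = false))

/-- The weight of a list of arcs. -/
def sumU (w : Fin n → Fin n → ℕ) (U : List (Fin n × Fin n)) : ℕ := (U.map (fun e => w e.1 e.2)).sum

/-- A family of orientations of the cycles of length two of `τ`, pairwise independent. -/
structure Seeds (τ : Equiv.Perm (Fin n)) (F : List (List Bool)) (tp : List Bool → Fin n → Bool) :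
    Prop where
  ne : F ≠ []
  flip : ∀ s x, isP τ x → tp s (τ x) = !tp s x
  bal : ∀ x, isP τ x → 2 * (F.filter (fun s => tp s x)).length = F.length
  ind : ∀ x y, isP τ x → isP τ y → y ≠ x → y ≠ τ x →
    4 * (F.filter (fun s => tp s x && !tp s y)).length = F.length

/-- The facts about the first level path system. -/
structure L1 (w : Fin n → Fin n → ℕ) (S : St n) : Prop where
  opt : ∀ q : Equiv.Perm (Fin n), ∑ x, hat w 1 q x ≤ ∑ x, hat w 1 S.π x
  lex : ∀ x y, S.tl x = true → S.π.SameCycle x y → hat w 1 S.π x ≤ hat w 1 S.π y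

end Vale.Agent.Lib.P333F
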