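import Vale.Agent.Lib.P333F.Walk
import Vale.Agent.Lib.P333.Orbit

/-!
(part OPT) Without an improving closed walk the assignment is optimal: for another assignment `q`
the map `p⁻¹ ∘ q` decomposes into closed walks.
-/

namespace Vale.Agent.Lib.P333F

open List (range)

private theorem mat_lt_bigM_aux (W : List (List ℕ)) (i j : ℕ) : mat W i j < bigM W := by
  have h1 : (W.getD i []).getD j 0 ≤ (W.getD i []).sum := by
    by_cases hj : j < (W.getD i []).length
    · rw [List.getD_eq_getElem _ _ hj]
      exact List.le_sum_of_mem (List.getElem_mem hj)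
    · rw [List.getD_eq_default _ _ (by omega)]
      exact Nat.zero_le _
  have h2 : (W.getD i []).sum ≤ (W.map List.sum).sum := by
    by_cases hi : i < W.length
    · rw [List.getD_eq_getElem _ _ hi]
      exact List.le_sum_of_mem (List.mem_map.mpr ⟨_, List.getElem_mem hi, rfl⟩)
    · rw [List.getD_eq_default _ _ (by omega)]
      simp
  unfold mat bigM
  omega

/-- The weight of a path through the values of a sequence. -/
private theorem pathW_map_range {ι : Type} (w : ι → ι → ℕ) (a : ℕ → ι) (m : ℕ) :
    pathW w ((range (m + 1)).map a) = ∑ s ∈ Finset.range m, w (a s) (a (s + 1)) := by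
  induction m generalizing a with
  | zero => simp [pathW]
  | succ m ih =>
    rw [List.range_succ_eq_map, List.map_cons, List.map_map, List.range_succ_eq_map, List.map_cons,
      List.map_map]
    have h := ih (fun s => a (s + 1))
    rw [List.range_succ_eq_map, List.map_cons, List.map_map] at h
    simp only [pathW]
    rw [Finset.sum_range_succ']
    simp only [Function.comp_def] at h ⊢
    rw [h]
    simp only [Nat.succ_eq_add_one, Nat.zero_add]
    omega

/-- A closed walk along an orbit of `g`. -/
private theorem sum_orbit_eq_cycV {n : ℕ} (g : Equiv.Perm (Fin n)) (c : ℕ → ℕ → ℕ) (x : Fin n) :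
    ∑ y ∈ Vale.Agent.Lib.P333.orbit g x, c y (g⁻¹ y : Fin n) =
      cycV c ((range (Function.minimalPeriod g x)).map (fun t => (((⇑g)^[t] x : Fin n) : ℕ))) := by
  rw [Vale.Agent.Lib.P333.sum_orbit]
  obtain ⟨d, hd⟩ : ∃ d, Function.minimalPeriod g x = d + 1 := by
    have := Vale.Agent.Lib.P333.minPeriod_pos g x
    exact ⟨_, (Nat.succ_pred_eq_of_pos this).symm⟩
  have hper : (⇑g)^[d + 1] x = x := by
    rw [← hd]
    exact Vale.Agent.Lib.P333.iterate_minPeriod g x
  rw [hd, Finset.sum_range_succ']
  unfold cycV
  rw [pathW_map_range]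
  have hlen : ((range (d + 1)).map (fun t => (((⇑g)^[t] x : Fin n) : ℕ))).length - 1 = d := by
    simp
  rw [hlen]
  have h0 : ((range (d + 1)).map (fun t => (((⇑g)^[t] x : Fin n) : ℕ))).getD 0 0 = (x : ℕ) := by
    simp [List.getD_eq_getElem?_getD]
  have h1 : ((range (d + 1)).map (fun t => (((⇑g)^[t] x : Fin n) : ℕ))).getD d 0 =
      (((⇑g)^[d] x : Fin n) : ℕ) := by
    simp [List.getD_eq_getElem?_getD]
  rw [h0, h1]
  have hinv : g⁻¹ x = (⇑g)^[d] x := by
    rw [Equiv.Perm.inv_eq_iff_eq]
    have := hper
    rw [Function.iterate_succ_apply'] at this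
    exact this.symm
  have hstep : ∀ s, g⁻¹ ((⇑g)^[s + 1] x) = (⇑g)^[s] x := by
    intro s
    rw [Function.iterate_succ_apply']
    simp
  simp only [hstep]
  simp only [Function.iterate_zero, id_eq, hinv]

theorem opt_of_no_pos (W : List (List ℕ)) {p : List ℕ} (h : p.Perm (range W.length))
    (hno : ∀ l : List ℕ, l ≠ [] → l.length ≤ W.length → (∀ v ∈ l, v < W.length) →
        cycV (arcC W p) l ≤ l.length * bigM W)
    {q : List ℕ} (hq : q.Perm (range W.length)) : weightL W q ≤ weightL W p := by
  classical
  set n := W.length with hn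
  set P := permOfL h with hP
  set Q := permOfL hq with hQ
  set g : Equiv.Perm (Fin n) := (P⁻¹ * Q)⁻¹ with hg
  have hginv : ∀ y : Fin n, app p ((g⁻¹ y : Fin n) : ℕ) = app q y := by
    intro y
    have : P (g⁻¹ y) = Q y := by
      simp [hg]
    have h2 := congrArg (fun z : Fin n => (z : ℕ)) this
    simpa [hP, hQ, permOfL_val] using h2
  -- the bound on each cycle
  have hcyc : ∀ X ∈ Vale.Agent.Lib.P333.cycles g,
      ∑ y ∈ X, arcC W p y (g⁻¹ y : Fin n) ≤ X.card * bigM W := by
    intro X hX
    obtain ⟨x, -, rfl⟩ := Finset.mem_image.mp hX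
    rw [sum_orbit_eq_cycV, Vale.Agent.Lib.P333.card_orbit]
    have hd : Function.minimalPeriod g x ≤ n := by
      rw [← Vale.Agent.Lib.P333.card_orbit]
      simpa using Finset.card_le_univ (Vale.Agent.Lib.P333.orbit g x)
    have hpos := Vale.Agent.Lib.P333.minPeriod_pos g x
    have := hno ((range (Function.minimalPeriod g x)).map (fun t => (((⇑g)^[t] x : Fin n) : ℕ)))
      (by
        intro hnil
        have := congrArg List.length hnil
        simp at this
        omega)
      (by simpa using hd)
      (by
        intro v hv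
        obtain ⟨t, -, rfl⟩ := List.mem_map.mp hv
        exact Fin.is_lt _)
    simpa using this
  have hsum : ∑ y : Fin n, arcC W p y (g⁻¹ y : Fin n) ≤ n * bigM W := by
    rw [← Vale.Agent.Lib.P333.sum_cycles g]
    calc ∑ X ∈ Vale.Agent.Lib.P333.cycles g, ∑ y ∈ X, arcC W p y (g⁻¹ y : Fin n)
        ≤ ∑ X ∈ Vale.Agent.Lib.P333.cycles g, X.card * bigM W := Finset.sum_le_sum hcyc
      _ = (∑ X ∈ Vale.Agent.Lib.P333.cycles g, ∑ _y ∈ X, 1) * bigM W := by
          rw [Finset.sum_mul]
          simp
      _ = n * bigM W := by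
          rw [Vale.Agent.Lib.P333.sum_cycles g (fun _ => 1)]
          simp
  have hpt : ∀ y : Fin n, arcC W p y (g⁻¹ y : Fin n) + mat W y (app p y) =
      mat W y (app q y) + bigM W := by
    intro y
    unfold arcC
    rw [hginv]
    have := mat_lt_bigM_aux W y (app p y)
    omega
  have htot : ∑ y : Fin n, arcC W p y (g⁻¹ y : Fin n) + weightL W p =
      weightL W q + n * bigM W := by
    unfold weightL
    rw [← hn, sum_range_map, sum_range_map, ← Finset.sum_add_distrib]
    rw [Finset.sum_congr rfl (fun y _ => hpt y), Finset.sum_add_distrib]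
    simp
  omega

end Vale.Agent.Lib.P333F
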