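import Vale.Agent.Lib.P333F.Rot
import Vale.Agent.Lib.P333F.Opt

/-!
(part ASSIGN) The rounds of cycle cancelling.
-/

namespace Vale.Agent.Lib.P333F

open List (range)

theorem improve_perm (W : List (List ℕ)) {p : List ℕ} (h : p.Perm (range W.length)) :
    (improve W p).Perm (range W.length) := by
  unfold improve
  rcases rvOf_spec W p with ⟨h0, -⟩ | ⟨-, hnd, hv, -⟩
  · rw [h0, rotL_nil h]
    exact h
  · exact rotL_perm h hnd hv

theorem improve_spec (W : List (List ℕ)) {p : List ℕ} (h : p.Perm (range W.length)) :
    weightL W p + 1 ≤ weightL W (improve W p) ∨
      ∀ q : List ℕ, q.Perm (range W.length) → weightL W q ≤ weightL W p := by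
  rcases rvOf_spec W p with ⟨-, hno⟩ | ⟨hne, hnd, hv, hpos⟩
  · right
    intro q hq
    exact opt_of_no_pos W h hno hq
  · left
    have := rotL_weight W h hne hnd hv
    unfold improve
    omega

private theorem iter_improve (W : List (List ℕ)) (t : ℕ) :
    ((improve W)^[t] (range W.length)).Perm (range W.length) ∧
      (t ≤ weightL W ((improve W)^[t] (range W.length)) ∨
        ∀ q : List ℕ, q.Perm (range W.length) →
          weightL W q ≤ weightL W ((improve W)^[t] (range W.length))) := by
  induction t with
  | zero => exact ⟨List.Perm.refl _, Or.inl (Nat.zero_le _)⟩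
  | succ t ih =>
    obtain ⟨h1, h2⟩ := ih
    rw [Function.iterate_succ_apply']
    refine ⟨improve_perm W h1, ?_⟩
    rcases improve_spec W h1 with h3 | h3
    · rcases h2 with h2 | h2
      · left
        omega
      · right
        intro q hq
        have := h2 q hq
        omega
    · -- the assignment was already optimal, and `improve` keeps it so
      rcases rvOf_spec W ((improve W)^[t] (range W.length)) with ⟨h0, -⟩ | ⟨hne, hnd, hv, hpos⟩
      · right
        intro q hq
        have h4 : improve W ((improve W)^[t] (range W.length)) =
            (improve W)^[t] (range W.length) := by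
          show rotL W.length _ (rvOf W _) = _
          rw [h0]
          exact rotL_nil h1
        rw [h4]
        exact h3 q hq
      · exfalso
        have h5 := rotL_weight W h1 hne hnd hv
        have h6 := h3 _ (rotL_perm h1 hnd hv)
        omega

theorem maxAssign_perm (W : List (List ℕ)) : (maxAssign W).Perm (range W.length) := by
  unfold maxAssign
  rw [foldr_const]
  simpa using (iter_improve W (bigM W)).1

theorem maxAssign_opt (W : List (List ℕ)) {q : List ℕ} (hq : q.Perm (range W.length)) :
    weightL W q ≤ weightL W (maxAssign W) := by
  unfold maxAssign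
  rw [foldr_const]
  simp only [List.length_range]
  rcases (iter_improve W (bigM W)).2 with h | h
  · have := weightL_lt_bigM W ((improve W)^[bigM W] (range W.length))
    omega
  · exact h q hq

end Vale.Agent.Lib.P333F
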