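import Vale.Agent.Lib.P310.M.PTFun

/-!
Exact assignment problem in polynomial time (weights in unary): cancel negative closed walks.
The walk tables are computed by dynamic programming on the exact number of edges; a negative closed
walk with the fewest edges is simple.
-/

namespace Vale.Agent.Lib.P333F

open Vale.Agent.Lib.P310.M

/-- Entry of a matrix given as a list of rows. -/
def ent (W : List (List ℕ)) (i j : ℕ) : ℕ := (W.getD i []).getD j 0

/-- Sum of a list of natural numbers, in a form which is visibly polynomial. -/
theorem pt_sum {α : Type} [Enc α] {f : α → List ℕ} (hf : PT f) : PT (fun a => (f a).sum) := by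
  have h : PT (fun a => ((f a).flatMap (fun x => List.replicate x ())).length) := by
    fun_prop
  convert h using 2 with a
  generalize f a = l
  induction l with
  | nil => rfl
  | cons x l ih => simp only [List.sum_cons, List.flatMap_cons, List.length_append, List.length_replicate, ih]

/-- Cost of a permutation (given as a list of images). -/
def cost (W : List (List ℕ)) (s : List ℕ) : ℕ :=
  ((List.range W.length).map (fun i => ent W i (s.getD i 0))).sum

/-- Consecutive pairs of a walk. -/
def edges (p : List ℕ) : List (ℕ × ℕ) := List.zip p p.tail

/-- The positive part of the cost of a walk. -/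
def posW (W : List (List ℕ)) (s p : List ℕ) : ℕ :=
  ((edges p).map (fun e => ent W e.1 (s.getD e.2 0))).sum

/-- The negative part of the cost of a walk. -/
def negW (W : List (List ℕ)) (s p : List ℕ) : ℕ :=
  ((edges p).map (fun e => ent W e.1 (s.getD e.1 0))).sum

/-- The comparison of the costs of two walks, without integers. -/
def leW (W : List (List ℕ)) (s p q : List ℕ) : Bool :=
  decide (posW W s p + negW W s q ≤ posW W s q + negW W s p)

/-- A cheapest element of a list of walks. -/
def argminW (W : List (List ℕ)) (s : List ℕ) (cs : List (List ℕ)) : List ℕ :=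
  (cs.filter (fun p => cs.all (fun q => leW W s p q))).getD 0 []

/-- Table look-up. -/
def look (T : List (List (List ℕ))) (i j : ℕ) : List ℕ := (T.getD i []).getD j []

/-- One step of the dynamic programme: walks with one more edge. -/
def stepT (W : List (List ℕ)) (s : List ℕ) (T : List (List (List ℕ))) : List (List (List ℕ)) :=
  (List.range W.length).map (fun i => (List.range W.length).map (fun j =>
    argminW W s ((List.range W.length).map (fun l => look T i l ++ [j]))))

/-- The table of single edges. -/
def T1 (n : ℕ) : List (List (List ℕ)) :=
  (List.range n).map (fun i => (List.range n).map (fun j => [i, j]))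

/-- The table of cheapest walks with exactly `k + 1` edges. -/
def tabAt (W : List (List ℕ)) (s : List ℕ) (k : ℕ) : List (List (List ℕ)) :=
  (List.replicate k ()).foldr (fun _ T => stepT W s T) (T1 W.length)

/-- All closed walks in the tables. -/
def closedW (W : List (List ℕ)) (s : List ℕ) : List (List ℕ) :=
  (List.range W.length).flatMap (fun k => (List.range W.length).map (fun i => look (tabAt W s k) i i))

/-- The negative closed walks in the tables. -/
def negsW (W : List (List ℕ)) (s : List ℕ) : List (List ℕ) :=
  (closedW W s).filter (fun p => decide (posW W s p < negW W s p))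

/-- A negative closed walk with the fewest edges. -/
def pickW (W : List (List ℕ)) (s : List ℕ) : List ℕ :=
  ((negsW W s).filter (fun p => (negsW W s).all (fun q => decide (p.length ≤ q.length)))).getD 0 []

/-- The successor of a vertex on a closed walk. -/
def nextV (p : List ℕ) (i : ℕ) : ℕ :=
  if i ∈ p then p.getD (p.idxOf i + 1) 0 else i

/-- Rotate a permutation along a closed walk. -/
def applyC (n : ℕ) (s p : List ℕ) : List ℕ :=
  (List.range n).map (fun i => s.getD (nextV p i) 0)

/-- One round of negative cycle cancelling. -/
def improve (W : List (List ℕ)) (s : List ℕ) : List ℕ :=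
  if negsW W s = [] then s else applyC W.length s (pickW W s)

/-- Minimum weight permutation. -/
def assign (W : List (List ℕ)) : List ℕ :=
  (List.replicate (cost W (List.range W.length) + 1) ()).foldr (fun _ s => improve W s)
    (List.range W.length)

/-! Polynomial time. -/

theorem pt_ent {α : Type} [Enc α] {W : α → List (List ℕ)} {i j : α → ℕ} (hW : PT W) (hi : PT i)
    (hj : PT j) : PT (fun a => ent (W a) (i a) (j a)) := by
  unfold ent
  fun_prop

theorem pt_edges {α : Type} [Enc α] {p : α → List ℕ} (hp : PT p) : PT (fun a => edges (p a)) := by
  unfold edges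
  exact PT.zip' hp (PT.tail hp)

theorem pt_posW {α : Type} [Enc α] {W : α → List (List ℕ)} {s p : α → List ℕ} (hW : PT W)
    (hs : PT s) (hp : PT p) : PT (fun a => posW (W a) (s a) (p a)) := by
  unfold posW
  refine pt_sum (PT.map' (pt_edges hp) ?_)
  refine pt_ent (hW.comp PT.fst) (PT.fst.comp PT.snd) ?_
  exact PT.getD' (hs.comp PT.fst) (PT.snd.comp PT.snd) (PT.const 0)

theorem pt_negW {α : Type} [Enc α] {W : α → List (List ℕ)} {s p : α → List ℕ} (hW : PT W)
    (hs : PT s) (hp : PT p) : PT (fun a => negW (W a) (s a) (p a)) := by
  unfold negW
  refine pt_sum (PT.map' (pt_edges hp) ?_)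
  refine pt_ent (hW.comp PT.fst) (PT.fst.comp PT.snd) ?_
  exact PT.getD' (hs.comp PT.fst) (PT.fst.comp PT.snd) (PT.const 0)

end Vale.Agent.Lib.P333F
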