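import Vale.Agent.Lib.P333F.AssignWalk

/-!
Correctness of negative cycle cancelling: no negative closed walk means optimal; a negative closed
walk with the fewest edges is simple, and rotating along it lowers the cost.
-/

namespace Vale.Agent.Lib.P333F

variable (W : List (List ℕ))

lemma sum_map_range (n : ℕ) (f : ℕ → ℕ) : ((List.range n).map f).sum = ∑ i ∈ Finset.range n, f i := by
  induction n with
  | zero => simp
  | succ n ih => simp [List.range_succ, Finset.sum_range_succ, ih]

lemma cost_eq (s : List ℕ) :
    (cost W s : ℤ) = ∑ i ∈ Finset.range W.length, (ent W i (s.getD i 0) : ℤ) := by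
  unfold cost
  rw [sum_map_range]
  push_cast
  rfl

lemma perm_getD_lt {n : ℕ} {s : List ℕ} (hs : s.Perm (List.range n)) {i : ℕ} (hi : i < n) :
    s.getD i 0 < n := by
  have hl : s.length = n := by simpa using hs.length_eq
  rw [List.getD_eq_getElem _ _ (by omega)]
  exact List.mem_range.mp (hs.subset (List.getElem_mem _))

lemma perm_getD_inj {n : ℕ} {s : List ℕ} (hs : s.Perm (List.range n)) {i j : ℕ} (hi : i < n)
    (hj : j < n) (h : s.getD i 0 = s.getD j 0) : i = j := by
  have hl : s.length = n := by simpa using hs.length_eq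
  rw [List.getD_eq_getElem _ _ (by omega), List.getD_eq_getElem _ _ (by omega)] at h
  have hnd : s.Nodup := hs.nodup_iff.mpr List.nodup_range
  exact (hnd.getElem_inj_iff).mp h

/-- The permutation of `Fin n` of a list. -/
noncomputable def permOf {n : ℕ} {s : List ℕ} (hs : s.Perm (List.range n)) : Equiv.Perm (Fin n) :=
  Equiv.ofBijective (fun i => ⟨s.getD i 0, perm_getD_lt hs i.2⟩)
    (Finite.injective_iff_bijective.mp (by
      intro a b h
      have h' : s.getD a 0 = s.getD b 0 := congrArg Fin.val h
      exact Fin.ext (perm_getD_inj hs a.2 b.2 h')))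

lemma permOf_val {n : ℕ} {s : List ℕ} (hs : s.Perm (List.range n)) (i : Fin n) :
    (permOf hs i).val = s.getD i 0 := rfl

/-- The orbit walk. -/
def orbW {n : ℕ} (π : Equiv.Perm (Fin n)) (i : Fin n) (m : ℕ) : List ℕ :=
  (List.range (m + 1)).map (fun t => ((π ^ t) i).val)

lemma orbW_last {n : ℕ} (π : Equiv.Perm (Fin n)) (i : Fin n) (m : ℕ) :
    (orbW π i m).getLast? = some ((π ^ m) i).val := by
  unfold orbW
  rw [List.range_succ, List.map_append]
  simp

lemma wc_orbW (s : List ℕ) {n : ℕ} (π : Equiv.Perm (Fin n)) (i : Fin n) (m : ℕ) :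
    wc W s (orbW π i m) =
      ∑ t ∈ Finset.range m, cE W s ((π ^ t) i).val ((π ^ (t + 1)) i).val := by
  induction m with
  | zero =>
    simp [orbW, wc]
  | succ m ih =>
    rw [Finset.sum_range_succ, ← ih]
    have : orbW π i (m + 1) = orbW π i m ++ [((π ^ (m + 1)) i).val] := by
      unfold orbW
      rw [List.range_succ (n := m + 1), List.map_append]
      rfl
    rw [this, wc_snoc W s (orbW_last π i m)]

lemma isWalk_orbW {n : ℕ} (π : Equiv.Perm (Fin n)) (i : Fin n) (m : ℕ) :
    IsWalk n m i ((π ^ (m + 1)) i).val (orbW π i (m + 1)) := by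
  refine ⟨by simp [orbW], ?_, orbW_last π i _, ?_⟩
  · unfold orbW
    rw [List.range_succ_eq_map, List.map_cons]
    simp
  · intro x hx
    unfold orbW at hx
    rw [List.mem_map] at hx
    obtain ⟨t, -, rfl⟩ := hx
    exact Fin.is_lt _

lemma exists_return {n : ℕ} (π : Equiv.Perm (Fin n)) (i : Fin n) :
    ∃ m, m < n ∧ (π ^ (m + 1)) i = i := by
  obtain ⟨a, b, hab, h⟩ := Fintype.exists_ne_map_eq_of_card_lt
    (fun t : Fin (n + 1) => (π ^ t.val) i) (by simp)
  wlog hlt : a < b generalizing a b
  · exact this b a hab.symm h.symm (lt_of_le_of_ne (not_lt.mp hlt) hab.symm)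
  have hlt' : a.val < b.val := hlt
  refine ⟨b.val - a.val - 1, ?_, ?_⟩
  · have := b.2
    omega
  · have e : b.val = a.val + (b.val - a.val - 1 + 1) := by omega
    have h' : (π ^ a.val) i = (π ^ b.val) i := h
    rw [e, pow_add, Equiv.Perm.mul_apply] at h'
    exact ((π ^ a.val).injective h').symm

lemma sum_periodic (h : ℕ → ℤ) (m : ℕ) (hp : ∀ t, h (t + m) = h t) (q : ℕ) :
    ∑ t ∈ Finset.range (q * m), h t = q * ∑ t ∈ Finset.range m, h t := by
  have hq : ∀ q t, h (q * m + t) = h t := by
    intro q
    induction q with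
    | zero => intro t; simp
    | succ q ih =>
      intro t
      have : (q + 1) * m + t = (q * m + t) + m := by ring
      rw [this, hp, ih]
  induction q with
  | zero => simp
  | succ q ih =>
    have : (q + 1) * m = q * m + m := by ring
    rw [this, Finset.sum_range_add, ih]
    simp only [hq]
    push_cast
    ring

/-- If no table entry on the diagonal is negative then the permutation is optimal. -/
theorem opt_of_noNeg {s t : List ℕ} (hs : s.Perm (List.range W.length))
    (ht : t.Perm (List.range W.length))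
    (hN : ∀ k i, k < W.length → i < W.length → 0 ≤ wc W s (look (tabAt W s k) i i)) :
    cost W s ≤ cost W t := by
  set n := W.length with hn
  set F := permOf hs
  set G := permOf ht
  set π : Equiv.Perm (Fin n) := F⁻¹ * G with hπ
  have hFπ : ∀ i : Fin n, s.getD (π i).val 0 = t.getD i.val 0 := by
    intro i
    have : F (π i) = G i := by simp [hπ]
    have h2 := congrArg Fin.val this
    rwa [permOf_val, permOf_val] at h2
  set S : ℤ := ∑ i : Fin n, cE W s i.val (π i).val with hS
  have hdiff : (cost W t : ℤ) - cost W s = S := by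
    rw [cost_eq, cost_eq, ← hn, Finset.sum_range, Finset.sum_range, ← Finset.sum_sub_distrib]
    refine Finset.sum_congr rfl (fun i _ => ?_)
    unfold cE
    rw [hFπ i]
  -- each orbit is non-negative
  have hblock : ∀ i : Fin n, 0 ≤ ∑ u ∈ Finset.range n.factorial,
      cE W s ((π ^ u) i).val ((π ^ (u + 1)) i).val := by
    intro i
    obtain ⟨m, hm, hr⟩ := exists_return π i
    have hwalk : IsWalk W.length m i i (orbW π i (m + 1)) := by
      have := isWalk_orbW π i m
      rw [hr] at this
      exact this
    have h0 : 0 ≤ wc W s (orbW π i (m + 1)) :=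
      (hN m i hm i.2).trans (wc_table_le W s hwalk)
    rw [wc_orbW] at h0
    obtain ⟨q, hq⟩ := Nat.dvd_factorial (Nat.succ_pos m) (show m + 1 ≤ n by omega)
    rw [hq, mul_comm]
    have hper : ∀ u, (π ^ (u + (m + 1))) i = (π ^ u) i := by
      intro u
      rw [pow_add, Equiv.Perm.mul_apply, hr]
    rw [sum_periodic (fun u => cE W s ((π ^ u) i).val ((π ^ (u + 1)) i).val) (m + 1) (fun u => by
      show cE W s ((π ^ (u + (m + 1))) i).val ((π ^ (u + (m + 1) + 1)) i).val = _
      have e : u + (m + 1) + 1 = (u + 1) + (m + 1) := by ring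
      rw [e, hper, hper])]
    positivity
  have hsum : (n.factorial : ℤ) * S = ∑ i : Fin n, ∑ u ∈ Finset.range n.factorial,
      cE W s ((π ^ u) i).val ((π ^ (u + 1)) i).val := by
    rw [Finset.sum_comm]
    have : ∀ u ∈ Finset.range n.factorial, ∑ i : Fin n,
        cE W s ((π ^ u) i).val ((π ^ (u + 1)) i).val = S := by
      intro u _
      have e := Equiv.sum_comp (π ^ u) (fun j : Fin n => cE W s j.val (π j).val)
      rw [hS, ← e]
      refine Finset.sum_congr rfl (fun i _ => ?_)
      rw [pow_succ', Equiv.Perm.mul_apply]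
    rw [Finset.sum_congr rfl this]
    simp
  have hS0 : 0 ≤ S := by
    have h1 : 0 ≤ (n.factorial : ℤ) * S := by
      rw [hsum]
      exact Finset.sum_nonneg (fun i _ => hblock i)
    have h2 : (0 : ℤ) < n.factorial := by exact_mod_cast Nat.factorial_pos n
    exact nonneg_of_mul_nonneg_right h1 h2
  omega

end Vale.Agent.Lib.P333F
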