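import Vale.Agent.Lib.P333F.AssignDefs

/-!
The assignment algorithm runs in polynomial time.
-/

namespace Vale.Agent.Lib.P333F

open Vale.Agent.Lib.P310.M

variable {α : Type} [Enc α]

theorem pt_leW {W : α → List (List ℕ)} {s p q : α → List ℕ} (hW : PT W) (hs : PT s) (hp : PT p)
    (hq : PT q) : PT (fun a => leW (W a) (s a) (p a) (q a)) := by
  unfold leW
  exact PT.ble (PT.add' (pt_posW hW hs hp) (pt_negW hW hs hq))
    (PT.add' (pt_posW hW hs hq) (pt_negW hW hs hp))

theorem pt_argminW {W : α → List (List ℕ)} {s : α → List ℕ} {cs : α → List (List ℕ)} (hW : PT W)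
    (hs : PT s) (hc : PT cs) : PT (fun a => argminW (W a) (s a) (cs a)) := by
  unfold argminW
  refine PT.getD' (PT.filter' hc ?_) (PT.const 0) (PT.const [])
  refine PT.all' (hc.comp PT.fst) ?_
  exact pt_leW (hW.comp (PT.fst.comp PT.fst)) (hs.comp (PT.fst.comp PT.fst)) (PT.snd.comp PT.fst) PT.snd

theorem pt_look {T : α → List (List (List ℕ))} {i j : α → ℕ} (hT : PT T) (hi : PT i) (hj : PT j) :
    PT (fun a => look (T a) (i a) (j a)) := by
  unfold look
  fun_prop

theorem pt_stepT {W : α → List (List ℕ)} {s : α → List ℕ} {T : α → List (List (List ℕ))} (hW : PT W)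
    (hs : PT s) (hT : PT T) : PT (fun a => stepT (W a) (s a) (T a)) := by
  unfold stepT
  refine PT.map' (PT.range' (PT.length' hW)) ?_
  refine PT.map' (PT.range' (PT.length' (hW.comp PT.fst))) ?_
  refine pt_argminW (hW.comp (PT.fst.comp PT.fst)) (hs.comp (PT.fst.comp PT.fst)) ?_
  refine PT.map' (PT.range' (PT.length' (hW.comp (PT.fst.comp PT.fst)))) ?_
  refine PT.append' ?_ (PT.cons' (PT.snd.comp PT.fst) (PT.const []))
  exact pt_look (hT.comp (PT.fst.comp (PT.fst.comp PT.fst))) (PT.snd.comp (PT.fst.comp PT.fst)) PT.snd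

theorem pt_T1 {n : α → ℕ} (hn : PT n) : PT (fun a => T1 (n a)) := by
  unfold T1
  refine PT.map' (PT.range' hn) ?_
  refine PT.map' (PT.range' (hn.comp PT.fst)) ?_
  exact PT.cons' (PT.snd.comp PT.fst) (PT.cons' PT.snd (PT.const []))

/-- The shape of a table of walks: vertices below `n`, at most `K` vertices in a walk. -/
def TabOK (n K : ℕ) (T : List (List (List ℕ))) : Prop :=
  T.length ≤ n ∧ ∀ r ∈ T, r.length ≤ n ∧ ∀ p ∈ r, p.length ≤ K ∧ ∀ x ∈ p, x < n

lemma TabOK_T1 (n : ℕ) : TabOK n 2 (T1 n) := by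
  unfold TabOK T1
  refine ⟨by simp, ?_⟩
  intro r hr
  simp only [List.mem_map, List.mem_range] at hr
  obtain ⟨i, hi, rfl⟩ := hr
  refine ⟨by simp, ?_⟩
  intro p hp
  simp only [List.mem_map, List.mem_range] at hp
  obtain ⟨j, hj, rfl⟩ := hp
  refine ⟨by simp, ?_⟩
  intro x hx
  simp only [List.mem_cons, List.not_mem_nil, or_false] at hx
  rcases hx with rfl | rfl <;> assumption

lemma look_ok {n K : ℕ} {T : List (List (List ℕ))} (h : TabOK n K T) (i j : ℕ) :
    (look T i j).length ≤ K ∧ ∀ x ∈ look T i j, x < n := by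
  unfold look
  have h0 : ∀ p ∈ T.getD i [], p.length ≤ K ∧ ∀ x ∈ p, x < n := by
    intro p hp
    by_cases hi : i < T.length
    · have : T.getD i [] ∈ T := by
        rw [List.getD_eq_getElem _ _ hi]; exact List.getElem_mem hi
      exact (h.2 _ this).2 p hp
    · rw [List.getD_eq_default _ _ (by omega)] at hp
      simp at hp
  by_cases hj : j < (T.getD i []).length
  · rw [List.getD_eq_getElem _ _ hj]
    exact h0 _ (List.getElem_mem hj)
  · rw [List.getD_eq_default _ _ (by omega)]
    simp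

lemma argminW_ok (W : List (List ℕ)) (s : List ℕ) (cs : List (List ℕ)) {n K : ℕ}
    (h : ∀ p ∈ cs, p.length ≤ K ∧ ∀ x ∈ p, x < n) :
    (argminW W s cs).length ≤ K ∧ ∀ x ∈ argminW W s cs, x < n := by
  unfold argminW
  set F := cs.filter (fun p => cs.all (fun q => leW W s p q))
  by_cases h0 : 0 < F.length
  · rw [List.getD_eq_getElem _ _ h0]
    have hm : F[0] ∈ F := List.getElem_mem h0
    exact h _ (List.mem_of_mem_filter hm)
  · rw [List.getD_eq_default _ _ (by omega)]
    simp

lemma TabOK_step (W : List (List ℕ)) (s : List ℕ) {K : ℕ} {T : List (List (List ℕ))}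
    (h : TabOK W.length K T) : TabOK W.length (K + 1) (stepT W s T) := by
  unfold TabOK stepT
  refine ⟨by simp, ?_⟩
  intro r hr
  simp only [List.mem_map, List.mem_range] at hr
  obtain ⟨i, hi, rfl⟩ := hr
  refine ⟨by simp, ?_⟩
  intro p hp
  simp only [List.mem_map, List.mem_range] at hp
  obtain ⟨j, hj, rfl⟩ := hp
  apply argminW_ok
  intro p hp
  simp only [List.mem_map, List.mem_range] at hp
  obtain ⟨l, hl, rfl⟩ := hp
  have := look_ok h i l
  refine ⟨by simpa using this.1, ?_⟩
  intro x hx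
  simp only [List.mem_append, List.mem_cons, List.not_mem_nil, or_false] at hx
  rcases hx with hx | rfl
  · exact this.2 x hx
  · exact hj

lemma TabOK_fold (W : List (List ℕ)) (s : List ℕ) (l : List Unit) :
    TabOK W.length (l.length + 2) (l.foldr (fun _ T => stepT W s T) (T1 W.length)) := by
  induction l with
  | nil => exact TabOK_T1 _
  | cons y l ih =>
    have := TabOK_step W s ih
    simp only [List.foldr_cons, List.length_cons]
    convert this using 1

lemma sz_tab {n K : ℕ} {T : List (List (List ℕ))} (h : TabOK n K T) :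
    sz (enc T) ≤ ((((2 * n + 2) * K + 1 + 1) * n + 1 + 1) * n + 1) := by
  have h3 : ∀ r ∈ T, sz (enc r) ≤ (((2 * n + 2) * K + 1 + 1) * n + 1) := by
    intro r hr
    have h1 : ∀ p ∈ r, sz (enc p) ≤ (2 * n + 2) * K + 1 := by
      intro p hp
      have hh := (h.2 r hr).2 p hp
      have h0 := PT.sz_list_le (K := 2 * n + 1) p (fun y hy => by
        rw [PT.sz_natEnc]; have := hh.2 y hy; omega)
      have h5 : (2 * n + 1 + 1) * p.length ≤ (2 * n + 2) * K :=
        Nat.mul_le_mul_left _ hh.1
      omega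
    have h2 := PT.sz_list_le (K := (2 * n + 2) * K + 1) r h1
    have h5 : ((2 * n + 2) * K + 1 + 1) * r.length ≤ ((2 * n + 2) * K + 1 + 1) * n :=
      Nat.mul_le_mul_left _ (h.2 r hr).1
    omega
  have h2 := PT.sz_list_le (K := (((2 * n + 2) * K + 1 + 1) * n + 1)) T h3
  have h5 : (((2 * n + 2) * K + 1 + 1) * n + 1 + 1) * T.length ≤
      (((2 * n + 2) * K + 1 + 1) * n + 1 + 1) * n := Nat.mul_le_mul_left _ h.1
  omega

theorem pt_tabAt {W : α → List (List ℕ)} {s : α → List ℕ} {k : α → ℕ} (hW : PT W) (hs : PT s)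
    (hk : PT k) : PT (fun a => tabAt (W a) (s a) (k a)) := by
  unfold tabAt
  have h := PT.list_foldr (f := fun a => List.replicate (k a) ()) (b := fun a => T1 (W a).length)
    (s := fun x : α × Unit × List (List (List ℕ)) => stepT (W x.1) (s x.1) x.2.2)
    (PT.unary hk) (pt_T1 (PT.length' hW))
    (pt_stepT (hW.comp PT.fst) (hs.comp PT.fst) (PT.snd.comp PT.snd)) ?_
  · exact h
  · obtain ⟨c, d, hc⟩ := PT.szBound hW
    -- the number of rows is polynomial in the size of the parameter
    refine ⟨10000 * (c + 1) ^ 4, 4 * d + 4, fun a l => ?_⟩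
    have h1 := sz_tab (TabOK_fold (W a) (s a) l)
    set n := (W a).length with hn
    have hn1 : n ≤ c * (sz (enc a) + 1) ^ d := (PT.length_le_sz _).trans (hc a)
    have hl : l.length ≤ sz (enc l) := PT.length_le_sz _
    set A := sz (enc a) + sz (enc l) + 1 with hA
    have hA1 : 1 ≤ A := by omega
    have hn2 : n + 1 ≤ (c + 1) * A ^ d := by
      have h2 : (sz (enc a) + 1) ^ d ≤ A ^ d := Nat.pow_le_pow_left (by omega) d
      have h3 : 1 ≤ A ^ d := Nat.one_le_pow _ _ hA1
      calc n + 1 ≤ c * A ^ d + A ^ d := by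
            have := Nat.mul_le_mul_left c h2
            omega
        _ = (c + 1) * A ^ d := by ring
    set B := (c + 1) * A ^ d with hB
    have hB1 : 1 ≤ B := by omega
    have hl2 : l.length + 2 ≤ 3 * A := by omega
    have h4 : ((((2 * n + 2) * (l.length + 2) + 1 + 1) * n + 1 + 1) * n + 1) ≤ 100 * (B ^ 3 * A) := by
      have e1 : (2 * n + 2) * (l.length + 2) ≤ (2 * B) * (3 * A) := Nat.mul_le_mul (by omega) hl2
      have hAB : 1 ≤ B * A := Nat.mul_pos hB1 hA1
      have e2 : ((2 * n + 2) * (l.length + 2) + 1 + 1) ≤ 8 * (B * A) := by nlinarith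
      have e3 : ((2 * n + 2) * (l.length + 2) + 1 + 1) * n ≤ 8 * (B * A) * B :=
        Nat.mul_le_mul e2 (by omega)
      have hABB : 1 ≤ B * A * B := Nat.mul_pos hAB hB1
      have e4 : ((2 * n + 2) * (l.length + 2) + 1 + 1) * n + 1 + 1 ≤ 10 * (B * A * B) := by nlinarith
      have e5 : ((((2 * n + 2) * (l.length + 2) + 1 + 1) * n + 1 + 1) * n) ≤ 10 * (B * A * B) * B :=
        Nat.mul_le_mul e4 (by omega)
      have hABBB : 1 ≤ B * A * B * B := Nat.mul_pos hABB hB1
      have e6 : 10 * (B * A * B) * B = 10 * (B ^ 3 * A) := by ring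
      have e7 : B * A * B * B = B ^ 3 * A := by ring
      omega
    refine h1.trans (h4.trans ?_)
    have e8 : B ^ 3 * A ≤ (c + 1) ^ 4 * A ^ (4 * d + 4) := by
      have : B ^ 3 * A = (c + 1) ^ 3 * (A ^ (3 * d + 1)) := by
        rw [hB]; ring
      rw [this]
      refine Nat.mul_le_mul (Nat.pow_le_pow_right (by omega) (by omega))
        (Nat.pow_le_pow_right hA1 (by omega))
    calc 100 * (B ^ 3 * A) ≤ 100 * ((c + 1) ^ 4 * A ^ (4 * d + 4)) := Nat.mul_le_mul_left _ e8
      _ ≤ 10000 * (c + 1) ^ 4 * A ^ (4 * d + 4) := by nlinarith [Nat.zero_le ((c + 1) ^ 4 * A ^ (4 * d + 4))]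

theorem pt_closedW {W : α → List (List ℕ)} {s : α → List ℕ} (hW : PT W) (hs : PT s) :
    PT (fun a => closedW (W a) (s a)) := by
  unfold closedW
  refine PT.flatMap' (PT.range' (PT.length' hW)) ?_
  refine PT.map' (PT.range' (PT.length' (hW.comp PT.fst))) ?_
  exact pt_look (pt_tabAt (hW.comp (PT.fst.comp PT.fst)) (hs.comp (PT.fst.comp PT.fst))
    (PT.snd.comp PT.fst)) PT.snd PT.snd

theorem pt_negsW {W : α → List (List ℕ)} {s : α → List ℕ} (hW : PT W) (hs : PT s) :
    PT (fun a => negsW (W a) (s a)) := by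
  unfold negsW
  refine PT.filter' (pt_closedW hW hs) ?_
  refine PT.blt (pt_posW (hW.comp PT.fst) (hs.comp PT.fst) PT.snd)
    (pt_negW (hW.comp PT.fst) (hs.comp PT.fst) PT.snd)

theorem pt_pickW {W : α → List (List ℕ)} {s : α → List ℕ} (hW : PT W) (hs : PT s) :
    PT (fun a => pickW (W a) (s a)) := by
  unfold pickW
  refine PT.getD' (PT.filter' (pt_negsW hW hs) ?_) (PT.const 0) (PT.const [])
  refine PT.all' (pt_negsW (hW.comp PT.fst) (hs.comp PT.fst)) ?_
  exact PT.ble (PT.length' (PT.snd.comp PT.fst)) (PT.length' PT.snd)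

theorem pt_nextV {p : α → List ℕ} {i : α → ℕ} (hp : PT p) (hi : PT i) :
    PT (fun a => nextV (p a) (i a)) := by
  unfold nextV
  refine PT.ite' (PT.dec_mem hi hp) ?_ hi
  exact PT.getD' hp (PT.add' (PT.idxOf' hi hp) (PT.const 1)) (PT.const 0)

theorem pt_applyC {n : α → ℕ} {s p : α → List ℕ} (hn : PT n) (hs : PT s) (hp : PT p) :
    PT (fun a => applyC (n a) (s a) (p a)) := by
  unfold applyC
  refine PT.map' (PT.range' hn) ?_
  exact PT.getD' (hs.comp PT.fst) (pt_nextV (hp.comp PT.fst) PT.snd) (PT.const 0)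

theorem pt_improve {W : α → List (List ℕ)} {s : α → List ℕ} (hW : PT W) (hs : PT s) :
    PT (fun a => improve (W a) (s a)) := by
  unfold improve
  refine PT.ite' (PT.dec_eq (pt_negsW hW hs) (PT.const [])) hs ?_
  exact pt_applyC (PT.length' hW) hs (pt_pickW hW hs)

theorem pt_cost {W : α → List (List ℕ)} {s : α → List ℕ} (hW : PT W) (hs : PT s) :
    PT (fun a => cost (W a) (s a)) := by
  unfold cost
  refine pt_sum (PT.map' (PT.range' (PT.length' hW)) ?_)
  exact pt_ent (hW.comp PT.fst) PT.snd (PT.getD' (hs.comp PT.fst) PT.snd (PT.const 0))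

/-- Shape of permutation candidates. -/
def ListOK (n : ℕ) (s : List ℕ) : Prop := s.length = n ∧ ∀ x ∈ s, x < n

lemma ListOK_range (n : ℕ) : ListOK n (List.range n) := by
  refine ⟨by simp, ?_⟩
  intro x hx
  exact List.mem_range.mp hx

lemma ListOK_applyC {n : ℕ} {s : List ℕ} (hs : ListOK n s) (p : List ℕ) :
    ListOK n (applyC n s p) := by
  unfold applyC
  refine ⟨by simp, ?_⟩
  intro x hx
  simp only [List.mem_map, List.mem_range] at hx
  obtain ⟨i, hi, rfl⟩ := hx
  by_cases h : nextV p i < s.length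
  · rw [List.getD_eq_getElem _ _ h]
    exact hs.2 _ (List.getElem_mem h)
  · rw [List.getD_eq_default _ _ (by omega)]
    omega

lemma ListOK_improve (W : List (List ℕ)) {s : List ℕ} (hs : ListOK W.length s) :
    ListOK W.length (improve W s) := by
  unfold improve
  split_ifs
  · exact hs
  · exact ListOK_applyC hs _

lemma sz_listOK {n : ℕ} {s : List ℕ} (hs : ListOK n s) : sz (enc s) ≤ (2 * n + 2) * n + 1 := by
  have h0 := PT.sz_list_le (K := 2 * n + 1) s (fun y hy => by
    rw [PT.sz_natEnc]; have := hs.2 y hy; omega)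
  rw [hs.1] at h0
  exact h0

theorem pt_assign : PT assign := by
  unfold assign
  have hW : PT (fun W : List (List ℕ) => W) := PT.id
  have h := PT.list_foldr (f := fun W : List (List ℕ) => List.replicate (cost W (List.range W.length) + 1) ())
    (b := fun W => List.range W.length)
    (s := fun x : List (List ℕ) × Unit × List ℕ => improve x.1 x.2.2)
    (PT.unary (PT.add' (pt_cost hW (PT.range' (PT.length' hW))) (PT.const 1)))
    (PT.range' (PT.length' hW))
    (pt_improve PT.fst (PT.snd.comp PT.snd)) ?_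
  · exact h
  · refine ⟨4, 2, fun W l => ?_⟩
    have key : ListOK W.length (l.foldr (fun _ s => improve W s) (List.range W.length)) := by
      induction l with
      | nil => exact ListOK_range _
      | cons y l ih => exact ListOK_improve W ih
    have h1 := sz_listOK key
    have hn : W.length ≤ sz (enc W) := PT.length_le_sz _
    set A := sz (enc W) + sz (enc l) + 1 with hA
    have hA1 : W.length + 1 ≤ A := by omega
    have h2 : (2 * W.length + 2) * W.length + 1 ≤ 4 * A ^ 2 := by
      nlinarith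
    exact h1.trans h2

end Vale.Agent.Lib.P333F
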