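import Vale.Agent.Lib.P333F.AssignOpt

/-!
A negative closed walk with the fewest edges is simple; rotating along it lowers the cost.
-/

namespace Vale.Agent.Lib.P333F

variable (W : List (List ℕ)) (s : List ℕ)

lemma exists_dup_split {l : List ℕ} (h : ¬ l.Nodup) :
    ∃ A x B C, l = A ++ x :: (B ++ x :: C) := by
  induction l with
  | nil => simp at h
  | cons a l ih =>
    rw [List.nodup_cons, not_and_or, not_not] at h
    rcases h with h | h
    · obtain ⟨B, C, rfl⟩ := List.append_of_mem h
      exact ⟨[], a, B, C, rfl⟩
    · obtain ⟨A, x, B, C, rfl⟩ := ih h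
      exact ⟨a :: A, x, B, C, rfl⟩

lemma getLast?_snoc (l : List ℕ) (x : ℕ) : (l ++ [x]).getLast? = some x := by simp

lemma pick_spec (hne : negsW W s ≠ []) :
    pickW W s ∈ negsW W s ∧ ∀ q ∈ negsW W s, (pickW W s).length ≤ q.length := by
  classical
  obtain ⟨p0, hp0, hmin⟩ := Finset.exists_min_image (negsW W s).toFinset List.length
    (by
      obtain ⟨x, hx⟩ := List.exists_mem_of_ne_nil _ hne
      exact ⟨x, List.mem_toFinset.mpr hx⟩)
  have hp0' : p0 ∈ (negsW W s).filter (fun p => (negsW W s).all (fun q => decide (p.length ≤ q.length))) := by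
    rw [List.mem_filter]
    refine ⟨List.mem_toFinset.mp hp0, ?_⟩
    rw [List.all_eq_true]
    intro q hq
    exact decide_eq_true (hmin q (List.mem_toFinset.mpr hq))
  unfold pickW
  set F := (negsW W s).filter (fun p => (negsW W s).all (fun q => decide (p.length ≤ q.length))) with hF
  have h0 : 0 < F.length := List.length_pos_of_mem hp0'
  rw [List.getD_eq_getElem _ _ h0]
  have hm : F[0] ∈ F := List.getElem_mem h0
  generalize F[0] = r at hm ⊢
  rw [hF, List.mem_filter, List.all_eq_true] at hm
  exact ⟨hm.1, fun q hq => of_decide_eq_true (hm.2 q hq)⟩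

/-- Negative table entries are in the list of negative walks. -/
lemma mem_negs_of_neg {k x : ℕ} {q : List ℕ} (hk : k < W.length) (hq : IsWalk W.length k x x q)
    (hneg : wc W s q < 0) :
    ∃ r ∈ negsW W s, r.length = k + 2 := by
  have hx : x < W.length := hq.lt x (List.mem_of_mem_head? hq.head)
  refine ⟨look (tabAt W s k) x x, ?_, ((tabC_tabAt W s k) x x hx hx).1.len⟩
  rw [mem_negsW_iff]
  exact ⟨mem_closedW W s hk hx, lt_of_le_of_lt (wc_table_le W s hq) hneg⟩

lemma simple_of_min {k i : ℕ} {p : List ℕ} (hw : IsWalk W.length k i i p) (hk : k < W.length)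
    (hneg : wc W s p < 0) (hmin : ∀ q ∈ negsW W s, p.length ≤ q.length) : p.dropLast.Nodup := by
  by_contra hnd
  obtain ⟨A, x, B, C, hd⟩ := exists_dup_split hnd
  have hne : p ≠ [] := by
    intro h0
    have := hw.len
    simp [h0] at this
  have hlast : p.getLast hne = i := by
    have := hw.last
    rw [List.getLast?_eq_some_getLast hne] at this
    exact Option.some.inj this
  have hp : p = A ++ x :: (B ++ x :: (C ++ [i])) := by
    have := (List.dropLast_append_getLast hne).symm
    rw [hd, hlast] at this
    simpa [List.append_assoc] using this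
  have hlen : A.length + B.length + C.length + 3 = k + 2 := by
    have := hw.len
    rw [hp] at this
    simp only [List.length_append, List.length_cons, List.length_nil] at this
    omega
  have hc : wc W s p = wc W s ((x :: B) ++ [x]) + wc W s (A ++ x :: (C ++ [i])) := by
    rw [hp, wc_split W s A x (B ++ x :: (C ++ [i])), wc_split W s A x (C ++ [i])]
    have : wc W s (x :: (B ++ x :: (C ++ [i]))) =
        wc W s ((x :: B) ++ [x]) + wc W s (x :: (C ++ [i])) := by
      have e : x :: (B ++ x :: (C ++ [i])) = (x :: B) ++ x :: (C ++ [i]) := rfl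
      rw [e, wc_split W s (x :: B) x (C ++ [i])]
    rw [this]
    ring
  have hltp : ∀ y ∈ A ++ x :: (B ++ x :: (C ++ [i])), y < W.length := by
    intro y hy
    exact hw.lt y (hp ▸ hy)
  have hw1 : IsWalk W.length B.length x x ((x :: B) ++ [x]) := by
    refine ⟨by simp, by simp, getLast?_snoc _ _, ?_⟩
    intro y hy
    apply hltp
    simp only [List.cons_append, List.mem_cons, List.mem_append, List.not_mem_nil, or_false] at hy ⊢
    tauto
  have hw2 : IsWalk W.length (A.length + C.length) i i (A ++ x :: (C ++ [i])) := by
    refine ⟨by simp; omega, ?_, ?_, ?_⟩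
    · have h := hw.head
      rw [hp] at h
      cases A with
      | nil => simpa using h
      | cons a A => simpa using h
    · have e : A ++ x :: (C ++ [i]) = (A ++ x :: C) ++ [i] := by simp
      rw [e]
      exact getLast?_snoc _ _
    · intro y hy
      apply hltp
      simp only [List.mem_append, List.mem_cons, List.not_mem_nil, or_false] at hy ⊢
      tauto
  have hlp : p.length = k + 2 := hw.len
  by_cases h1 : wc W s ((x :: B) ++ [x]) < 0
  · obtain ⟨r, hr, hrl⟩ := mem_negs_of_neg W s (by omega) hw1 h1
    have := hmin r hr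
    omega
  · have h2 : wc W s (A ++ x :: (C ++ [i])) < 0 := by
      rw [hc] at hneg
      omega
    obtain ⟨r, hr, hrl⟩ := mem_negs_of_neg W s (by omega) hw2 h2
    have := hmin r hr
    omega

/-! Rotation along a simple closed walk. -/

section Rot

variable {p A : List ℕ} {i : ℕ}

lemma getD_append_left' {t : ℕ} (ht : t < A.length) : (A ++ [i]).getD t 0 = A.getD t 0 := by
  rw [List.getD_eq_getElem _ _ (by simp; omega), List.getD_eq_getElem _ _ ht,
    List.getElem_append_left ht]

lemma idxOf_rot (hA : A.Nodup) {t : ℕ} (ht : t < A.length) : (A ++ [i]).idxOf (A.getD t 0) = t := by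
  rw [List.getD_eq_getElem _ _ ht, List.idxOf_append_of_mem (List.getElem_mem ht)]
  exact hA.idxOf_getElem t ht

lemma nextV_rot (hA : A.Nodup) {t : ℕ} (ht : t < A.length) :
    nextV (A ++ [i]) (A.getD t 0) = (A ++ [i]).getD (t + 1) 0 := by
  unfold nextV
  have hm : A.getD t 0 ∈ A ++ [i] := by
    rw [List.getD_eq_getElem _ _ ht]
    exact List.mem_append_left _ (List.getElem_mem ht)
  rw [if_pos hm, idxOf_rot hA ht]

lemma nextV_not_mem {x : ℕ} (h : x ∉ p) : nextV p x = x := by
  unfold nextV
  rw [if_neg h]

lemma mem_idx (h : ∀ x, x ∈ A ++ [i] → x ∈ A) {x : ℕ} (hx : x ∈ A ++ [i]) :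
    ∃ t, t < A.length ∧ x = A.getD t 0 := by
  obtain ⟨t, ht, rfl⟩ := List.getElem_of_mem (h x hx)
  exact ⟨t, ht, by rw [List.getD_eq_getElem _ _ ht]⟩

/-- Values of the rotation. -/
lemma rot_val (hi : A.getD 0 0 = i) {t : ℕ} (ht : t < A.length) :
    (A ++ [i]).getD (t + 1) 0 = A.getD ((t + 1) % A.length) 0 := by
  by_cases h : t + 1 < A.length
  · rw [Nat.mod_eq_of_lt h, getD_append_left' h]
  · have e : t + 1 = A.length := by omega
    rw [e, Nat.mod_self, hi, List.getD_eq_getElem _ _ (by simp)]
    simp

lemma nextV_inj (hA : A.Nodup) (hi : A.getD 0 0 = i) (hA0 : 0 < A.length)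
    (hmem : ∀ x, x ∈ A ++ [i] → x ∈ A) {x y : ℕ} (h : nextV (A ++ [i]) x = nextV (A ++ [i]) y) :
    x = y := by
  have hget : ∀ {a b : ℕ}, a < A.length → b < A.length → A.getD a 0 = A.getD b 0 → a = b := by
    intro a b ha hb hab
    rw [List.getD_eq_getElem _ _ ha, List.getD_eq_getElem _ _ hb] at hab
    exact (hA.getElem_inj_iff).mp hab
  have hmod : ∀ t, (t + 1) % A.length < A.length := fun t => Nat.mod_lt _ hA0
  by_cases hx : x ∈ A ++ [i]
  · obtain ⟨a, ha, rfl⟩ := mem_idx hmem hx
    by_cases hy : y ∈ A ++ [i]
    · obtain ⟨b, hb, rfl⟩ := mem_idx hmem hy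
      rw [nextV_rot hA ha, nextV_rot hA hb, rot_val hi ha, rot_val hi hb] at h
      have h2 := hget (hmod a) (hmod b) h
      have : a = b := by
        by_cases h1 : a + 1 < A.length
        · by_cases h3 : b + 1 < A.length
          · rw [Nat.mod_eq_of_lt h1, Nat.mod_eq_of_lt h3] at h2
            omega
          · have e : b + 1 = A.length := by omega
            rw [Nat.mod_eq_of_lt h1, e, Nat.mod_self] at h2
            omega
        · have e : a + 1 = A.length := by omega
          by_cases h3 : b + 1 < A.length
          · rw [Nat.mod_eq_of_lt h3, e, Nat.mod_self] at h2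
            omega
          · omega
      rw [this]
    · rw [nextV_rot hA ha, nextV_not_mem hy, rot_val hi ha] at h
      exfalso
      apply hy
      rw [← h, List.getD_eq_getElem _ _ (hmod a)]
      exact List.mem_append_left _ (List.getElem_mem _)
  · rw [nextV_not_mem hx] at h
    by_cases hy : y ∈ A ++ [i]
    · obtain ⟨b, hb, rfl⟩ := mem_idx hmem hy
      rw [nextV_rot hA hb, rot_val hi hb] at h
      exfalso
      apply hx
      rw [h, List.getD_eq_getElem _ _ (hmod b)]
      exact List.mem_append_left _ (List.getElem_mem _)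
    · rw [nextV_not_mem hy] at h
      exact h

lemma wc_eq_sum (W : List (List ℕ)) (s : List ℕ) (p : List ℕ) :
    wc W s p = ∑ t ∈ Finset.range (p.length - 1), cE W s (p.getD t 0) (p.getD (t + 1) 0) := by
  induction p with
  | nil => simp [wc]
  | cons x l ih =>
    cases l with
    | nil => simp [wc]
    | cons y l =>
      rw [wc, ih]
      simp only [List.length_cons, Nat.add_sub_cancel]
      rw [Finset.sum_range_succ']
      simp only [List.getD_cons_succ, List.getD_cons_zero]
      ring

lemma sum_map_getD (g : ℕ → ℤ) (A : List ℕ) :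
    (A.map g).sum = ∑ t ∈ Finset.range A.length, g (A.getD t 0) := by
  induction A with
  | nil => simp
  | cons x l ih =>
    simp only [List.map_cons, List.sum_cons, List.length_cons]
    rw [Finset.sum_range_succ', ih]
    simp only [List.getD_cons_succ, List.getD_cons_zero]
    ring

end Rot

/-- Rotation along a simple closed walk. -/
theorem rot_spec {s : List ℕ} (hs : s.Perm (List.range W.length)) {A : List ℕ} {i : ℕ}
    (hA : A.Nodup) (hi : A.getD 0 0 = i) (hA0 : 0 < A.length)
    (hmem : ∀ x, x ∈ A ++ [i] → x ∈ A) (hlt : ∀ x ∈ A, x < W.length)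
    (hneg : wc W s (A ++ [i]) < 0) :
    (applyC W.length s (A ++ [i])).Perm (List.range W.length) ∧
      cost W (applyC W.length s (A ++ [i])) + 1 ≤ cost W s := by
  set n := W.length with hn
  set π := nextV (A ++ [i]) with hπ
  have hπlt : ∀ x, x < n → π x < n := by
    intro x hx
    by_cases h : x ∈ A ++ [i]
    · obtain ⟨t, ht, rfl⟩ := mem_idx hmem h
      rw [hπ, nextV_rot hA ht, rot_val hi ht, List.getD_eq_getElem _ _ (Nat.mod_lt _ hA0)]
      exact hlt _ (List.getElem_mem _)
    · rw [hπ, nextV_not_mem h]
      exact hx
  have hπinj : ∀ x y, π x = π y → x = y := fun x y h => nextV_inj hA hi hA0 hmem h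
  refine ⟨?_, ?_⟩
  · unfold applyC
    have hnd : ((List.range n).map (fun x => s.getD (π x) 0)).Nodup := by
      refine List.Nodup.map_on ?_ List.nodup_range
      intro x hx y hy h
      have hx' := List.mem_range.mp hx
      have hy' := List.mem_range.mp hy
      exact hπinj x y (perm_getD_inj hs (hπlt x hx') (hπlt y hy') h)
    have hsub : ((List.range n).map (fun x => s.getD (π x) 0)) ⊆ List.range n := by
      intro y hy
      rw [List.mem_map] at hy
      obtain ⟨x, hx, rfl⟩ := hy
      exact List.mem_range.mpr (perm_getD_lt hs (hπlt x (List.mem_range.mp hx)))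
    exact (List.subperm_of_subset hnd hsub).perm_of_length_le (by simp)
  · have hcost : (cost W (applyC n s (A ++ [i])) : ℤ) - cost W s = wc W s (A ++ [i]) := by
      rw [cost_eq, cost_eq, ← hn, ← Finset.sum_sub_distrib]
      have h1 : ∀ x ∈ Finset.range n, ((ent W x ((applyC n s (A ++ [i])).getD x 0) : ℤ) -
          ent W x (s.getD x 0)) = cE W s x (π x) := by
        intro x hx
        have hx' := Finset.mem_range.mp hx
        unfold applyC cE
        rw [List.getD_eq_getElem _ _ (by simpa using hx')]
        simp [hπ]
      rw [Finset.sum_congr rfl h1]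
      classical
      have h2 : ∑ x ∈ Finset.range n, cE W s x (π x) = ∑ x ∈ A.toFinset, cE W s x (π x) := by
        symm
        apply Finset.sum_subset
        · intro x hx
          exact Finset.mem_range.mpr (hlt x (List.mem_toFinset.mp hx))
        · intro x _ hx
          have hx' : x ∉ A ++ [i] := fun h => hx (List.mem_toFinset.mpr (hmem x h))
          rw [hπ, nextV_not_mem hx']
          simp [cE]
      rw [h2, List.sum_toFinset _ hA, sum_map_getD, wc_eq_sum]
      have hlen : (A ++ [i]).length - 1 = A.length := by simp
      rw [hlen]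
      refine Finset.sum_congr rfl (fun t ht => ?_)
      have ht' := Finset.mem_range.mp ht
      rw [hπ, nextV_rot hA ht', getD_append_left' ht']
    have : (cost W (applyC n s (A ++ [i])) : ℤ) + 1 ≤ cost W s := by
      omega
    exact_mod_cast this

/-- One round of cancelling. -/
theorem improve_spec {s : List ℕ} (hs : s.Perm (List.range W.length)) (hne : negsW W s ≠ []) :
    (improve W s).Perm (List.range W.length) ∧ cost W (improve W s) + 1 ≤ cost W s := by
  unfold improve
  rw [if_neg hne]
  obtain ⟨h1, h2⟩ := pick_spec W s hne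
  set p := pickW W s with hp
  obtain ⟨h3, h4⟩ := (mem_negsW_iff W s).mp h1
  obtain ⟨k, i, hk, hi, e⟩ := of_mem_closedW W s h3
  have hw : IsWalk W.length k i i p := by
    rw [e]
    exact ((tabC_tabAt W s k) i i hi hi).1
  have hsimple := simple_of_min W s hw hk h4 h2
  have hne' : p ≠ [] := by
    intro h0
    have := hw.len
    simp [h0] at this
  have hlast : p.getLast hne' = i := by
    have := hw.last
    rw [List.getLast?_eq_some_getLast hne'] at this
    exact Option.some.inj this
  have hpA : p = p.dropLast ++ [i] := by
    rw [← hlast]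
    exact (List.dropLast_append_getLast hne').symm
  set A := p.dropLast with hA
  have hA0 : 0 < A.length := by
    have := hw.len
    simp only [hA, List.length_dropLast]
    omega
  have hhead : A.getD 0 0 = i := by
    have h5 := hw.head
    rw [hpA] at h5
    obtain ⟨a, A', hAa⟩ : ∃ a A', A = a :: A' := by
      cases hh : A with
      | nil => simp [hh] at hA0
      | cons a A' => exact ⟨a, A', rfl⟩
    rw [hAa] at h5 ⊢
    simpa using h5
  have hmem : ∀ x, x ∈ A ++ [i] → x ∈ A := by
    intro x hx
    simp only [List.mem_append, List.mem_cons, List.not_mem_nil, or_false] at hx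
    rcases hx with hx | rfl
    · exact hx
    · rw [← hhead, List.getD_eq_getElem _ _ hA0]
      exact List.getElem_mem _
  have hlt : ∀ x ∈ A, x < W.length := fun x hx => hw.lt x (List.mem_of_mem_dropLast hx)
  rw [hpA]
  rw [hpA] at h4
  exact rot_spec W hs hsimple hhead hA0 hmem hlt h4

/-- Main theorem: the assignment algorithm returns a minimum weight permutation. -/
theorem assign_spec :
    (assign W).Perm (List.range W.length) ∧
      ∀ t : List ℕ, t.Perm (List.range W.length) → cost W (assign W) ≤ cost W t := by
  set s0 := List.range W.length with hs0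
  have key : ∀ l : List Unit, (l.foldr (fun _ s => improve W s) s0).Perm (List.range W.length) ∧
      ((∀ t : List ℕ, t.Perm (List.range W.length) →
        cost W (l.foldr (fun _ s => improve W s) s0) ≤ cost W t) ∨
       cost W (l.foldr (fun _ s => improve W s) s0) + l.length ≤ cost W s0) := by
    intro l
    induction l with
    | nil => exact ⟨List.Perm.refl _, Or.inr (by simp)⟩
    | cons y l ih =>
      obtain ⟨hp, hc⟩ := ih
      simp only [List.foldr_cons, List.length_cons]
      set u := l.foldr (fun _ s => improve W s) s0 with hu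
      by_cases hne : negsW W u = []
      · have himp : improve W u = u := by
          unfold improve
          rw [if_pos hne]
        rw [himp]
        refine ⟨hp, Or.inl (fun t ht => opt_of_noNeg W hp ht ?_)⟩
        intro k i hk hi
        by_contra hlt
        have : look (tabAt W u k) i i ∈ negsW W u := by
          rw [mem_negsW_iff]
          exact ⟨mem_closedW W u hk hi, not_le.mp hlt⟩
        rw [hne] at this
        simp at this
      · obtain ⟨h1, h2⟩ := improve_spec W hp hne
        refine ⟨h1, ?_⟩
        rcases hc with hc | hc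
        · have := hc _ h1
          omega
        · right
          omega
  obtain ⟨h1, h2⟩ := key (List.replicate (cost W s0 + 1) ())
  refine ⟨h1, ?_⟩
  rcases h2 with h2 | h2
  · exact h2
  · simp only [List.length_replicate] at h2
    have hl : (cost W s0 + 1) ≤ cost W s0 := by omega
    omega

end Vale.Agent.Lib.P333F
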