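import Vale.Agent.Lib.P333F.AssignDefs

/-!
Costs of walks, and correctness of the dynamic programme for the walk tables.
-/

namespace Vale.Agent.Lib.P333F

variable (W : List (List ℕ)) (s : List ℕ)

/-- Change in cost when the row `x` takes the column of `y`. -/
def cE (x y : ℕ) : ℤ := (ent W x (s.getD y 0) : ℤ) - ent W x (s.getD x 0)

/-- Cost of a walk. -/
def wc : List ℕ → ℤ
  | [] => 0
  | [_] => 0
  | x :: y :: l => cE W s x y + wc (y :: l)

lemma edges_cons2 (x y : ℕ) (l : List ℕ) : edges (x :: y :: l) = (x, y) :: edges (y :: l) := rfl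

lemma pos_sub_neg (p : List ℕ) : (posW W s p : ℤ) - negW W s p = wc W s p := by
  unfold posW negW
  induction p with
  | nil => simp [edges, wc]
  | cons x l ih =>
    cases l with
    | nil => simp [edges, wc]
    | cons y l =>
      rw [edges_cons2, wc]
      simp only [List.map_cons, List.sum_cons]
      push_cast
      rw [← ih]
      unfold cE
      push_cast
      ring

lemma leW_iff (p q : List ℕ) : leW W s p q = true ↔ wc W s p ≤ wc W s q := by
  unfold leW
  rw [← pos_sub_neg, ← pos_sub_neg, decide_eq_true_eq]
  constructor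
  · intro h
    have : ((posW W s p + negW W s q : ℕ) : ℤ) ≤ ((posW W s q + negW W s p : ℕ) : ℤ) := by
      exact_mod_cast h
    push_cast at this
    linarith
  · intro h
    have : ((posW W s p + negW W s q : ℕ) : ℤ) ≤ ((posW W s q + negW W s p : ℕ) : ℤ) := by
      push_cast
      linarith
    exact_mod_cast this

lemma wc_split (A : List ℕ) (x : ℕ) (C : List ℕ) :
    wc W s (A ++ x :: C) = wc W s (A ++ [x]) + wc W s (x :: C) := by
  induction A with
  | nil => simp [wc]
  | cons a A ih =>
    cases A with
    | nil => simp [wc]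
    | cons b A =>
      simp only [List.cons_append] at ih ⊢
      rw [wc, wc, ih]
      ring

lemma wc_snoc {p : List ℕ} {l : ℕ} (h : p.getLast? = some l) (j : ℕ) :
    wc W s (p ++ [j]) = wc W s p + cE W s l j := by
  obtain ⟨r, rfl⟩ : ∃ r, p = r ++ [l] := by
    have hne : p ≠ [] := by
      rintro rfl
      simp at h
    have h2 : p.getLast hne = l := by
      rw [List.getLast?_eq_some_getLast hne] at h
      exact Option.some.inj h
    exact ⟨p.dropLast, by rw [← h2]; exact (List.dropLast_append_getLast hne).symm⟩
  rw [List.append_assoc, List.singleton_append, wc_split W s r l [j]]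
  simp [wc]

lemma argminW_spec {cs : List (List ℕ)} (hc : cs ≠ []) :
    argminW W s cs ∈ cs ∧ ∀ q ∈ cs, wc W s (argminW W s cs) ≤ wc W s q := by
  classical
  obtain ⟨p0, hp0, hmin⟩ := Finset.exists_min_image cs.toFinset (wc W s)
    (by
      obtain ⟨x, hx⟩ := List.exists_mem_of_ne_nil cs hc
      exact ⟨x, List.mem_toFinset.mpr hx⟩)
  have hp0' : p0 ∈ cs.filter (fun p => cs.all (fun q => leW W s p q)) := by
    rw [List.mem_filter]
    refine ⟨List.mem_toFinset.mp hp0, ?_⟩
    rw [List.all_eq_true]
    intro q hq
    exact (leW_iff W s _ _).mpr (hmin q (List.mem_toFinset.mpr hq))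
  unfold argminW
  set F := cs.filter (fun p => cs.all (fun q => leW W s p q)) with hF
  have h0 : 0 < F.length := List.length_pos_of_mem hp0'
  rw [List.getD_eq_getElem _ _ h0]
  have hm : F[0] ∈ F := List.getElem_mem h0
  generalize F[0] = r at hm ⊢
  rw [hF, List.mem_filter, List.all_eq_true] at hm
  exact ⟨hm.1, fun q hq => (leW_iff W s _ _).mp (hm.2 q hq)⟩

/-- Walks with exactly `k + 1` edges. -/
structure IsWalk (n k i j : ℕ) (p : List ℕ) : Prop where
  len : p.length = k + 2
  head : p.head? = some i
  last : p.getLast? = some j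
  lt : ∀ x ∈ p, x < n

/-- A table of cheapest walks. -/
def TabC (k : ℕ) (T : List (List (List ℕ))) : Prop :=
  ∀ i j, i < W.length → j < W.length →
    IsWalk W.length k i j (look T i j) ∧
      ∀ q, IsWalk W.length k i j q → wc W s (look T i j) ≤ wc W s q

lemma look_map {n : ℕ} (g : ℕ → ℕ → List ℕ) {i j : ℕ} (hi : i < n) (hj : j < n) :
    look ((List.range n).map (fun i => (List.range n).map (fun j => g i j))) i j = g i j := by
  unfold look
  have e1 : ((List.range n).map (fun i => (List.range n).map (fun j => g i j))).getD i [] =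
      (List.range n).map (fun j => g i j) := by
    rw [List.getD_eq_getElem _ _ (by simpa using hi)]
    simp
  rw [e1, List.getD_eq_getElem _ _ (by simpa using hj)]
  simp

lemma tabC_T1 : TabC W s 0 (T1 W.length) := by
  intro i j hi hj
  unfold T1
  rw [look_map (fun i j => [i, j]) hi hj]
  refine ⟨⟨rfl, rfl, rfl, ?_⟩, ?_⟩
  · intro x hx
    simp only [List.mem_cons, List.not_mem_nil, or_false] at hx
    rcases hx with rfl | rfl <;> assumption
  · rintro q ⟨h1, h2, h3, -⟩
    match q, h1 with
    | [a, b], _ =>
      simp only [List.head?_cons, Option.some.injEq] at h2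
      simp only [List.getLast?_cons_cons, List.getLast?_singleton, Option.some.injEq] at h3
      subst h2 h3
      exact le_rfl

lemma isWalk_snoc {n k i l j : ℕ} {p : List ℕ} (h : IsWalk n k i l p) (hj : j < n) :
    IsWalk n (k + 1) i j (p ++ [j]) := by
  refine ⟨by simp [h.len], ?_, ?_, ?_⟩
  · have hne : p ≠ [] := by
      intro h0
      have := h.len
      simp [h0] at this
    rw [List.head?_append_of_ne_nil _ hne]
    exact h.head
  · simp
  · intro x hx
    simp only [List.mem_append, List.mem_cons, List.not_mem_nil, or_false] at hx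
    rcases hx with hx | rfl
    · exact h.lt x hx
    · exact hj

lemma isWalk_unsnoc {n k i j : ℕ} {q : List ℕ} (h : IsWalk n (k + 1) i j q) :
    ∃ l q', q = q' ++ [j] ∧ IsWalk n k i l q' ∧ l < n := by
  have hne : q ≠ [] := by
    intro h0
    have := h.len
    simp [h0] at this
  have h2 : q.getLast hne = j := by
    have := h.last
    rw [List.getLast?_eq_some_getLast hne] at this
    exact Option.some.inj this
  have hq : q = q.dropLast ++ [j] := by
    rw [← h2]
    exact (List.dropLast_append_getLast hne).symm
  have hne' : q.dropLast ≠ [] := by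
    intro h0
    have := h.len
    rw [hq, h0] at this
    simp at this
  have hmem : ∀ x ∈ q.dropLast, x < n := fun x hx => h.lt x (List.mem_of_mem_dropLast hx)
  refine ⟨q.dropLast.getLast hne', q.dropLast, hq, ⟨?_, ?_, ?_, hmem⟩, hmem _ (List.getLast_mem _)⟩
  · have := h.len
    simp only [List.length_dropLast]
    omega
  · have := h.head
    rw [hq, List.head?_append_of_ne_nil _ hne'] at this
    exact this
  · exact List.getLast?_eq_some_getLast hne'

lemma look_stepT (T : List (List (List ℕ))) {i j : ℕ} (hi : i < W.length) (hj : j < W.length) :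
    look (stepT W s T) i j =
      argminW W s ((List.range W.length).map (fun l => look T i l ++ [j])) := by
  unfold stepT
  exact look_map (fun i j => argminW W s ((List.range W.length).map (fun l => look T i l ++ [j]))) hi hj

lemma tabC_step {k : ℕ} {T : List (List (List ℕ))} (hT : TabC W s k T) :
    TabC W s (k + 1) (stepT W s T) := by
  intro i j hi hj
  rw [look_stepT W s T hi hj]
  have hne : (List.range W.length).map (fun l => look T i l ++ [j]) ≠ [] := by
    intro h
    have : i ∈ List.range W.length := List.mem_range.mpr hi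
    have h' : look T i i ++ [j] ∈ (List.range W.length).map (fun l => look T i l ++ [j]) :=
      List.mem_map_of_mem this
    rw [h] at h'
    simp at h'
  obtain ⟨h1, h2⟩ := argminW_spec W s hne
  refine ⟨?_, ?_⟩
  · simp only [List.mem_map, List.mem_range] at h1
    obtain ⟨l, hl, e⟩ := h1
    rw [← e]
    exact isWalk_snoc (hT i l hi hl).1 hj
  · intro q hq
    obtain ⟨l, q', rfl, hq', hl⟩ := isWalk_unsnoc hq
    have hc := h2 (look T i l ++ [j]) (List.mem_map_of_mem (List.mem_range.mpr hl))
    refine hc.trans ?_
    rw [wc_snoc W s (hT i l hi hl).1.last j, wc_snoc W s hq'.last j]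
    have := (hT i l hi hl).2 q' hq'
    linarith

lemma tabC_tabAt (k : ℕ) : TabC W s k (tabAt W s k) := by
  induction k with
  | zero => exact tabC_T1 W s
  | succ k ih =>
    have : tabAt W s (k + 1) = stepT W s (tabAt W s k) := by
      unfold tabAt
      rw [List.replicate_succ, List.foldr_cons]
    rw [this]
    exact tabC_step W s ih

lemma mem_closedW {k i : ℕ} (hk : k < W.length) (hi : i < W.length) :
    look (tabAt W s k) i i ∈ closedW W s := by
  unfold closedW
  rw [List.mem_flatMap]
  refine ⟨k, List.mem_range.mpr hk, ?_⟩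
  exact List.mem_map_of_mem (List.mem_range.mpr hi)

lemma of_mem_closedW {p : List ℕ} (h : p ∈ closedW W s) :
    ∃ k i, k < W.length ∧ i < W.length ∧ p = look (tabAt W s k) i i := by
  unfold closedW at h
  rw [List.mem_flatMap] at h
  obtain ⟨k, hk, h⟩ := h
  rw [List.mem_map] at h
  obtain ⟨i, hi, rfl⟩ := h
  exact ⟨k, i, List.mem_range.mp hk, List.mem_range.mp hi, rfl⟩

lemma mem_negsW_iff {p : List ℕ} : p ∈ negsW W s ↔ p ∈ closedW W s ∧ wc W s p < 0 := by
  unfold negsW
  rw [List.mem_filter, decide_eq_true_eq, ← pos_sub_neg]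
  constructor
  · rintro ⟨h1, h2⟩
    refine ⟨h1, ?_⟩
    have : ((posW W s p : ℕ) : ℤ) < negW W s p := by exact_mod_cast h2
    linarith
  · rintro ⟨h1, h2⟩
    refine ⟨h1, ?_⟩
    have : ((posW W s p : ℕ) : ℤ) < negW W s p := by linarith
    exact_mod_cast this

/-- A closed walk with at most `n` edges costs at least as much as the table entry. -/
lemma wc_table_le {k i : ℕ} {q : List ℕ} (hq : IsWalk W.length k i i q) :
    wc W s (look (tabAt W s k) i i) ≤ wc W s q := by
  have hi : i < W.length := hq.lt i (List.mem_of_mem_head? hq.head)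
  exact ((tabC_tabAt W s k) i i hi hi).2 q hq

end Vale.Agent.Lib.P333F
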