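import Vale.Agent.Lib.P333F.Defs

/-!
(part BITS) The pairwise independent family of bits.
-/

namespace Vale.Agent.Lib.P333F

/-! ### The list of all vectors -/

theorem mem_dbl {L : List (List Bool)} {v : List Bool} :
    v ∈ dbl L ↔ ∃ b u, v = b :: u ∧ u ∈ L := by
  unfold dbl
  simp only [List.mem_flatMap, List.mem_cons, List.not_mem_nil, or_false]
  constructor
  · rintro ⟨u, hu, rfl | rfl⟩
    · exact ⟨false, u, rfl, hu⟩
    · exact ⟨true, u, rfl, hu⟩
  · rintro ⟨b, u, rfl, hu⟩
    cases b
    · exact ⟨u, hu, Or.inl rfl⟩
    · exact ⟨u, hu, Or.inr rfl⟩

theorem length_dbl (L : List (List Bool)) : (dbl L).length = 2 * L.length := by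
  induction L with
  | nil => rfl
  | cons a l ih =>
    have : dbl (a :: l) = [false :: a, true :: a] ++ dbl l := rfl
    rw [this, List.length_append, ih]
    simp only [List.length_cons, List.length_nil]
    omega

theorem nodup_dbl {L : List (List Bool)} (h : L.Nodup) : (dbl L).Nodup := by
  induction L with
  | nil => exact List.nodup_nil
  | cons a l ih =>
    have hl := (List.nodup_cons.1 h)
    have e : dbl (a :: l) = (false :: a) :: (true :: a) :: dbl l := rfl
    rw [e, List.nodup_cons, List.nodup_cons]
    refine ⟨?_, ?_, ih hl.2⟩
    · simp only [List.mem_cons, not_or]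
      refine ⟨by simp, ?_⟩
      intro hm
      obtain ⟨b, u, hb, hu⟩ := mem_dbl.1 hm
      simp only [List.cons.injEq] at hb
      exact hl.1 (hb.2 ▸ hu)
    · intro hm
      obtain ⟨b, u, hb, hu⟩ := mem_dbl.1 hm
      simp only [List.cons.injEq] at hb
      exact hl.1 (hb.2 ▸ hu)

/-- The invariant of the construction of `allV`. -/
theorem allV_aux (r : ℕ) (l : List ℕ) :
    ∃ m : ℕ, (l.foldr (fun _ L => if L.length ≤ r then dbl L else L) [[]]).Nodup ∧
      (∀ v, v ∈ l.foldr (fun _ L => if L.length ≤ r then dbl L else L) [[]] ↔ v.length = m) ∧
      (l.foldr (fun _ L => if L.length ≤ r then dbl L else L) [[]]).length = 2 ^ m ∧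
      (m = l.length ∨ r < 2 ^ m) := by
  induction l with
  | nil =>
    refine ⟨0, List.nodup_singleton _, ?_, rfl, Or.inl rfl⟩
    intro v
    simp only [List.foldr_nil, List.mem_singleton]
    exact ⟨fun h => by simp [h], fun h => List.length_eq_zero_iff.1 h⟩
  | cons a l ih =>
    obtain ⟨m, h1, h2, h3, h4⟩ := ih
    rw [List.foldr_cons]
    set L := l.foldr (fun _ L => if L.length ≤ r then dbl L else L) [[]] with hL
    by_cases hc : L.length ≤ r
    · rw [if_pos hc]
      refine ⟨m + 1, nodup_dbl h1, ?_, ?_, ?_⟩
      · intro v
        rw [mem_dbl]
        constructor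
        · rintro ⟨b, u, rfl, hu⟩
          simp [(h2 u).1 hu]
        · intro hv
          cases v with
          | nil => simp at hv
          | cons b u =>
            refine ⟨b, u, rfl, (h2 u).2 ?_⟩
            simpa using hv
      · rw [length_dbl, h3, pow_succ]; ring
      · left
        rcases h4 with h4 | h4
        · simp [h4]
        · rw [h3] at hc; omega
    · rw [if_neg hc]
      refine ⟨m, h1, h2, h3, Or.inr ?_⟩
      rw [h3] at hc; omega

theorem lt_two_pow_self' (n : ℕ) : n < 2 ^ n := Nat.lt_two_pow_self

/-- `allV r` is the list of all vectors of some length `m`, and there are more than `r` of them. -/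
theorem allV_spec (r : ℕ) : ∃ m : ℕ, (allV r).Nodup ∧ (∀ v, v ∈ allV r ↔ v.length = m) ∧
    (allV r).length = 2 ^ m ∧ r < 2 ^ m := by
  obtain ⟨m, h1, h2, h3, h4⟩ := allV_aux r (List.range (r + 1))
  refine ⟨m, h1, h2, h3, ?_⟩
  rcases h4 with h4 | h4
  · rw [List.length_range] at h4
    have := lt_two_pow_self' (r + 1)
    rw [h4]
    omega
  · exact h4

/-- The family of nonzero vectors is large enough. -/
theorem nonzero_length (r : ℕ) :
    r ≤ ((allV r).filter (fun v => v.any (fun b => b))).length := by
  obtain ⟨m, h1, h2, h3, h4⟩ := allV_spec r
  have hsplit := List.length_eq_length_filter_add (l := allV r) (fun v => v.any (fun b => b))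
  have hzero : ((allV r).filter (fun v => !(v.any (fun b => b)))).length ≤ 1 := by
    have hnd : ((allV r).filter (fun v => !(v.any (fun b => b)))).Nodup := h1.filter _
    have hrep : ((allV r).filter (fun v => !(v.any (fun b => b)))) =
        List.replicate ((allV r).filter (fun v => !(v.any (fun b => b)))).length
          (List.replicate m false) := by
      apply List.eq_replicate_of_mem
      intro v hv
      obtain ⟨hv1, hv2⟩ := List.mem_filter.1 hv
      apply List.eq_replicate_iff.2
      refine ⟨(h2 v).1 hv1, ?_⟩
      intro b hb
      cases b
      · rfl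
      · exfalso
        have : v.any (fun b => b) = true := List.any_eq_true.2 ⟨true, hb, rfl⟩
        rw [this] at hv2
        exact absurd hv2 (by simp)
    rw [hrep] at hnd
    exact List.nodup_replicate.1 hnd
  omega

/-! ### Flipping one bit -/

/-- Flip the bit number `k`. -/
def flipAt : ℕ → List Bool → List Bool
  | _, [] => []
  | 0, b :: s => (!b) :: s
  | k + 1, b :: s => b :: flipAt k s

theorem flipAt_flipAt (k : ℕ) (s : List Bool) : flipAt k (flipAt k s) = s := by
  induction s generalizing k with
  | nil => cases k <;> rfl
  | cons b s ih =>
    cases k with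
    | zero => simp [flipAt]
    | succ k => simp [flipAt, ih]

theorem length_flipAt (k : ℕ) (s : List Bool) : (flipAt k s).length = s.length := by
  induction s generalizing k with
  | nil => cases k <;> rfl
  | cons b s ih =>
    cases k with
    | zero => simp [flipAt]
    | succ k => simp [flipAt, ih]

theorem parB_cons (a b : Bool) (s v : List Bool) :
    parB (a :: s) (b :: v) = xor (a && b) (parB s v) := rfl

theorem parB_flipAt (k : ℕ) (s v : List Bool) (hk : k < s.length) (hkv : k < v.length) :
    parB (flipAt k s) v = xor (parB s v) (v.getD k false) := by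
  induction s generalizing k v with
  | nil => simp at hk
  | cons a s ih =>
    cases v with
    | nil => simp at hkv
    | cons b v =>
      cases k with
      | zero =>
        simp only [flipAt, parB_cons, List.getD_cons_zero]
        cases a <;> cases b <;> simp
      | succ k =>
        simp only [flipAt, parB_cons, List.getD_cons_succ]
        rw [ih k v (by simpa using hk) (by simpa using hkv)]
        cases a <;> cases b <;> simp

theorem exists_index_of_any {v : List Bool} (h : v.any (fun b => b) = true) :
    ∃ k, k < v.length ∧ v.getD k false = true := by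
  obtain ⟨x, hx, hx'⟩ := List.any_eq_true.1 h
  obtain ⟨k, hk, rfl⟩ := List.getElem_of_mem hx
  refine ⟨k, hk, ?_⟩
  rw [List.getD_eq_getElem _ _ hk]
  exact hx'

/-- A nodup list closed under an involution that flips a predicate: the predicate is balanced. -/
theorem filter_involution {α : Type} [DecidableEq α] {F : List α} (hF : F.Nodup) (φ : α → α)
    (hφ : ∀ s, φ (φ s) = s) (hmem : ∀ s ∈ F, φ s ∈ F) (p : α → Bool)
    (hp : ∀ s ∈ F, p (φ s) = !p s) : 2 * (F.filter p).length = F.length := by
  have hinj : Function.Injective φ := fun a b h => by
    have := congrArg φ h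
    rwa [hφ, hφ] at this
  have h1 : ((F.filter p).map φ).Perm (F.filter (fun s => !p s)) := by
    rw [List.perm_ext_iff_of_nodup ((hF.filter p).map hinj) (hF.filter _)]
    intro s
    simp only [List.mem_map, List.mem_filter]
    constructor
    · rintro ⟨t, ⟨ht, htp⟩, rfl⟩
      refine ⟨hmem t ht, ?_⟩
      rw [hp t ht, htp]
      rfl
    · rintro ⟨hs, hsp⟩
      refine ⟨φ s, ⟨hmem s hs, ?_⟩, hφ s⟩
      rw [hp s hs]
      simpa using hsp
  have h2 := h1.length_eq
  rw [List.length_map] at h2
  have h3 := List.length_eq_length_filter_add (l := F) p
  omega

/-- A nonzero vector: each bit is balanced. -/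
theorem par_balanced {m : ℕ} {F : List (List Bool)} (hF : F.Nodup) (hm : ∀ v, v ∈ F ↔ v.length = m)
    {v : List Bool} (hv : v.length = m) (hne : v.any (fun b => b) = true) (c : Bool) :
    2 * (F.filter (fun s => parB s v == c)).length = F.length := by
  obtain ⟨k, hk, hkv⟩ := exists_index_of_any hne
  refine filter_involution hF (flipAt k) (flipAt_flipAt k) ?_ _ ?_
  · intro s hs
    rw [hm, length_flipAt]
    exact (hm s).1 hs
  · intro s hs
    have hs' := (hm s).1 hs
    rw [parB_flipAt k s v (by omega) hk, hkv]
    cases parB s v <;> cases c <;> rfl

/-! ### Independence -/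

theorem parB_xor (s v v' : List Bool) (h : v.length = v'.length) :
    parB s (List.zipWith xor v v') = xor (parB s v) (parB s v') := by
  induction s generalizing v v' with
  | nil => simp [parB]
  | cons a s ih =>
    cases v with
    | nil =>
      cases v' with
      | nil => simp [parB]
      | cons b v' => simp at h
    | cons b v =>
      cases v' with
      | nil => simp at h
      | cons b' v' =>
        simp only [List.zipWith_cons_cons, parB_cons]
        rw [ih v v' (by simpa using h)]
        cases a <;> cases b <;> cases b' <;> cases parB s v <;> cases parB s v' <;> rfl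

theorem zipWith_xor_any {v v' : List Bool} (h : v.length = v'.length) (hne : v ≠ v') :
    (List.zipWith xor v v').any (fun b => b) = true := by
  induction v generalizing v' with
  | nil =>
    cases v' with
    | nil => exact absurd rfl hne
    | cons _ _ => simp at h
  | cons b v ih =>
    cases v' with
    | nil => simp at h
    | cons b' v' =>
      simp only [List.zipWith_cons_cons, List.any_cons, Bool.or_eq_true]
      by_cases hb : b = b'
      · right
        apply ih (by simpa using h)
        intro e
        exact hne (by rw [hb, e])
      · left
        cases b <;> cases b' <;> simp_all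

theorem count_two {α : Type} (F : List α) (p q r : α → Bool) (h : ∀ s, p s = (q s || r s))
    (hd : ∀ s, (q s && r s) = false) :
    (F.filter p).length = (F.filter q).length + (F.filter r).length := by
  induction F with
  | nil => rfl
  | cons a l ih =>
    have h1 := h a
    have h2 := hd a
    simp only [List.filter_cons]
    cases hq : q a <;> cases hr : r a <;> rw [hq, hr] at h1 h2 <;> simp at h1 h2 <;>
      simp [h1, ih] <;> omega

theorem count_split {α : Type} (F : List α) (A B : α → Bool) (c : Bool) :
    (F.filter (fun s => A s == c)).length =
      (F.filter (fun s => (A s == c) && (B s == false))).length +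
        (F.filter (fun s => (A s == c) && (B s == true))).length := by
  apply count_two
  · intro s; cases A s <;> cases B s <;> cases c <;> rfl
  · intro s; cases A s <;> cases B s <;> cases c <;> rfl

theorem count_split' {α : Type} (F : List α) (A B : α → Bool) (c : Bool) :
    (F.filter (fun s => B s == c)).length =
      (F.filter (fun s => (A s == false) && (B s == c))).length +
        (F.filter (fun s => (A s == true) && (B s == c))).length := by
  apply count_two
  · intro s; cases A s <;> cases B s <;> cases c <;> rfl
  · intro s; cases A s <;> cases B s <;> cases c <;> rfl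

theorem count_xor {α : Type} (F : List α) (A B : α → Bool) :
    (F.filter (fun s => xor (A s) (B s) == false)).length =
      (F.filter (fun s => (A s == false) && (B s == false))).length +
        (F.filter (fun s => (A s == true) && (B s == true))).length := by
  apply count_two
  · intro s; cases A s <;> cases B s <;> rfl
  · intro s; cases A s <;> cases B s <;> rfl

/-- Two different nonzero vectors: the bits are independent. -/
theorem par_independent {m : ℕ} {F : List (List Bool)} (hF : F.Nodup) (hm : ∀ v, v ∈ F ↔ v.length = m)
    {v v' : List Bool} (hv : v.length = m) (hv' : v'.length = m) (hne : v.any (fun b => b) = true)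
    (hne' : v'.any (fun b => b) = true) (hvv : v ≠ v') (c c' : Bool) :
    4 * (F.filter (fun s => (parB s v == c) && (parB s v' == c'))).length = F.length := by
  have hw : (List.zipWith xor v v').length = m := by
    simp [hv, hv']
  have hwne := zipWith_xor_any (hv.trans hv'.symm) hvv
  have hw0 := par_balanced hF hm hw hwne false
  have hrw : (F.filter (fun s => parB s (List.zipWith xor v v') == false)) =
      F.filter (fun s => xor (parB s v) (parB s v') == false) := by
    apply List.filter_congr
    intro s _
    rw [parB_xor s v v' (hv.trans hv'.symm)]
  rw [hrw, count_xor F (fun s => parB s v) (fun s => parB s v')] at hw0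
  have hA0 := par_balanced hF hm hv hne false
  have hA1 := par_balanced hF hm hv hne true
  have hB0 := par_balanced hF hm hv' hne' false
  have hB1 := par_balanced hF hm hv' hne' true
  rw [count_split F (fun s => parB s v) (fun s => parB s v') false] at hA0
  rw [count_split F (fun s => parB s v) (fun s => parB s v') true] at hA1
  rw [count_split' F (fun s => parB s v) (fun s => parB s v') false] at hB0
  rw [count_split' F (fun s => parB s v) (fun s => parB s v') true] at hB1
  cases c <;> cases c' <;> omega

end Vale.Agent.Lib.P333F
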