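import Vale.Agent.Lib.P333F.RelList
import Vale.Agent.Lib.P333.Orbit

/-!
(part ORDER) The order of the nodes given by a path system.
-/

namespace Vale.Agent.Lib.P333F

open List (range)

variable {n : ℕ}

theorem Rep.permOfL_eq {S : St n} {π : List ℕ} {tl : List Bool} (h : Rep S π tl) :
    permOfL h.perm = S.π := by
  ext x
  rw [permOfL_val]
  exact h.app_eq x

theorem Rep.powL_eq' {S : St n} {π : List ℕ} {tl : List Bool} (h : Rep S π tl) (k : ℕ)
    (x : Fin n) : powL π k x = ((S.π ^ k) x : Fin n) := by
  rw [powL_eq h.perm, h.permOfL_eq]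

theorem minPeriod_le_n_ord (σ : Equiv.Perm (Fin n)) (t : Fin n) : Function.minimalPeriod σ t ≤ n := by
  rw [← Vale.Agent.Lib.P333.card_orbit σ t]
  simpa using Finset.card_le_univ (Vale.Agent.Lib.P333.orbit σ t)

theorem Rep.perL_eq_ord {S : St n} {π : List ℕ} {tl : List Bool} (h : Rep S π tl) (t : Fin n) :
    perL π t = Function.minimalPeriod S.π t := by
  have hd := Vale.Agent.Lib.P333.minPeriod_pos S.π t
  have hdn := minPeriod_le_n_ord S.π t
  have hlen : π.length = n := length_of_perm h.perm
  set d := Function.minimalPeriod S.π t with hdef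
  have hiff : ∀ k, powL π (k + 1) t = t ↔ d ∣ k + 1 := by
    intro k
    rw [h.powL_eq', Function.isPeriodicPt_iff_minimalPeriod_dvd.symm]
    unfold Function.IsPeriodicPt Function.IsFixedPt
    rw [Equiv.Perm.iterate_eq_pow]
    constructor
    · intro hk
      exact Fin.ext hk
    · intro hk
      rw [hk]
  unfold perL
  have hmem : d - 1 ∈ (range π.length).filter (fun k => decide (powL π (k + 1) t = t)) := by
    refine List.mem_filter.2 ⟨List.mem_range.2 (by omega), ?_⟩
    rw [decide_eq_true_eq, hiff]
    rw [Nat.sub_add_cancel hd]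
  have hsort : ((range π.length).filter (fun k => decide (powL π (k + 1) t = t))).Pairwise (· < ·) :=
    List.Pairwise.filter _ List.pairwise_lt_range
  revert hmem hsort
  generalize hL : (range π.length).filter (fun k => decide (powL π (k + 1) t = t)) = L
  intro hmem hsort
  cases L with
  | nil => simp at hmem
  | cons a L' =>
    have ha : a ∈ (range π.length).filter (fun k => decide (powL π (k + 1) t = t)) := by
      rw [hL]; exact List.mem_cons_self
    have ha2 : d ∣ a + 1 := by
      have := (List.mem_filter.1 ha).2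
      rw [decide_eq_true_eq, hiff] at this
      exact this
    have ha3 : d ≤ a + 1 := Nat.le_of_dvd (by omega) ha2
    have hget : (a :: L').getD 0 0 = a := rfl
    rw [hget]
    rcases List.mem_cons.1 hmem with h1 | h1
    · omega
    · have := (List.pairwise_cons.1 hsort).1 _ h1
      omega

theorem Rep.pathL_eq {S : St n} {π : List ℕ} {tl : List Bool} (h : Rep S π tl) (t : Fin n) :
    pathL π t = (range (Function.minimalPeriod S.π t)).map
      (fun k => (((S.π ^ (k + 1)) t : Fin n) : ℕ)) := by
  unfold pathL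
  rw [h.perL_eq_ord]
  apply List.map_congr_left
  intro k _
  exact h.powL_eq' _ _

theorem Rep.pathL_lt {S : St n} {π : List ℕ} {tl : List Bool} (h : Rep S π tl) (t : Fin n)
    {y : ℕ} (hy : y ∈ pathL π t) : y < n := by
  rw [h.pathL_eq] at hy
  obtain ⟨k, -, rfl⟩ := List.mem_map.1 hy
  exact Fin.is_lt _

theorem Rep.mem_pathL {S : St n} {π : List ℕ} {tl : List Bool} (h : Rep S π tl) (t x : Fin n) :
    (x : ℕ) ∈ pathL π t ↔ S.π.SameCycle t x := by
  rw [h.pathL_eq]
  constructor
  · intro hx
    obtain ⟨k, -, hk⟩ := List.mem_map.1 hx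
    have hk' : (S.π ^ (k + 1)) t = x := Fin.ext hk
    exact ⟨((k + 1 : ℕ) : ℤ), by rw [zpow_natCast]; exact hk'⟩
  · intro hx
    have hd := Vale.Agent.Lib.P333.minPeriod_pos S.π t
    have hmem : x ∈ Vale.Agent.Lib.P333.orbit S.π t := Vale.Agent.Lib.P333.mem_orbit.2 hx
    obtain ⟨s, hs, hs2⟩ := Vale.Agent.Lib.P333.mem_orbit_iff.1 hmem
    rw [Equiv.Perm.iterate_eq_pow] at hs2
    refine List.mem_map.2 ?_
    by_cases hs0 : s = 0
    · refine ⟨Function.minimalPeriod S.π t - 1, List.mem_range.2 (by omega), ?_⟩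
      rw [Nat.sub_add_cancel hd, ← Equiv.Perm.iterate_eq_pow, Function.iterate_minimalPeriod]
      rw [hs0] at hs2
      simpa using congrArg (fun y : Fin n => (y : ℕ)) hs2
    · refine ⟨s - 1, List.mem_range.2 (by omega), ?_⟩
      rw [Nat.sub_add_cancel (by omega), hs2]

theorem Rep.pathL_nodup {S : St n} {π : List ℕ} {tl : List Bool} (h : Rep S π tl) (t : Fin n) :
    (pathL π t).Nodup := by
  rw [h.pathL_eq]
  refine List.Nodup.map_on ?_ List.nodup_range
  intro a ha b hb hab
  have ha' : a < Function.minimalPeriod S.π t := List.mem_range.1 ha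
  have hb' : b < Function.minimalPeriod S.π t := List.mem_range.1 hb
  have h1 : (S.π ^ (a + 1)) t = (S.π ^ (b + 1)) t := Fin.ext hab
  rw [pow_succ', pow_succ', Equiv.Perm.mul_apply, Equiv.Perm.mul_apply] at h1
  have h2 := S.π.injective h1
  rw [← Equiv.Perm.iterate_eq_pow, ← Equiv.Perm.iterate_eq_pow] at h2
  exact (Function.iterate_eq_iterate_iff_of_lt_minimalPeriod ha' hb').1 h2

theorem mem_tailsL_ord {tl : List Bool} {t : ℕ} :
    t ∈ tailsL tl ↔ t < tl.length ∧ tl.getD t false = true := by
  unfold tailsL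
  simp [List.mem_filter]

theorem Rep.tail_unique {S : St n} {a b : Fin n} (ha : S.tl a = true) (hb : S.tl b = true)
    (hab : S.π.SameCycle a b) : a = b := by
  obtain ⟨t, -, ht⟩ := S.one a
  rw [ht a ⟨Equiv.Perm.SameCycle.refl _ _, ha⟩, ht b ⟨hab, hb⟩]

theorem orderOf_perm {S : St n} {π : List ℕ} {tl : List Bool} (h : Rep S π tl) :
    (orderOf (π, tl)).Perm (range n) := by
  unfold orderOf
  have hnd : ((tailsL tl).flatMap (pathL π)).Nodup := by
    refine List.nodup_flatMap.2 ⟨?_, ?_⟩
    · intro t ht
      have ht' := mem_tailsL_ord.1 ht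
      have hlt : t < n := h.tlen ▸ ht'.1
      exact h.pathL_nodup ⟨t, hlt⟩
    · have hnd0 : (tailsL tl).Nodup := List.Nodup.filter _ List.nodup_range
      refine List.Pairwise.imp_of_mem ?_ (List.Nodup.pairwise_of_forall_ne hnd0 (fun _ _ _ _ hne => hne))
      intro a b ha hb hne
      have ha' := mem_tailsL_ord.1 ha
      have hb' := mem_tailsL_ord.1 hb
      have hal : a < n := h.tlen ▸ ha'.1
      have hbl : b < n := h.tlen ▸ hb'.1
      intro x hxa hxb
      have hxn : x < n := h.pathL_lt ⟨a, hal⟩ hxa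
      have h1 := (h.mem_pathL ⟨a, hal⟩ ⟨x, hxn⟩).1 hxa
      have h2 := (h.mem_pathL ⟨b, hbl⟩ ⟨x, hxn⟩).1 hxb
      have h3 : S.π.SameCycle ⟨a, hal⟩ ⟨b, hbl⟩ := h1.trans h2.symm
      have hta : S.tl ⟨a, hal⟩ = true := by rw [← h.tl_eq]; exact ha'.2
      have htb : S.tl ⟨b, hbl⟩ = true := by rw [← h.tl_eq]; exact hb'.2
      have := Rep.tail_unique hta htb h3
      exact hne (congrArg Fin.val this)
  refine (List.perm_ext_iff_of_nodup hnd List.nodup_range).2 ?_
  intro x
  rw [List.mem_range, List.mem_flatMap]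
  constructor
  · rintro ⟨t, ht, hx⟩
    have ht' := mem_tailsL_ord.1 ht
    exact h.pathL_lt ⟨t, h.tlen ▸ ht'.1⟩ hx
  · intro hx
    obtain ⟨t, ⟨h1, h2⟩, -⟩ := S.one ⟨x, hx⟩
    refine ⟨t, mem_tailsL_ord.2 ⟨by rw [h.tlen]; exact t.2, by rw [h.tl_eq]; exact h2⟩, ?_⟩
    exact (h.mem_pathL t ⟨x, hx⟩).2 h1.symm

theorem pathW_append_ge_ord {ι : Type} (w : ι → ι → ℕ) (A B : List ι) :
    pathW w A + pathW w B ≤ pathW w (A ++ B) := by
  induction A with
  | nil => simp [pathW]
  | cons x A ih =>
    cases A with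
    | nil =>
      cases B with
      | nil => simp [pathW]
      | cons y B => simp [pathW]
    | cons y A =>
      simp only [List.cons_append, pathW] at ih ⊢
      omega

/-- The sum along a list of positions against the weight of the path. -/
theorem sum_map_range_eq_pathW {ι : Type} (w : ι → ι → ℕ) (f : ι → ℕ) (d : ℕ) (g : ℕ → ι)
    (hg : ∀ k < d, f (g k) = w (g k) (g (k + 1))) :
    ((range (d + 1)).map (fun k => f (g k))).sum = pathW w ((range (d + 1)).map g) + f (g d) := by
  induction d generalizing g with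
  | zero => simp [pathW]
  | succ d ih =>
    have h1 := ih (fun k => g (k + 1)) (fun k hk => hg (k + 1) (by omega))
    rw [List.range_succ_eq_map, List.map_cons, List.map_map, List.sum_cons, List.map_cons,
      List.map_map]
    have h2 : (List.map ((fun k => f (g k)) ∘ Nat.succ) (range (d + 1))) =
        (range (d + 1)).map (fun k => f (g (k + 1))) := rfl
    have h3 : (List.map (g ∘ Nat.succ) (range (d + 1))) = (range (d + 1)).map (fun k => g (k + 1)) := rfl
    rw [h2, h3, h1]
    have h4 : (range (d + 1)).map (fun k => g (k + 1)) =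
        g 1 :: (range d).map (fun k => g (k + 1 + 1)) := by
      rw [List.range_succ_eq_map, List.map_cons, List.map_map]
      rfl
    have h5 := hg 0 (by omega)
    simp only [Nat.zero_add] at h5
    simp only [h4, pathW] at h1 ⊢
    omega

theorem Rep.sum_pathL (w : List (List ℕ)) {S : St n} {π : List ℕ} {tl : List Bool} (h : Rep S π tl)
    (t : Fin n) (ht : S.tl t = true) :
    ((pathL π t).map (fun x => if tl.getD x false = true then 0 else mat w x (app π x))).sum =
      pathW (mat w) (pathL π t) := by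
  rw [h.pathL_eq]
  have hd := Vale.Agent.Lib.P333.minPeriod_pos S.π t
  obtain ⟨D, hD⟩ : ∃ D, Function.minimalPeriod S.π t = D + 1 := ⟨_, (Nat.succ_pred_eq_of_pos hd).symm⟩
  rw [hD]
  have hiter : ∀ k, (S.π ^ k) t = (⇑S.π)^[k] t := fun k => by rw [Equiv.Perm.iterate_eq_pow]
  have key := sum_map_range_eq_pathW (mat w)
    (fun x => if tl.getD x false = true then 0 else mat w x (app π x)) D
    (fun k => (((S.π ^ (k + 1)) t : Fin n) : ℕ)) ?_
  · rw [List.map_map] at *
    refine key.trans ?_
    have hlast : (S.π ^ (D + 1)) t = t := by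
      rw [hiter, ← hD, Function.iterate_minimalPeriod]
    simp only [hlast, h.tl_eq, ht, if_true, add_zero]
  · intro k hk
    have hnt : S.tl ((S.π ^ (k + 1)) t) = false := by
      by_contra hne
      have hne' : S.tl ((S.π ^ (k + 1)) t) = true := by simpa using hne
      have hsc : S.π.SameCycle t ((S.π ^ (k + 1)) t) := ⟨((k + 1 : ℕ) : ℤ), by rw [zpow_natCast]⟩
      have heq := Rep.tail_unique ht hne' hsc
      have hper : Function.IsPeriodicPt S.π (k + 1) t := by
        unfold Function.IsPeriodicPt Function.IsFixedPt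
        rw [← hiter]
        exact heq.symm
      have := hper.minimalPeriod_le (by omega)
      omega
    simp only [h.tl_eq, hnt, Bool.false_eq_true, if_false]
    congr 1
    rw [h.app_eq, pow_succ' S.π (k + 1), Equiv.Perm.mul_apply]

theorem real_le_pathW (w : List (List ℕ)) {S : St n} {π : List ℕ} {tl : List Bool} (h : Rep S π tl) :
    realL w (π, tl) ≤ pathW (mat w) (orderOf (π, tl)) := by
  have hperm := orderOf_perm h
  have hlen : π.length = n := length_of_perm h.perm
  unfold realL
  simp only
  rw [hlen, ← (hperm.map _).sum_eq]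
  unfold orderOf
  simp only
  have hgen : ∀ l : List ℕ, (∀ t ∈ l, t ∈ tailsL tl) →
      ((l.flatMap (pathL π)).map
        (fun x => if tl.getD x false = true then 0 else mat w x (app π x))).sum ≤
        pathW (mat w) (l.flatMap (pathL π)) := by
    intro l
    induction l with
    | nil => simp [pathW]
    | cons t l ih =>
      intro hl
      have ht := mem_tailsL_ord.1 (hl t List.mem_cons_self)
      have hlt : t < n := h.tlen ▸ ht.1
      have htl : S.tl ⟨t, hlt⟩ = true := by rw [← h.tl_eq]; exact ht.2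
      have h1 := h.sum_pathL w ⟨t, hlt⟩ htl
      have h2 := ih (fun s hs => hl s (List.mem_cons_of_mem _ hs))
      rw [List.flatMap_cons, List.map_append, List.sum_append]
      have h3 := pathW_append_ge_ord (mat w) (pathL π t) (l.flatMap (pathL π))
      simp only at h1
      omega
  exact hgen _ (fun _ ht => ht)

end Vale.Agent.Lib.P333F
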