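import Vale.Agent.Lib.P333F.Level2
import Vale.Agent.Lib.P333F.Order
import Vale.Agent.Lib.P333F.Bits

/-!
(part ATSP) The list level path systems built from the seeds, and the final bound for the
approximation algorithm for maximum weight Hamiltonian paths.
-/

namespace Vale.Agent.Lib.P333F

open List (range)

variable {n : ℕ}

theorem app_map_range_atsp {f : ℕ → ℕ} {m x : ℕ} (hx : x < m) : app ((range m).map f) x = f x := by
  simp [app, hx]

theorem getD_map_range_atsp {f : ℕ → Bool} {m x : ℕ} (hx : x < m) :
    ((range m).map f).getD x false = f x := by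
  simp [hx]

section Seeds

variable {τ : List ℕ} {τ' : Equiv.Perm (Fin n)} (hlen : τ.length = n)
  (happ : ∀ x : Fin n, app τ x = τ' x)

include happ in
theorem isPairB_iff_atsp (x : Fin n) : isPairB τ x = true ↔ isP τ' x := by
  unfold isPairB isP
  simp only [Bool.and_eq_true, decide_eq_true_eq, happ]
  constructor
  · rintro ⟨h1, h2⟩
    refine ⟨fun h => h2 (by rw [h]), Fin.ext h1⟩
  · rintro ⟨h1, h2⟩
    refine ⟨by rw [h2], fun h => h1 (Fin.ext h)⟩

include happ in
theorem repP_of_isP_atsp {x : Fin n} (_hx : isP τ' x) :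
    repP τ x = if (x : ℕ) < τ' x then (x : ℕ) else τ' x := by
  unfold repP
  rw [happ]

include happ in
theorem repP_flip_atsp {x : Fin n} (hx : isP τ' x) : repP τ (τ' x) = repP τ x := by
  have h1 : ((τ' x : Fin n) : ℕ) ≠ x := fun h => hx.1 (Fin.ext h)
  have h2 : app τ (τ' x) = x := by rw [happ, hx.2]
  unfold repP
  rw [h2, happ]
  by_cases h : (x : ℕ) < τ' x
  · rw [if_pos h, if_neg (by omega)]
  · rw [if_neg h, if_pos (by omega)]

include hlen happ in
theorem repP_mem_atsp {x : Fin n} (hx : isP τ' x) : repP τ x ∈ pairsL τ := by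
  have h1 : ((τ' x : Fin n) : ℕ) ≠ x := fun h => hx.1 (Fin.ext h)
  rw [repP_of_isP_atsp happ hx]
  unfold pairsL
  refine List.mem_filter.2 ?_
  by_cases h : (x : ℕ) < τ' x
  · rw [if_pos h]
    refine ⟨List.mem_range.2 (by rw [hlen]; exact x.2), ?_⟩
    rw [Bool.and_eq_true, decide_eq_true_eq, happ]
    exact ⟨(isPairB_iff_atsp happ x).2 hx, h⟩
  · rw [if_neg h]
    refine ⟨List.mem_range.2 (by rw [hlen]; exact (τ' x).2), ?_⟩
    rw [Bool.and_eq_true, decide_eq_true_eq, happ, hx.2]
    have hx' : isP τ' (τ' x) := by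
      refine ⟨?_, ?_⟩
      · rw [hx.2]; exact fun h => hx.1 h.symm
      · rw [hx.2]
    exact ⟨(isPairB_iff_atsp happ _).2 hx', by omega⟩

include hlen happ in
theorem idOf_spec_atsp {x : Fin n} (hx : isP τ' x) :
    idOf τ x ∈ idsL τ := by
  have hmem := repP_mem_atsp hlen happ hx
  have hidx := List.idxOf_lt_length_iff.2 hmem
  have hnz : (pairsL τ).length ≤ (idsL τ).length := nonzero_length _
  unfold idOf
  rw [List.getD_eq_getElem _ _ (by omega)]
  exact List.getElem_mem _

include hlen happ in
theorem idOf_ne_atsp {x y : Fin n} (hx : isP τ' x) (hy : isP τ' y) (hxy : y ≠ x) (hxy2 : y ≠ τ' x) :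
    idOf τ x ≠ idOf τ y := by
  intro heq
  have hmx := repP_mem_atsp hlen happ hx
  have hmy := repP_mem_atsp hlen happ hy
  have hix := List.idxOf_lt_length_iff.2 hmx
  have hiy := List.idxOf_lt_length_iff.2 hmy
  have hnz : (pairsL τ).length ≤ (idsL τ).length := nonzero_length _
  have hnd : (idsL τ).Nodup := by
    obtain ⟨m, h1, -⟩ := allV_spec (pairsL τ).length
    exact List.Nodup.filter _ h1
  unfold idOf at heq
  rw [List.getD_eq_getElem _ _ (by omega), List.getD_eq_getElem _ _ (by omega)] at heq
  have hi := (hnd.getElem_inj_iff).1 heq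
  have hrep := (List.idxOf_inj hmx).1 hi
  rw [repP_of_isP_atsp happ hx, repP_of_isP_atsp happ hy] at hrep
  have hyx : τ' y = x → y = τ' x := by
    intro h
    rw [← h, hy.2]
  split_ifs at hrep
  · exact hxy (Fin.ext hrep.symm)
  · exact hxy2 (hyx (Fin.ext hrep.symm))
  · exact hxy2 (Fin.ext hrep.symm)
  · apply hxy
    have : τ' x = τ' y := Fin.ext hrep
    exact (τ'.injective this).symm

include hlen happ in
theorem seeds_gen :
    Seeds τ' (allV (pairsL τ).length) (fun s x => tailP τ s x) := by
  obtain ⟨m, hnd, hmem, hcard, hlt⟩ := allV_spec (pairsL τ).length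
  have hvec : ∀ {x : Fin n}, isP τ' x → (idOf τ x).length = m ∧ (idOf τ x).any (fun b => b) = true := by
    intro x hx
    have h1 := List.mem_filter.1 (idOf_spec_atsp hlen happ hx)
    exact ⟨(hmem _).1 h1.1, h1.2⟩
  refine ⟨?_, ?_, ?_, ?_⟩
  · intro h
    rw [h] at hcard
    simp at hcard
    exact (pow_pos (by norm_num : 0 < 2) m).ne hcard
  · intro s x hx
    have h1 : ((τ' x : Fin n) : ℕ) ≠ x := fun h => hx.1 (Fin.ext h)
    have h2 : app τ (τ' x) = x := by rw [happ, hx.2]
    unfold tailP idOf
    rw [repP_flip_atsp happ hx, h2, happ]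
    by_cases h : (x : ℕ) < τ' x
    · have h3 : ¬ ((τ' x : Fin n) : ℕ) < x := by omega
      simp [h, h3]
    · have h3 : ((τ' x : Fin n) : ℕ) < x := by omega
      simp [h, h3]
  · intro x hx
    obtain ⟨hl, hne⟩ := hvec hx
    have := par_balanced hnd hmem hl hne (!decide ((x : ℕ) < app τ x))
    rw [← this]
    congr 2
    refine List.filter_congr ?_
    intro s _
    unfold tailP
    cases parB s (idOf τ x) <;> cases decide ((x : ℕ) < app τ x) <;> rfl
  · intro x y hx hy hxy hxy2
    obtain ⟨hl, hne⟩ := hvec hx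
    obtain ⟨hl', hne'⟩ := hvec hy
    have := par_independent hnd hmem hl hl' hne hne' (idOf_ne_atsp hlen happ hx hy hxy hxy2)
      (!decide ((x : ℕ) < app τ x)) (decide ((y : ℕ) < app τ y))
    rw [← this]
    congr 2
    refine List.filter_congr ?_
    intro s _
    unfold tailP
    cases parB s (idOf τ x) <;> cases decide ((x : ℕ) < app τ x) <;>
      cases parB s (idOf τ y) <;> cases decide ((y : ℕ) < app τ y) <;> rfl

end Seeds

/-- The seeds of a list permutation. -/
theorem seeds_ok {τ : List ℕ} (h : τ.Perm (range n)) :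
    Seeds (permOfL h) (allV (pairsL τ).length) (fun s x => tailP τ s x) :=
  seeds_gen (length_of_perm h) (fun _ => rfl)

theorem rep_stA_gen {τ : List ℕ} {τ' : Equiv.Perm (Fin n)} (hlen : τ.length = n)
    (happ : ∀ x : Fin n, app τ x = τ' x) (s : List Bool)
    (ht : ∀ x, isP τ' x → tailP τ s (τ' x) = !tailP τ s x) :
    Rep (stA τ' (fun x => tailP τ s x) ht) (stB τ s).1 (stB τ s).2 := by
  have hf : ∀ x : Fin n, app (stB τ s).1 x = (piA τ' x : Fin n) := by
    intro x
    unfold stB
    simp only
    rw [hlen, app_map_range_atsp x.2, piA_apply]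
    by_cases hx : isP τ' x
    · rw [if_pos ((isPairB_iff_atsp happ x).2 hx), if_pos hx, happ]
    · have : ¬ isPairB τ x = true := fun h => hx ((isPairB_iff_atsp happ x).1 h)
      rw [if_neg this, if_neg hx]
  refine ⟨?_, ?_, hf, ?_⟩
  · have h1 : (stB τ s).1 = listOfPerm (piA τ') := by
      refine List.ext_getElem ?_ ?_
      · simp [stB, listOfPerm, hlen]
      · intro i h1 h2
        have hi : i < n := by simpa [listOfPerm] using h2
        have h3 := hf ⟨i, hi⟩
        have h4 := app_listOfPerm (piA τ') ⟨i, hi⟩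
        simp only [app, List.getD_eq_getElem _ _ h1, List.getD_eq_getElem _ _ h2] at h3 h4
        rw [h3, h4]
    rw [h1]
    exact listOfPerm_perm _
  · simp [stB, hlen]
  · intro x
    unfold stB stA
    simp only
    rw [hlen, getD_map_range_atsp x.2]
    by_cases hx : isP τ' x
    · rw [if_pos ((isPairB_iff_atsp happ x).2 hx), if_pos hx]
    · have : ¬ isPairB τ x = true := fun h => hx ((isPairB_iff_atsp happ x).1 h)
      rw [if_neg this, if_neg hx]

theorem rep_stA {τ : List ℕ} (h : τ.Perm (range n)) (s : List Bool)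
    (ht : ∀ x, isP (permOfL h) x → tailP τ s (permOfL h x) = !tailP τ s x) :
    Rep (stA (permOfL h) (fun x => tailP τ s x) ht) (stB τ s).1
      (stB τ s).2 :=
  rep_stA_gen (length_of_perm h) (fun _ => rfl) s ht

theorem rep_stB {S : St n} {τ : List ℕ} {tc : List Bool} (h : Rep S τ tc) (s : List Bool)
    (ht : ∀ x, isP S.π x → tailP τ s (S.π x) = !tailP τ s x) :
    Rep (stC S (fun x => tailP τ s x) ht) (stB' τ tc s).1 (stB' τ tc s).2 := by
  have hlen : τ.length = n := length_of_perm h.perm
  refine ⟨h.perm, ?_, h.app_eq, ?_⟩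
  · simp [stB', hlen]
  · intro x
    unfold stB' stC
    simp only
    rw [hlen, getD_map_range_atsp x.2]
    by_cases hx : isP S.π x
    · rw [if_pos ((isPairB_iff_atsp h.app_eq x).2 hx), if_pos hx]
    · have : ¬ isPairB τ x = true := fun h' => hx ((isPairB_iff_atsp h.app_eq x).1 h')
      rw [if_neg this, if_neg hx, h.tl_eq]

/-- All the candidates are path systems, and the bound. -/
theorem cands_rep (w : List (List ℕ)) {S : St n} {π : List ℕ} {tl : List Bool} (h : Rep S π tl) :
    ∀ c ∈ candsL w (π, tl), ∃ S' : St n, Rep S' c.1 c.2 := by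
  have hlen : π.length = n := length_of_perm h.perm
  have hF := seeds_gen hlen h.app_eq
  intro c hc
  unfold candsL at hc
  rcases List.mem_cons.1 hc with rfl | hc
  · exact ⟨S, h⟩
  · obtain ⟨s, -, hs⟩ := List.mem_flatMap.1 hc
    simp only [List.mem_cons, List.not_mem_nil, or_false] at hs
    rcases hs with rfl | rfl
    · exact relink_ex w _ (rep_stA_gen hlen h.app_eq s (fun x hx => hF.flip s x hx))
    · exact relink_ex w _ (rep_stB h s (fun x hx => hF.flip s x hx))

theorem bestSt_spec (w : List (List ℕ)) :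
    bestSt w ∈ candsL w (relink w (initSt w.length)) ∧
      ∀ y ∈ candsL w (relink w (initSt w.length)), realL w y ≤ realL w (bestSt w) :=
  bestBy_spec (realL w) ([], []) (by simp [candsL])

/-- The approximation algorithm for maximum weight Hamiltonian paths: ratio `7/13`. -/
theorem atsp_perm (w : List (List ℕ)) : (atsp w).Perm (range w.length) := by
  obtain ⟨S, hS, -⟩ := level1_of_relink (n := w.length) w
  obtain ⟨S', hS'⟩ := cands_rep w hS _ (bestSt_spec w).1
  exact orderOf_perm hS'

theorem pathW_map_val (w : List (List ℕ)) (P : List (Fin n)) :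
    pathW (mat w) (P.map (fun x : Fin n => (x : ℕ))) = pathW (matF w) P := by
  induction P with
  | nil => rfl
  | cons x P ih =>
    cases P with
    | nil => rfl
    | cons y P =>
      simp only [List.map_cons, pathW] at ih ⊢
      rw [ih]
      rfl

theorem atsp_spec (w : List (List ℕ)) {P : List ℕ} (hP : P.Perm (range w.length)) :
    7 * pathW (mat w) P ≤ 13 * pathW (mat w) (atsp w) := by
  obtain ⟨S, hS, hL⟩ := level1_of_relink (n := w.length) w
  have hlen : (relink w (initSt w.length)).1.length = w.length := length_of_perm hS.perm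
  have hF := seeds_gen hlen hS.app_eq
  obtain ⟨hb1, hb2⟩ := bestSt_spec w
  have hcC : (relink w (initSt w.length)) ∈ candsL w (relink w (initSt w.length)) := by
    simp [candsL]
  obtain ⟨Sb, hSb⟩ := cands_rep w hS _ hb1
  have hreal := real_le_pathW w hSb
  -- the path over `Fin`
  have hlt : ∀ x ∈ P, x < w.length := fun x hx => List.mem_range.1 (hP.subset hx)
  let P' : List (Fin w.length) := P.pmap (fun x hx => ⟨x, hx⟩) hlt
  have hP'map : P'.map (fun x : Fin w.length => (x : ℕ)) = P := by
    simp [P', List.map_pmap]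
  have hP'nd : P'.Nodup := by
    have : (P'.map (fun x : Fin w.length => (x : ℕ))).Nodup := by
      rw [hP'map]
      exact hP.nodup_iff.2 List.nodup_range
    exact List.Nodup.of_map _ this
  rw [← hP'map, pathW_map_val]
  have hcand : ∀ s ∈ allV (pairsL (relink w (initSt w.length)).1).length,
      relink w (stB (relink w (initSt w.length)).1 s) ∈ candsL w (relink w (initSt w.length)) ∧
      relink w (stB' (relink w (initSt w.length)).1 (relink w (initSt w.length)).2 s) ∈
        candsL w (relink w (initSt w.length)) := by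
    intro s hs
    unfold candsL
    constructor
    · refine List.mem_cons_of_mem _ (List.mem_flatMap.2 ⟨s, hs, by simp⟩)
    · refine List.mem_cons_of_mem _ (List.mem_flatMap.2 ⟨s, hs, by simp⟩)
  refine le_trans (core_cert (w := matF w) hL hF hP'nd
    (X := fun s => realL w (relink w (stB (relink w (initSt w.length)).1 s)))
    (Y := fun s => realL w (relink w (stB' (relink w (initSt w.length)).1 (relink w (initSt w.length)).2 s)))
    (best := realL w (bestSt w)) ?_ ?_ ?_ ?_ ?_) (Nat.mul_le_mul_left _ hreal)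
  · rw [← realL_eq w hS]
    exact hb2 _ hcC
  · intro s hs
    exact hb2 _ (hcand s hs).1
  · intro s hs
    exact hb2 _ (hcand s hs).2
  · intro s hs
    have hrep := rep_stA_gen hlen hS.app_eq s (fun x hx => hF.flip s x hx)
    have hU := usable_UA (S.π) (fun x => tailP (relink w (initSt w.length)).1 s x)
      (fun x hx => hF.flip s x hx) hP'nd
    have h1 := relink_usable w _ hrep hU
    have h2 := realL_eq w hrep
    rw [stA_real] at h2
    simp only [Prod.mk.eta] at h1 h2
    rw [h2] at h1
    exact h1
  · intro s hs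
    have hrep := rep_stB hS s (fun x hx => hF.flip s x hx)
    have hU := usable_UB S (fun x => tailP (relink w (initSt w.length)).1 s x)
      (fun x hx => hF.flip s x hx) hP'nd
    have h1 := relink_usable w _ hrep hU
    have h2 := realL_eq w hrep
    rw [stC_real] at h2
    simp only [Prod.mk.eta] at h1 h2
    rw [h2] at h1
    omega

end Vale.Agent.Lib.P333F
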