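import Mathlib

/-!
The polynomial time algorithm for the shortest common superstring problem of the P333F project:
all the list level definitions. See notes/P333F_blueprint.md.
-/

namespace Vale.Agent.Lib.P333F

open List (range)

/-! ### Basic list functions -/

/-- Application of a function stored as a list. -/
def app (p : List ℕ) (i : ℕ) : ℕ := p.getD i 0

/-- Entry of a matrix stored as a list of rows. -/
def mat (W : List (List ℕ)) (i j : ℕ) : ℕ := (W.getD i []).getD j 0

/-- The `k`-th iterate of `app p` at `x`. -/
def powL (p : List ℕ) (k x : ℕ) : ℕ := (range k).foldr (fun _ y => app p y) x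

/-- The iterates of `x` under `p`: the orbit of `x` when `p` is a permutation of `range p.length`. -/
def iterL (p : List ℕ) (x : ℕ) : List ℕ := (range p.length).map (fun k => powL p k x)

/-- An element of `l` with largest key, `d` on the empty list. -/
def bestBy {β : Type} (key : β → ℕ) (d : β) (l : List β) : β :=
  (l.filter (fun x => l.all (fun y => decide (key y ≤ key x)))).getD 0 d

/-- The maximum of a list, `0` on the empty list. -/
def maxL (l : List ℕ) : ℕ := bestBy (fun x => x) 0 l

/-- Clamp to at most `n`. -/
def cl (n y : ℕ) : ℕ := if y ≤ n then y else n

/-! ### The assignment problem by cycle cancelling -/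

/-- A number larger than every entry of `W`. -/
def bigM (W : List (List ℕ)) : ℕ := (W.map List.sum).sum + 1

/-- The total weight of an assignment. -/
def weightL (W : List (List ℕ)) (p : List ℕ) : ℕ :=
  ((range W.length).map (fun i => mat W i (app p i))).sum

/-- The cost of the arc `i → j`: row `i` takes the column of row `j`, shifted by `bigM W`. -/
def arcC (W : List (List ℕ)) (p : List ℕ) (i j : ℕ) : ℕ :=
  mat W i (app p j) + bigM W - mat W i (app p i)

/-- Walks with one arc from `i`: value and reversed list of visited vertices (without `i`). -/
def dpInit (W : List (List ℕ)) (p : List ℕ) (i : ℕ) : List (ℕ × List ℕ) :=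
  (range W.length).map (fun j => (arcC W p i j, [j]))

/-- Extend the best walk to `l` by the arc `l → j`. -/
def dpExt (W : List (List ℕ)) (p : List ℕ) (row : List (ℕ × List ℕ)) (j l : ℕ) : ℕ × List ℕ :=
  ((row.getD l (0, [])).1 + arcC W p l j, j :: (row.getD l (0, [])).2)

/-- One more arc. -/
def dpStep (W : List (List ℕ)) (p : List ℕ) (row : List (ℕ × List ℕ)) : List (ℕ × List ℕ) :=
  (range W.length).map (fun j =>
    bestBy (fun e : ℕ × List ℕ => e.1) (0, []) ((range W.length).map (fun l => dpExt W p row j l)))

/-- Best walks with exactly `k + 1` arcs from `i`, indexed by their last vertex. -/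
def dpLevel (W : List (List ℕ)) (p : List ℕ) (i k : ℕ) : List (ℕ × List ℕ) :=
  (range k).foldr (fun _ row => dpStep W p row) (dpInit W p i)

/-- The best closed walk with `k + 1` arcs through `i`. -/
def dpEnt (W : List (List ℕ)) (p : List ℕ) (i k : ℕ) : ℕ × List ℕ :=
  (dpLevel W p i k).getD i (0, [])

/-- Is the best closed walk with `k + 1` arcs through `i` improving? -/
def posAt (W : List (List ℕ)) (p : List ℕ) (k i : ℕ) : Bool :=
  decide ((k + 1) * bigM W < (dpEnt W p i k).1)

/-- The numbers `k` for which some improving closed walk with `k + 1` arcs exists. -/
def foundK (W : List (List ℕ)) (p : List ℕ) : List ℕ :=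
  (range W.length).filter (fun k => (range W.length).any (fun i => posAt W p k i))

/-- The vertices `i` with an improving closed walk with `k + 1` arcs. -/
def foundI (W : List (List ℕ)) (p : List ℕ) (k : ℕ) : List ℕ :=
  (range W.length).filter (fun i => posAt W p k i)

/-- The shortest improving closed walk (reversed), `[]` if there is none. -/
def rvOf (W : List (List ℕ)) (p : List ℕ) : List ℕ :=
  if (foundK W p).length = 0 then []
  else (dpEnt W p ((foundI W p ((foundK W p).getD 0 0)).getD 0 0) ((foundK W p).getD 0 0)).2

/-- The cyclic predecessor of `x` in the list `rv`. -/
def prevL (rv : List ℕ) (x : ℕ) : ℕ :=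
  if rv.idxOf x = 0 then rv.getD (rv.length - 1) 0 else rv.getD (rv.idxOf x - 1) 0

/-- The assignment after rotating along the closed walk `rv`: `x` in `rv` takes the column of
its predecessor in `rv` (the list `rv` is reversed). The clamp only serves to bound sizes. -/
def rotL (n : ℕ) (p rv : List ℕ) : List ℕ :=
  (range n).map (fun x => cl n (if x ∈ rv then app p (prevL rv x) else app p x))

/-- One round of cycle cancelling. -/
def improve (W : List (List ℕ)) (p : List ℕ) : List ℕ := rotL W.length p (rvOf W p)

/-- A maximum weight assignment of the square matrix `W`. -/
def maxAssign (W : List (List ℕ)) : List ℕ :=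
  (range (bigM W)).foldr (fun _ p => improve W p) (range W.length)

/-! ### Path systems: a permutation with exactly one tail per cycle -/

/-- The positions with flag `true`. -/
def tailsL (tl : List Bool) : List ℕ := (range tl.length).filter (fun i => tl.getD i false)

/-- The weight of the arcs that are not virtual (not leaving a tail). -/
def realL (w : List (List ℕ)) (st : List ℕ × List Bool) : ℕ :=
  ((range st.1.length).map
    (fun x => if st.2.getD x false = true then 0 else mat w x (app st.1 x))).sum

/-- The matrix of the relinking assignment: tail number `r` may be joined to the head of the path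
with tail number `q`, `q ≠ r`. -/
def relMat (w : List (List ℕ)) (π L : List ℕ) : List (List ℕ) :=
  (range L.length).map (fun r => (range L.length).map (fun q =>
    if r = q then 0 else mat w (L.getD r 0) (app π (L.getD q 0))))

/-- The permutation of the tails given by the assignment `p` on their indices. -/
def thetaL (L p : List ℕ) (x : ℕ) : ℕ := if x ∈ L then L.getD (app p (L.idxOf x)) 0 else x

/-- The weight of the new arc out of `x`. -/
def hatL (w : List (List ℕ)) (π L p : List ℕ) (x : ℕ) : ℕ :=
  if thetaL L p x = x then 0 else mat w x (app π (thetaL L p x))

/-- Lexicographic comparison of (weight, index). -/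
def lexB (a x b y : ℕ) : Bool := decide (a < b) || (decide (a = b) && decide (x ≤ y))

/-- The optimal assignment used by `relink`. -/
def relP (w : List (List ℕ)) (st : List ℕ × List Bool) : List ℕ :=
  maxAssign (relMat w st.1 (tailsL st.2))

/-- The new permutation: tails are linked to the heads chosen by the assignment. -/
def relRho (w : List (List ℕ)) (st : List ℕ × List Bool) : List ℕ :=
  (range st.1.length).map (fun x => app st.1 (thetaL (tailsL st.2) (relP w st) x))

/-- The new tails: in each new cycle the old tail with lexicographically least new arc. -/
def relTl (w : List (List ℕ)) (st : List ℕ × List Bool) : List Bool :=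
  (range st.1.length).map (fun x => st.2.getD x false &&
    (iterL (relRho w st) x).all (fun y => !(st.2.getD y false) ||
      lexB (hatL w st.1 (tailsL st.2) (relP w st) x) x
        (hatL w st.1 (tailsL st.2) (relP w st) y) y))

/-- Relink a path system: a maximum weight assignment joins the paths, then in each new cycle
the least new arc is dropped. -/
def relink (w : List (List ℕ)) (st : List ℕ × List Bool) : List ℕ × List Bool :=
  (relRho w st, relTl w st)

/-- The path system of singletons. -/
def initSt (n : ℕ) : List ℕ × List Bool := (range n, List.replicate n true)

/-- The length of the cycle of `t`. -/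
def perL (π : List ℕ) (t : ℕ) : ℕ :=
  ((range π.length).filter (fun k => decide (powL π (k + 1) t = t))).getD 0 0 + 1

/-- The path with tail `t`: `[π t, π² t, ..., t]`. -/
def pathL (π : List ℕ) (t : ℕ) : List ℕ :=
  (range (perL π t)).map (fun k => powL π (k + 1) t)

/-- The order of the nodes given by a path system: the paths one after the other. -/
def orderOf (st : List ℕ × List Bool) : List ℕ := (tailsL st.2).flatMap (pathL st.1)

/-! ### The seeds: a pairwise independent family of bits -/

/-- One more coordinate. -/
def dbl (L : List (List Bool)) : List (List Bool) := L.flatMap (fun v => [false :: v, true :: v])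

/-- All Boolean vectors of length `m`, for the least `m` with `2 ^ m > r`. -/
def allV (r : ℕ) : List (List Bool) :=
  (range (r + 1)).foldr (fun _ L => if L.length ≤ r then dbl L else L) [[]]

/-- The inner product over the field with two elements. -/
def parB (s v : List Bool) : Bool := (s.zip v).foldr (fun e acc => xor (e.1 && e.2) acc) false

/-- `x` lies on a cycle of length two of `τ`. -/
def isPairB (τ : List ℕ) (x : ℕ) : Bool :=
  decide (app τ (app τ x) = x) && decide (app τ x ≠ x)

/-- The smaller nodes of the cycles of length two. -/
def pairsL (τ : List ℕ) : List ℕ :=
  (range τ.length).filter (fun u => isPairB τ u && decide (u < app τ u))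

/-- The nonzero vectors. -/
def idsL (τ : List ℕ) : List (List Bool) :=
  (allV (pairsL τ).length).filter (fun v => v.any (fun b => b))

/-- The smaller node of the pair of `x`. -/
def repP (τ : List ℕ) (x : ℕ) : ℕ := if x < app τ x then x else app τ x

/-- The vector of the pair of `x`. -/
def idOf (τ : List ℕ) (x : ℕ) : List Bool := (idsL τ).getD ((pairsL τ).idxOf (repP τ x)) []

/-- Is `x` the tail of its pair under the seed `s`? -/
def tailP (τ : List ℕ) (s : List Bool) (x : ℕ) : Bool :=
  xor (parB s (idOf τ x)) (decide (x < app τ x))

/-- Path system: the pairs, oriented by the seed, and singletons. -/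
def stB (τ : List ℕ) (s : List Bool) : List ℕ × List Bool :=
  ((range τ.length).map (fun x => if isPairB τ x = true then app τ x else x),
   (range τ.length).map (fun x => if isPairB τ x = true then tailP τ s x else true))

/-- Path system: the pairs, oriented by the seed, and the other cycles of `τ` cut as in `tc`. -/
def stB' (τ : List ℕ) (tc : List Bool) (s : List Bool) : List ℕ × List Bool :=
  (τ, (range τ.length).map (fun x => if isPairB τ x = true then tailP τ s x else tc.getD x false))

/-- All the candidates built from the first level path system `C`. -/
def candsL (w : List (List ℕ)) (C : List ℕ × List Bool) : List (List ℕ × List Bool) :=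
  C :: (allV (pairsL C.1).length).flatMap (fun s =>
    [relink w (stB C.1 s), relink w (stB' C.1 C.2 s)])

/-- The best candidate. -/
def bestSt (w : List (List ℕ)) : List ℕ × List Bool :=
  bestBy (realL w) ([], []) (candsL w (relink w (initSt w.length)))

/-- The approximation algorithm for maximum weight Hamiltonian paths. -/
def atsp (w : List (List ℕ)) : List ℕ := orderOf (bestSt w)

/-- The weight of a path. -/
def pathW {ι : Type} (w : ι → ι → ℕ) : List ι → ℕ
  | [] => 0
  | [_] => 0
  | x :: y :: l => w x y + pathW w (y :: l)

/-! ### Strings -/

variable {α : Type} [DecidableEq α]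

/-- The length of the longest proper suffix of `a` that is a prefix of `b`. -/
def ovL (a b : List α) : ℕ :=
  maxL ((range a.length).filter (fun k => decide (a.drop (a.length - k) = b.take k)))

/-- The merge of a list of strings along the overlaps of consecutive strings. -/
def mergeL (l : List (List α)) : List α :=
  l.getD 0 [] ++ (l.zip l.tail).flatMap (fun e => e.2.drop (ovL e.1 e.2))

/-- Is `a` a contiguous factor of `b`? -/
def isFac (a b : List α) : Bool :=
  (range (b.length + 1)).any (fun i => decide ((b.drop i).take a.length = a))

/-- Keep the string number `i`: nonempty, not a factor of another string, first of its copies. -/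
def keepS (S : List (List α)) (i : ℕ) : Bool :=
  decide (S.getD i [] ≠ []) && (range S.length).all (fun j =>
    decide (j = i) || !isFac (S.getD i []) (S.getD j []) ||
      (decide (S.getD j [] = S.getD i []) && decide (i < j)))

/-- The maximal strings, without copies and without the empty string. -/
def antichainL (S : List (List α)) : List (List α) :=
  ((range S.length).filter (keepS S)).map (fun i => S.getD i [])

/-- The overlap matrix. -/
def ovMat (S : List (List α)) : List (List ℕ) := S.map (fun a => S.map (fun b => ovL a b))

/-- The flags of the weakest arcs of the cycles of `σ`, for the weights `W`. -/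
def cutFlags (W : List (List ℕ)) (σ : List ℕ) : List Bool :=
  (range W.length).map (fun x => (iterL σ x).all (fun y =>
    lexB (mat W x (app σ x)) x (mat W y (app σ y)) y))

/-- The merge of the strings of the cycle with weakest arc leaving `c`, starting after that arc. -/
def openedL (S : List (List α)) (σ : List ℕ) (c : ℕ) : List α :=
  mergeL ((pathL σ c).map (fun i => S.getD i []))

/-- The strings obtained by opening all the cycles of an optimal cycle cover of `S`. -/
def openAll (S : List (List α)) : List (List α) :=
  (tailsL (cutFlags (ovMat S) (maxAssign (ovMat S)))).map (openedL S (maxAssign (ovMat S)))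

/-- Merge the strings of `M` in the order found by the Hamiltonian path algorithm. -/
def mergeAtsp (M : List (List α)) : List α :=
  mergeL ((atsp (ovMat M)).map (fun i => M.getD i []))

/-- The algorithm for the shortest common superstring problem. -/
def scsAlg (S : List (List α)) : List α :=
  mergeAtsp (openAll (antichainL S))

end Vale.Agent.Lib.P333F
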