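import Vale.Agent.Lib.P333F.AbsDefs

/-!
(part LEVEL1) The inequalities for the first level path system.
-/

namespace Vale.Agent.Lib.P333F

variable {n : ℕ} {w : Fin n → Fin n → ℕ} {S : St n}

namespace Level1Aux

theorem unique_tail (S : St n) {x y : Fin n} (h : S.π.SameCycle x y) (hx : S.tl x = true)
    (hy : S.tl y = true) : x = y :=
  (S.one x).unique ⟨Equiv.Perm.SameCycle.refl _ x, hx⟩ ⟨h, hy⟩

theorem tl_of_fixed (S : St n) {x : Fin n} (h : S.π x = x) : S.tl x = true := by
  obtain ⟨t, ⟨hc, ht⟩, -⟩ := S.one x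
  obtain ⟨i, hi⟩ := hc
  have : (S.π ^ i) x = x := Equiv.Perm.zpow_apply_eq_self_of_apply_eq_self h i
  rw [this] at hi
  rwa [hi]

theorem sc_succ (π : Equiv.Perm (Fin n)) (x : Fin n) : π.SameCycle x (π x) :=
  ⟨1, by simp⟩

theorem tl_succ (S : St n) {t : Fin n} (ht : S.tl t = true) (hne : S.π t ≠ t) :
    S.tl (S.π t) = false := by
  by_contra h
  have h' : S.tl (S.π t) = true := by simpa using h
  exact hne (unique_tail S (sc_succ S.π t) ht h').symm

theorem wt_of_ne (τ : Equiv.Perm (Fin n)) {x : Fin n} (h : τ x ≠ x) :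
    wt w τ x = w x (τ x) := by
  simp [wt, hat, h]

theorem wt_of_eq (τ : Equiv.Perm (Fin n)) {x : Fin n} (h : τ x = x) : wt w τ x = 0 := by
  simp [wt, hat, h]

theorem isP_or_isLg (τ : Equiv.Perm (Fin n)) {x : Fin n} (h : τ x ≠ x) : isP τ x ∨ isLg τ x := by
  by_cases h2 : τ (τ x) = x
  · exact Or.inl ⟨h, h2⟩
  · exact Or.inr ⟨h, h2⟩

theorem not_both (τ : Equiv.Perm (Fin n)) {x : Fin n} : ¬ (isP τ x ∧ isLg τ x) :=
  fun h => h.2.2 h.1.2

theorem isLg_succ (τ : Equiv.Perm (Fin n)) {x : Fin n} (h : isLg τ x) : isLg τ (τ x) := by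
  refine ⟨fun e => h.1 (τ.injective e), fun e => h.2 (τ.injective e)⟩

theorem isP_succ (τ : Equiv.Perm (Fin n)) {x : Fin n} (h : isP τ x) : isP τ (τ x) := by
  refine ⟨fun e => h.1 (τ.injective e), ?_⟩
  rw [h.2]

/-- All the weight of `τ` is on cycles of length two or more. -/
theorem sum_wt (w : Fin n → Fin n → ℕ) (τ : Equiv.Perm (Fin n)) :
    ∑ x, wt w τ x = w2 w τ + zz w τ := by
  unfold w2 zz
  rw [← Finset.sum_add_distrib]
  refine Finset.sum_congr rfl fun x _ => ?_
  by_cases h : τ x = x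
  · have h1 : ¬ isP τ x := fun hp => hp.1 h
    have h2 : ¬ isLg τ x := fun hp => hp.1 h
    simp [h1, h2, wt_of_eq τ h]
  · rcases isP_or_isLg τ h with hp | hl
    · have h2 : ¬ isLg τ x := fun hl => not_both τ ⟨hp, hl⟩
      simp [hp, h2]
    · have h1 : ¬ isP τ x := fun hp => not_both τ ⟨hp, hl⟩
      simp [h1, hl]

/-- The arcs of a nodup path pass through a permutation closing it. -/
theorem pathW_le_sum (w : Fin n → Fin n → ℕ) (q : Equiv.Perm (Fin n)) :
    ∀ P : List (Fin n), P.Nodup →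
      (∀ (i : ℕ) (hi : i + 1 < P.length), q P[i] = P[i + 1]) →
      pathW w P ≤ ∑ x ∈ P.toFinset, hat w 1 q x
  | [], _, _ => by simp [pathW]
  | [x], _, _ => by simp [pathW]
  | x :: y :: l, hnd, hq => by
    have hxy : q x = y := by simpa using hq 0 (by simp)
    have hnd' : (y :: l).Nodup := hnd.of_cons
    have hne : x ≠ y := by
      intro e
      have := (List.nodup_cons.mp hnd).1
      exact this (by simp [e])
    have hrec := pathW_le_sum w q (y :: l) hnd' (fun i hi => by
      have := hq (i + 1) (by simpa using hi)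
      simpa using this)
    have hx : x ∉ (y :: l).toFinset := by
      simpa using (List.nodup_cons.mp hnd).1
    rw [show (x :: y :: l).toFinset = insert x (y :: l).toFinset by simp]
    rw [Finset.sum_insert hx]
    have hhat : hat w 1 q x = w x y := by
      have : q x ≠ x := by rw [hxy]; exact hne.symm
      unfold hat
      rw [if_neg this]
      simp [hxy]
    rw [hhat]
    simpa [pathW] using hrec

theorem arcs_nodup {P : List (Fin n)} (hP : P.Nodup) : (arcs P).Nodup := by
  have h : ((arcs P).map Prod.snd).Nodup := by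
    unfold arcs
    rw [List.map_snd_zip (by simp)]
    exact hP.tail
  exact h.of_map _

theorem mem_arcs {P : List (Fin n)} {x y : Fin n} (h : (x, y) ∈ arcs P) :
    ∃ (i : ℕ) (hi : i + 1 < P.length), P[i] = x ∧ P[i + 1] = y := by
  unfold arcs at h
  obtain ⟨i, hi, he⟩ := List.getElem_of_mem h
  have hi2 : i + 1 < P.length := by
    simp at hi
    omega
  refine ⟨i, hi2, ?_, ?_⟩
  · have := congrArg Prod.fst he
    simpa using this
  · have := congrArg Prod.snd he
    simpa using this

theorem no_two_way {P : List (Fin n)} (hP : P.Nodup) {x y : Fin n} (h1 : (x, y) ∈ arcs P)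
    (h2 : (y, x) ∈ arcs P) : False := by
  obtain ⟨i, hi, hi1, hi2⟩ := mem_arcs h1
  obtain ⟨j, hj, hj1, hj2⟩ := mem_arcs h2
  have e1 : i = j + 1 := by
    apply (List.Nodup.getElem_inj_iff hP).mp
    rw [hi1, hj2]
  have e2 : i + 1 = j := by
    apply (List.Nodup.getElem_inj_iff hP).mp
    rw [hi2, hj1]
  omega

end Level1Aux

open Level1Aux

theorem level1_real (_hL : L1 w S) : S.real w = hH w S + ret w S := by
  unfold St.real hH ret
  rw [← Finset.sum_add_distrib]
  refine Finset.sum_congr rfl fun x _ => ?_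
  by_cases ht : S.tl x = true
  · simp [ht]
  · have hf : S.tl x = false := by simpa using ht
    have hne : S.π x ≠ x := fun e => ht (tl_of_fixed S e)
    rcases isP_or_isLg S.π hne with hp | hl
    · have h2 : ¬ isLg S.π x := fun hl => not_both S.π ⟨hp, hl⟩
      simp [hf, hp, h2, wt_of_ne S.π hne]
    · have h1 : ¬ isP S.π x := fun hp => not_both S.π ⟨hp, hl⟩
      simp [hf, h1, hl, wt_of_ne S.π hne]

theorem level1_ret (hL : L1 w S) : 2 * zz w S.π ≤ 3 * ret w S := by
  classical
  set f : Fin n → ℕ := fun x => if isLg S.π x ∧ S.tl x = false then wt w S.π x else 0 with hf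
  set T : Finset (Fin n) := Finset.univ.filter (fun x => isLg S.π x ∧ S.tl x = true) with hT
  have hzz : zz w S.π = ret w S + ∑ x ∈ T, wt w S.π x := by
    unfold zz ret
    rw [hT, Finset.sum_filter, ← Finset.sum_add_distrib]
    refine Finset.sum_congr rfl fun x _ => ?_
    by_cases hl : isLg S.π x
    · by_cases ht : S.tl x = true
      · simp [hl, ht]
      · have hf : S.tl x = false := by simpa using ht
        simp [hl, hf]
    · simp [hl]
  have hmem : ∀ t ∈ T, isLg S.π t ∧ S.tl t = true := fun t ht => (Finset.mem_filter.mp ht).2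
  have h1 : ∀ t ∈ T, wt w S.π t ≤ f (S.π t) := by
    intro t ht
    obtain ⟨hl, htl⟩ := hmem t ht
    have : f (S.π t) = wt w S.π (S.π t) := by
      simp [hf, isLg_succ S.π hl, tl_succ S htl hl.1]
    rw [this]
    exact hL.lex t _ htl (sc_succ S.π t)
  have h2 : ∀ t ∈ T, wt w S.π t ≤ f (S.π (S.π t)) := by
    intro t ht
    obtain ⟨hl, htl⟩ := hmem t ht
    have hn : S.tl (S.π (S.π t)) = false := by
      by_contra h
      have h' : S.tl (S.π (S.π t)) = true := by simpa using h
      have hsc : S.π.SameCycle t (S.π (S.π t)) := ⟨2, by simp [pow_two, zpow_ofNat]⟩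
      exact hl.2 (unique_tail S hsc htl h').symm
    have : f (S.π (S.π t)) = wt w S.π (S.π (S.π t)) := by
      simp [hf, isLg_succ S.π (isLg_succ S.π hl), hn]
    rw [this]
    exact hL.lex t _ htl ⟨2, by simp [pow_two, zpow_ofNat]⟩
  have s1 : ∑ t ∈ T, wt w S.π t ≤ ∑ t ∈ T, f (S.π t) := Finset.sum_le_sum h1
  have s2 : ∑ t ∈ T, wt w S.π t ≤ ∑ t ∈ T, f (S.π (S.π t)) := Finset.sum_le_sum h2
  have hdisj : Disjoint (T.image S.π) (T.image (fun t => S.π (S.π t))) := by
    rw [Finset.disjoint_left]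
    intro y hy hy2
    obtain ⟨a, ha, rfl⟩ := Finset.mem_image.mp hy
    obtain ⟨b, hb, hab⟩ := Finset.mem_image.mp hy2
    have hab' : S.π b = a := S.π.injective hab
    obtain ⟨hl, htl⟩ := hmem a ha
    obtain ⟨hl2, htl2⟩ := hmem b hb
    have hsc : S.π.SameCycle b a := by
      rw [← hab']
      exact sc_succ S.π b
    have : b = a := unique_tail S hsc htl2 htl
    rw [this] at hab'
    exact hl.1 hab'
  have himg1 : ∑ y ∈ T.image S.π, f y = ∑ t ∈ T, f (S.π t) :=
    Finset.sum_image (fun a _ b _ h => S.π.injective h)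
  have himg2 : ∑ y ∈ T.image (fun t => S.π (S.π t)), f y = ∑ t ∈ T, f (S.π (S.π t)) :=
    Finset.sum_image (fun a _ b _ h => S.π.injective (S.π.injective h))
  have hle : ∑ y ∈ T.image S.π ∪ T.image (fun t => S.π (S.π t)), f y ≤ ∑ y, f y :=
    Finset.sum_le_sum_of_subset (Finset.subset_univ _)
  rw [Finset.sum_union hdisj, himg1, himg2] at hle
  have hret : ret w S = ∑ y, f y := rfl
  rw [hzz, hret]
  omega

theorem level1_pair (hL : L1 w S) : w2 w S.π ≤ 2 * hH w S := by
  classical
  set f : Fin n → ℕ := fun x => if isP S.π x ∧ S.tl x = false then wt w S.π x else 0 with hf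
  set T : Finset (Fin n) := Finset.univ.filter (fun x => isP S.π x ∧ S.tl x = true) with hT
  have hw2 : w2 w S.π = hH w S + ∑ x ∈ T, wt w S.π x := by
    unfold w2 hH
    rw [hT, Finset.sum_filter, ← Finset.sum_add_distrib]
    refine Finset.sum_congr rfl fun x _ => ?_
    by_cases hl : isP S.π x
    · by_cases ht : S.tl x = true
      · simp [hl, ht]
      · have hf : S.tl x = false := by simpa using ht
        simp [hl, hf]
    · simp [hl]
  have hmem : ∀ t ∈ T, isP S.π t ∧ S.tl t = true := fun t ht => (Finset.mem_filter.mp ht).2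
  have h1 : ∀ t ∈ T, wt w S.π t ≤ f (S.π t) := by
    intro t ht
    obtain ⟨hl, htl⟩ := hmem t ht
    have : f (S.π t) = wt w S.π (S.π t) := by
      simp [hf, isP_succ S.π hl, tl_succ S htl hl.1]
    rw [this]
    exact hL.lex t _ htl (sc_succ S.π t)
  have s1 : ∑ t ∈ T, wt w S.π t ≤ ∑ t ∈ T, f (S.π t) := Finset.sum_le_sum h1
  have himg1 : ∑ y ∈ T.image S.π, f y = ∑ t ∈ T, f (S.π t) :=
    Finset.sum_image (fun a _ b _ h => S.π.injective h)
  have hle : ∑ y ∈ T.image S.π, f y ≤ ∑ y, f y :=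
    Finset.sum_le_sum_of_subset (Finset.subset_univ _)
  rw [himg1] at hle
  have hret : hH w S = ∑ y, f y := rfl
  rw [hw2, hret]
  omega

theorem level1_path (hL : L1 w S) {P : List (Fin n)} (hP : P.Nodup) :
    pathW w P ≤ w2 w S.π + zz w S.π := by
  classical
  rw [← sum_wt]
  have h1 := pathW_le_sum w (List.formPerm P) P hP
    (fun i hi => List.formPerm_apply_lt_getElem P hP i hi)
  have h2 : ∑ x ∈ P.toFinset, hat w 1 (List.formPerm P) x ≤ ∑ x, hat w 1 (List.formPerm P) x :=
    Finset.sum_le_sum_of_subset (Finset.subset_univ _)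
  exact h1.trans (h2.trans (hL.opt _))

theorem level1_inner (hL : L1 w S) {P : List (Fin n)} (hP : P.Nodup) :
    arcSum w P (inner S.π) ≤ hH w S := by
  classical
  set f : Fin n → ℕ := fun x => if isP S.π x ∧ S.tl x = false then wt w S.π x else 0 with hf
  set φ : Fin n × Fin n → Fin n := fun e => if S.tl e.1 = true then S.π e.1 else e.1 with hφ
  set A : Finset (Fin n × Fin n) := (arcs P).toFinset.filter (inner S.π) with hA
  have hsum : arcSum w P (inner S.π) = ∑ e ∈ A, w e.1 e.2 := by
    unfold arcSum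
    rw [hA, Finset.sum_filter, List.sum_toFinset _ (arcs_nodup hP)]
  have hle : ∀ e ∈ A, w e.1 e.2 ≤ f (φ e) := by
    rintro ⟨x, y⟩ he
    obtain ⟨-, hin⟩ := Finset.mem_filter.mp he
    have hin2 : isP S.π x ∧ y = S.π x := hin
    obtain ⟨hp, rfl⟩ := hin2
    simp only
    by_cases ht : S.tl x = true
    · have hx : f (φ (x, S.π x)) = wt w S.π (S.π x) := by
        simp [hφ, hf, ht, isP_succ S.π hp, tl_succ S ht hp.1]
      rw [hx, ← wt_of_ne (w := w) S.π hp.1]
      exact hL.lex x _ ht (sc_succ S.π x)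
    · have hn : S.tl x = false := by simpa using ht
      have hx : f (φ (x, S.π x)) = wt w S.π x := by
        simp [hφ, hf, hn, hp]
      rw [hx, wt_of_ne S.π hp.1]
  have hinj : Set.InjOn φ (A : Set (Fin n × Fin n)) := by
    rintro ⟨x, y⟩ he ⟨x', y'⟩ he' heq
    have he1 := Finset.mem_coe.mp he
    have he2 := Finset.mem_coe.mp he'
    obtain ⟨hm, hin⟩ := Finset.mem_filter.mp he1
    obtain ⟨hm', hin'⟩ := Finset.mem_filter.mp he2
    have hin2 : isP S.π x ∧ y = S.π x := hin
    have hin2' : isP S.π x' ∧ y' = S.π x' := hin'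
    obtain ⟨hp, rfl⟩ := hin2
    obtain ⟨hp', rfl⟩ := hin2'
    have hm1 : (x, S.π x) ∈ arcs P := List.mem_toFinset.mp hm
    have hm2 : (x', S.π x') ∈ arcs P := List.mem_toFinset.mp hm'
    simp only [hφ] at heq
    by_cases ht : S.tl x = true <;> by_cases ht' : S.tl x' = true
    · rw [if_pos ht, if_pos ht'] at heq
      rw [S.π.injective heq]
    · rw [if_pos ht, if_neg ht'] at heq
      exfalso
      have e2 : S.π x' = x := by
        rw [← heq]
        exact hp.2
      rw [e2, ← heq] at hm2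
      exact no_two_way hP hm1 hm2
    · rw [if_neg ht, if_pos ht'] at heq
      exfalso
      have e2 : S.π x = x' := by
        rw [heq]
        exact hp'.2
      rw [e2] at hm1
      rw [← heq] at hm2
      exact no_two_way hP hm1 hm2
    · rw [if_neg ht, if_neg ht'] at heq
      rw [heq]
  rw [hsum]
  calc ∑ e ∈ A, w e.1 e.2 ≤ ∑ e ∈ A, f (φ e) := Finset.sum_le_sum hle
    _ = ∑ y ∈ A.image φ, f y := (Finset.sum_image hinj).symm
    _ ≤ ∑ y, f y := Finset.sum_le_sum_of_subset (Finset.subset_univ _)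
    _ = hH w S := rfl

end Vale.Agent.Lib.P333F
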