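import Vale.Agent.Lib.P333F.AbsDefs

namespace Vale.Agent.Lib.P333F

namespace RelAux

variable {n : ℕ} (w : Fin n → Fin n → ℕ) (S : St n) {θ : Equiv.Perm (Fin n)}

/-- Every node reaches the tail of its path by steps of `ρ`. -/
theorem sameCycle_tail (hθ : FixNon S θ) {x t : Fin n} (h : S.π.SameCycle x t) (ht : S.tl t = true) :
    (rho S.π θ).SameCycle x t := by
  classical
  obtain ⟨i, hi⟩ : ∃ i : ℕ, (S.π ^ i) x = t := by
    obtain ⟨i, _, hi⟩ := h.exists_pow_eq'
    exact ⟨i, hi⟩
  have hex : ∃ i : ℕ, S.tl ((S.π ^ i) x) = true := ⟨i, by rw [hi]; exact ht⟩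
  set m := Nat.find hex with hm
  have hmt : S.tl ((S.π ^ m) x) = true := Nat.find_spec hex
  have hlt : ∀ j < m, S.tl ((S.π ^ j) x) = false := by
    intro j hj
    have := Nat.find_min hex hj
    simpa using this
  have hpow : ∀ j ≤ m, ((rho S.π θ) ^ j) x = (S.π ^ j) x := by
    intro j
    induction j with
    | zero => simp
    | succ j ih =>
      intro hj
      have h1 := ih (by omega)
      rw [pow_succ', Equiv.Perm.mul_apply, h1, pow_succ', Equiv.Perm.mul_apply, rho_apply,
        hθ _ (hlt j (by omega))]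
  have h2 : (S.π ^ m) x = t := by
    have hsc : S.π.SameCycle x ((S.π ^ m) x) := ⟨(m : ℤ), by simp⟩
    obtain ⟨u, _, huu⟩ := S.one x
    have e1 := huu t ⟨h, ht⟩
    have e2 := huu _ ⟨hsc, hmt⟩
    rw [e1, e2]
  refine ⟨(m : ℤ), ?_⟩
  rw [zpow_natCast, hpow m le_rfl, h2]

theorem newTl_eq_true {x : Fin n} :
    newTl w S θ x = true ↔ S.tl x = true ∧ ∀ y, (rho S.π θ).SameCycle x y → S.tl y = true →
      lexLe (hat w S.π θ x) x (hat w S.π θ y) y := by
  unfold newTl
  simp

theorem lexLe_antisymm {a b : ℕ} {x y : Fin n} (h1 : lexLe a x b y) (h2 : lexLe b y a x) : x = y := by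
  rcases h1 with h1 | ⟨h1, h1'⟩
  · rcases h2 with h2 | ⟨h2, _⟩ <;> omega
  · rcases h2 with h2 | ⟨_, h2'⟩
    · omega
    · exact le_antisymm h1' h2'

theorem newTl_one (hθ : FixNon S θ) (x : Fin n) :
    ∃! t, (rho S.π θ).SameCycle x t ∧ newTl w S θ t = true := by
  classical
  set ρ := rho S.π θ with hρ
  obtain ⟨t0, ⟨h01, h02⟩, _⟩ := S.one x
  have h03 : ρ.SameCycle x t0 := sameCycle_tail S hθ h01 h02
  set A : Finset (Fin n) := Finset.univ.filter (fun y => ρ.SameCycle x y ∧ S.tl y = true) with hA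
  have hAne : A.Nonempty := ⟨t0, by simp [hA, h03, h02]⟩
  obtain ⟨t, htA, hmin⟩ := Finset.exists_min_image A
    (fun y => toLex (hat w S.π θ y, y)) hAne
  have ht := (Finset.mem_filter.1 htA).2
  have hmin' : ∀ y, ρ.SameCycle x y → S.tl y = true → lexLe (hat w S.π θ t) t (hat w S.π θ y) y := by
    intro y h1 h2
    have := hmin y (by simp [hA, h1, h2])
    rw [Prod.Lex.toLex_le_toLex] at this
    exact this
  refine ⟨t, ⟨ht.1, (newTl_eq_true w S).2 ⟨ht.2, fun y hy hy' => hmin' y (ht.1.trans hy) hy'⟩⟩, ?_⟩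
  rintro t' ⟨h1, h2⟩
  obtain ⟨h3, h4⟩ := (newTl_eq_true w S).1 h2
  exact lexLe_antisymm (h4 t (h1.symm.trans ht.1) ht.2) (hmin' t' h1 h3)


theorem tail_of_moved (hθ : FixNon S θ) {x : Fin n} (h : θ x ≠ x) : S.tl x = true := by
  by_contra hx
  exact h (hθ x (by simpa using hx))

theorem tail_image (hθ : FixNon S θ) {x : Fin n} (h : θ x ≠ x) : S.tl (θ x) = true := by
  by_contra hx
  have h1 := hθ (θ x) (by simpa using hx)
  exact h (θ.injective h1)

/-- A moved tail lies on the new cycle of its image. -/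
theorem sameCycle_image (hθ : FixNon S θ) {x : Fin n} (h : θ x ≠ x) :
    (rho S.π θ).SameCycle x (θ x) := by
  have h1 : (rho S.π θ).SameCycle x (rho S.π θ x) := ⟨1, by simp⟩
  have h2 : S.π.SameCycle (S.π (θ x)) (θ x) := ⟨-1, by simp⟩
  have h3 := sameCycle_tail S hθ h2 (tail_image S hθ h)
  exact h1.trans h3

/-- A tail which is fixed is alone on its new cycle. -/
theorem newTl_of_fixed (hθ : FixNon S θ) {x : Fin n} (ht : S.tl x = true) (h : θ x = x) :
    newTl w S θ x = true := by
  classical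
  have hstep : ∀ k : ℕ, S.π.SameCycle x (((rho S.π θ) ^ k) x) := by
    intro k
    induction k with
    | zero => simpa using Equiv.Perm.SameCycle.refl S.π x
    | succ k ih =>
      rw [pow_succ', Equiv.Perm.mul_apply]
      set z := ((rho S.π θ) ^ k) x with hz
      by_cases hzt : S.tl z = true
      · obtain ⟨u, _, huu⟩ := S.one x
        have e1 := huu x ⟨Equiv.Perm.SameCycle.refl S.π x, ht⟩
        have e2 := huu z ⟨ih, hzt⟩
        have e3 : z = x := by rw [e2, e1]
        rw [e3, rho_apply, h]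
        exact ⟨1, by simp⟩
      · have hzf : S.tl z = false := by simpa using hzt
        rw [rho_apply, hθ z hzf]
        exact ih.trans ⟨1, by simp⟩
  refine (newTl_eq_true w S).2 ⟨ht, fun y hy hyt => ?_⟩
  obtain ⟨k, _, hk⟩ := hy.exists_pow_eq'
  have h1 : S.π.SameCycle x y := by
    rw [← hk]
    exact hstep k
  obtain ⟨u, _, huu⟩ := S.one x
  have e1 := huu x ⟨Equiv.Perm.SameCycle.refl S.π x, ht⟩
  have e2 := huu y ⟨h1, hyt⟩
  have e3 : y = x := by rw [e2, e1]
  rw [e3]
  exact Or.inr ⟨rfl, le_rfl⟩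

theorem real_relink_aux (hθ : FixNon S θ) :
    2 * S.real w + ∑ x, hat w S.π θ x ≤
      2 * ∑ x, if newTl w S θ x = true then 0 else w x (rho S.π θ x) := by
  classical
  set H : Fin n → ℕ := hat w S.π θ with hH
  set D : Finset (Fin n) := Finset.univ.filter (fun x => S.tl x = true ∧ newTl w S θ x ≠ true) with hD
  set N : Finset (Fin n) := Finset.univ.filter (fun x => newTl w S θ x = true ∧ θ x ≠ x) with hN
  have hnt : ∀ x, S.tl x = false → newTl w S θ x ≠ true := by
    intro x hx h
    have := ((newTl_eq_true w S).1 h).1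
    rw [hx] at this
    simp at this
  have hHfix : ∀ x, θ x = x → H x = 0 := fun x h => by simp [hH, hat, h]
  -- the new weight
  have e1 : (∑ x, if newTl w S θ x = true then 0 else w x (rho S.π θ x)) = S.real w + ∑ x ∈ D, H x := by
    unfold St.real
    rw [hD, Finset.sum_filter, ← Finset.sum_add_distrib]
    refine Finset.sum_congr rfl fun x _ => ?_
    by_cases hx : S.tl x = true
    · by_cases hn : newTl w S θ x = true
      · simp [hx, hn]
      · have hne : θ x ≠ x := fun h => hn (newTl_of_fixed w S hθ hx h)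
        simp [hx, hn, hH, hat, hne]
    · have hf : S.tl x = false := by simpa using hx
      have hn := hnt x hf
      simp [hf, hn, rho_apply, hθ x hf]
  -- the total of the new arcs
  have e2 : ∑ x, H x = ∑ x ∈ D, H x + ∑ x ∈ N, H x := by
    rw [hD, hN, Finset.sum_filter, Finset.sum_filter, ← Finset.sum_add_distrib]
    refine Finset.sum_congr rfl fun x _ => ?_
    by_cases hx : S.tl x = true
    · by_cases hn : newTl w S θ x = true
      · by_cases hne : θ x = x
        · simp [hn, hne, hHfix x hne]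
        · simp [hn, hne]
      · have hne : θ x ≠ x := fun h => hn (newTl_of_fixed w S hθ hx h)
        simp [hx, hn, hne]
    · have hf : S.tl x = false := by simpa using hx
      have hfix := hθ x hf
      simp [hHfix x hfix, hfix]
  -- the injection
  have e3 : ∑ x ∈ N, H x ≤ ∑ x ∈ D, H x := by
    have h1 : ∑ x ∈ N, H x ≤ ∑ x ∈ N, H (θ x) := by
      refine Finset.sum_le_sum fun x hx => ?_
      obtain ⟨hn, hne⟩ := (Finset.mem_filter.1 hx).2
      have hl := ((newTl_eq_true w S).1 hn).2 (θ x) (sameCycle_image S hθ hne) (tail_image S hθ hne)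
      rcases hl with hl | ⟨hl, _⟩
      · exact le_of_lt hl
      · exact le_of_eq hl
    have h2 : ∑ x ∈ N, H (θ x) = ∑ y ∈ N.map θ.toEmbedding, H y := by
      rw [Finset.sum_map]
      rfl
    have h3 : N.map θ.toEmbedding ⊆ D := by
      intro y hy
      obtain ⟨x, hx, rfl⟩ := Finset.mem_map.1 hy
      obtain ⟨hn, hne⟩ := (Finset.mem_filter.1 hx).2
      refine Finset.mem_filter.2 ⟨Finset.mem_univ _, tail_image S hθ hne, ?_⟩
      intro hn2
      have a1 := ((newTl_eq_true w S).1 hn).2 (θ x) (sameCycle_image S hθ hne) (tail_image S hθ hne)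
      have a2 := ((newTl_eq_true w S).1 hn2).2 x (sameCycle_image S hθ hne).symm ((newTl_eq_true w S).1 hn).1
      exact hne (lexLe_antisymm a1 a2).symm
    rw [h2] at h1
    exact h1.trans (Finset.sum_le_sum_of_subset h3)
  rw [e1, e2]
  omega

end RelAux

end Vale.Agent.Lib.P333F
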