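import Vale.Agent.Lib.P333F.AbsDefs

namespace Vale.Agent.Lib.P333F

variable {n : ℕ} (w : Fin n → Fin n → ℕ) (S : St n) {θ : Equiv.Perm (Fin n)}

/-- Usable arcs extend to a permutation of the tails. -/
theorem usable_ext_aux {U : List (Fin n × Fin n)} (hU : Usable S U) :
    ∃ θ, FixNon S θ ∧ sumU w U ≤ ∑ x, hat w S.π θ x := by
  classical
  -- the map on sources
  set g : Fin n → Fin n := fun x =>
    if h : ∃ e, e ∈ U ∧ e.1 = x then S.π⁻¹ (Classical.choose h).2 else x with hg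
  have inj1 : ∀ e ∈ U, ∀ e' ∈ U, e.1 = e'.1 → e = e' := fun e he e' he' h =>
    List.inj_on_of_nodup_map hU.nd1 he he' h
  have inj2 : ∀ e ∈ U, ∀ e' ∈ U, e.2 = e'.2 → e = e' := fun e he e' he' h =>
    List.inj_on_of_nodup_map hU.nd2 he he' h
  have hg_eq : ∀ e ∈ U, g e.1 = S.π⁻¹ e.2 := by
    intro e he
    have h : ∃ e', e' ∈ U ∧ e'.1 = e.1 := ⟨e, he, rfl⟩
    simp only [hg, dif_pos h]
    have hs := Classical.choose_spec h
    rw [inj1 _ hs.1 e he hs.2]
  set T : Finset (Fin n) := Finset.univ.filter (fun x => S.tl x = true) with hT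
  have hgT : ∀ e ∈ U, g e.1 ∈ T := by
    intro e he
    obtain ⟨t, ht, hπ, _⟩ := hU.dst e he
    rw [hg_eq e he, ← hπ]
    simpa [hT] using ht
  have hsrcT : ∀ e ∈ U, e.1 ∈ T := fun e he => by simpa [hT] using hU.src e he
  set S₀ : Finset T := Finset.univ.filter (fun x => ∃ e, e ∈ U ∧ e.1 = (x : Fin n)) with hS₀
  have hc : Fintype.card T = T.card := by simp
  have himg : Finset.image (fun x : T => g x) S₀ ⊆ T := by
    intro y hy
    obtain ⟨x, hx, rfl⟩ := Finset.mem_image.1 hy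
    obtain ⟨e, he, hex⟩ := (Finset.mem_filter.1 hx).2
    show g x ∈ T
    rw [← hex]
    exact hgT e he
  have hinj : Set.InjOn (fun x : T => g x) S₀ := by
    intro x hx x' hx' hxx
    obtain ⟨e, he, hex⟩ := (Finset.mem_filter.1 (Finset.mem_coe.1 hx)).2
    obtain ⟨e', he', hex'⟩ := (Finset.mem_filter.1 (Finset.mem_coe.1 hx')).2
    have h1 : g e.1 = g e'.1 := by
      rw [hex, hex']
      exact hxx
    rw [hg_eq e he, hg_eq e' he'] at h1
    have h2 : e.2 = e'.2 := S.π⁻¹.injective h1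
    have h3 := inj2 e he e' he' h2
    apply Subtype.ext
    rw [← hex, ← hex', h3]
  obtain ⟨p, hp⟩ := Finset.exists_equiv_extend_of_card_eq hc himg hinj
  refine ⟨Equiv.Perm.ofSubtype (p := fun x => x ∈ T) p, ?_, ?_⟩
  · intro x hx
    apply Equiv.Perm.ofSubtype_apply_of_not_mem
    simp [hT, hx]
  · -- the value on the sources
    set θ := Equiv.Perm.ofSubtype (p := fun x => x ∈ T) p with hθ
    have hθe : ∀ e ∈ U, θ e.1 = S.π⁻¹ e.2 := by
      intro e he
      have hm := hsrcT e he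
      have h1 : θ e.1 = p ⟨e.1, hm⟩ := Equiv.Perm.ofSubtype_apply_of_mem p hm
      rw [h1, hp ⟨e.1, hm⟩ (Finset.mem_filter.2 ⟨Finset.mem_univ _, e, he, rfl⟩), hg_eq e he]
    have hhat : ∀ e ∈ U, hat w S.π θ e.1 = w e.1 e.2 := by
      intro e he
      obtain ⟨t, _, hπ, hne⟩ := hU.dst e he
      have h1 : θ e.1 = t := by
        rw [hθe e he, ← hπ]
        simp
      unfold hat
      rw [if_neg (by rw [h1]; exact hne), h1, hπ]
    have h1 : sumU w U = ((U.map Prod.fst).map (hat w S.π θ)).sum := by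
      unfold sumU
      rw [List.map_map]
      congr 1
      exact List.map_congr_left (fun e he => (hhat e he).symm)
    rw [h1, ← List.sum_toFinset _ hU.nd1]
    exact Finset.sum_le_sum_of_subset (Finset.subset_univ _)

end Vale.Agent.Lib.P333F
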