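import Vale.Agent.Lib.P333F.AbsDefs
import Vale.Agent.Lib.P333F.RelCoreAux
import Vale.Agent.Lib.P333F.RelCoreUsable

/-!
(part RELCORE) Relinking a path system with a permutation `θ` of its tails: each new cycle keeps
one tail, with the smallest new arc, and at least half of the new weight is retained.
-/

namespace Vale.Agent.Lib.P333F

variable {n : ℕ} (w : Fin n → Fin n → ℕ) (S : St n) {θ : Equiv.Perm (Fin n)}

theorem newTl_one (hθ : FixNon S θ) (x : Fin n) :
    ∃! t, (rho S.π θ).SameCycle x t ∧ newTl w S θ t = true :=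
  RelAux.newTl_one w S hθ x

/-- The relinked path system. -/
noncomputable def St.relink (θ : Equiv.Perm (Fin n)) (hθ : FixNon S θ) : St n :=
  ⟨rho S.π θ, newTl w S θ, newTl_one w S hθ⟩

theorem real_relink (hθ : FixNon S θ) :
    2 * S.real w + ∑ x, hat w S.π θ x ≤ 2 * (S.relink w θ hθ).real w :=
  RelAux.real_relink_aux w S hθ

/-- Usable arcs extend to a permutation of the tails. -/
theorem usable_ext {U : List (Fin n × Fin n)} (hU : Usable S U) :
    ∃ θ, FixNon S θ ∧ sumU w U ≤ ∑ x, hat w S.π θ x :=
  usable_ext_aux w S hU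

end Vale.Agent.Lib.P333F
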