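import Vale.Agent.Lib.P333F.Level1
import Vale.Agent.Lib.P333F.RelCore

/-!
(part LEVEL2) The second level path systems: the certificate.
-/

namespace Vale.Agent.Lib.P333F

variable {n : ℕ} {w : Fin n → Fin n → ℕ} {S : St n}

theorem isP_image {τ : Equiv.Perm (Fin n)} {x : Fin n} (h : isP τ x) : isP τ (τ x) :=
  ⟨by rw [h.2]; exact fun e => h.1 e.symm, by rw [h.2]⟩

theorem isP_of_eq_image {τ : Equiv.Perm (Fin n)} {x y : Fin n} (h : isP τ x) (hy : y = τ x) :
    isP τ y := hy ▸ isP_image h

theorem piA_inv (τ : Equiv.Perm (Fin n)) :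
    Function.Involutive (fun x => if isP τ x then τ x else x) := by
  intro x
  by_cases hx : isP τ x
  · simp only [if_pos hx, if_pos (isP_image hx)]
    exact hx.2
  · simp only [if_neg hx]

/-- The permutation which is `τ` on the cycles of length two and the identity elsewhere. -/
noncomputable def piA (τ : Equiv.Perm (Fin n)) : Equiv.Perm (Fin n) :=
  Function.Involutive.toPerm (fun x => if isP τ x then τ x else x) (piA_inv τ)

theorem piA_apply (τ : Equiv.Perm (Fin n)) (x : Fin n) : piA τ x = if isP τ x then τ x else x := rfl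

/-- In a cycle of length at most two there are at most the two obvious nodes. -/
theorem sameCycle_two {π : Equiv.Perm (Fin n)} {x y : Fin n} (hx : π (π x) = x)
    (h : π.SameCycle x y) : y = x ∨ y = π x := by
  obtain ⟨i, hi⟩ := h.exists_nat_pow_eq
  rw [← hi]
  clear hi
  induction i with
  | zero => left; simp
  | succ k ih =>
    rw [pow_succ', Equiv.Perm.mul_apply]
    rcases ih with e | e
    · right; rw [e]
    · left; rw [e, hx]

theorem isP_of_sameCycle {π : Equiv.Perm (Fin n)} {x y : Fin n} (hx : isP π x)
    (h : π.SameCycle x y) : isP π y := by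
  rcases sameCycle_two hx.2 h with e | e
  · exact e ▸ hx
  · exact isP_of_eq_image hx e

theorem tl_of_fixed (S : St n) {x : Fin n} (hx : S.π x = x) : S.tl x = true := by
  obtain ⟨t, ⟨h1, h2⟩, -⟩ := S.one x
  have hxx : S.π (S.π x) = x := by rw [hx, hx]
  rcases sameCycle_two hxx h1 with e | e
  · exact e ▸ h2
  · rw [hx] at e; exact e ▸ h2

/-- Exactly one node of a cycle of length two is a tail. -/
theorem one_of_two {π : Equiv.Perm (Fin n)} {tl : Fin n → Bool} {x : Fin n}
    (hx : π (π x) = x) (hne : tl (π x) = !tl x) :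
    ∃! t, π.SameCycle x t ∧ tl t = true := by
  cases h : tl x with
  | true =>
    refine ⟨x, ⟨Equiv.Perm.SameCycle.refl _ _, h⟩, fun y hy => ?_⟩
    rcases sameCycle_two hx hy.1 with e | e
    · exact e
    · exfalso
      have := hy.2
      rw [e, hne, h] at this
      exact absurd this (by simp)
  | false =>
    refine ⟨π x, ⟨Equiv.Perm.sameCycle_apply_right.mpr (Equiv.Perm.SameCycle.refl _ _), ?_⟩,
      fun y hy => ?_⟩
    · rw [hne, h]; rfl
    · rcases sameCycle_two hx hy.1 with e | e
      · exfalso
        have := hy.2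
        rw [e, h] at this
        exact absurd this (by simp)
      · exact e

/-- The cycles of length two oriented by `t`, and singletons. -/
noncomputable def stA (τ : Equiv.Perm (Fin n)) (t : Fin n → Bool)
    (ht : ∀ x, isP τ x → t (τ x) = !t x) : St n :=
  ⟨piA τ, fun x => if isP τ x then t x else true, by
    intro x
    by_cases hx : isP τ x
    · have e : piA τ x = τ x := if_pos hx
      refine one_of_two (tl := fun x => if isP τ x then t x else true) (piA_inv τ x) ?_
      show (if isP τ (piA τ x) then t (piA τ x) else true) = !(if isP τ x then t x else true)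
      rw [e, if_pos (isP_image hx), if_pos hx]
      exact ht x hx
    · have e : piA τ x = x := if_neg hx
      refine ⟨x, ⟨Equiv.Perm.SameCycle.refl _ _, by simp [hx]⟩, fun y hy => ?_⟩
      have hxx : piA τ (piA τ x) = x := by rw [e, e]
      rcases sameCycle_two hxx hy.1 with e' | e'
      · exact e'
      · rw [e] at e'; exact e'⟩

/-- The cycles of length two oriented by `t`, and the other cycles of `S`. -/
noncomputable def stC (S : St n) (t : Fin n → Bool)
    (ht : ∀ x, isP S.π x → t (S.π x) = !t x) : St n :=
  ⟨S.π, fun x => if isP S.π x then t x else S.tl x, by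
    intro x
    by_cases hx : isP S.π x
    · refine one_of_two (tl := fun x => if isP S.π x then t x else S.tl x) hx.2 ?_
      show (if isP S.π (S.π x) then t (S.π x) else S.tl (S.π x)) =
        !(if isP S.π x then t x else S.tl x)
      rw [if_pos (isP_image hx), if_pos hx]
      exact ht x hx
    · obtain ⟨t0, ⟨h1, h2⟩, hu⟩ := S.one x
      have hnot : ∀ y, S.π.SameCycle x y → ¬ isP S.π y := fun y hy hp =>
        hx (isP_of_sameCycle hp hy.symm)
      refine ⟨t0, ⟨h1, ?_⟩, fun y hy => ?_⟩
      · simp only [if_neg (hnot t0 h1)]; exact h2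
      · apply hu
        refine ⟨hy.1, ?_⟩
        have := hy.2
        simp only [if_neg (hnot y hy.1)] at this
        exact this⟩

theorem wt_of_ne {τ : Equiv.Perm (Fin n)} {x : Fin n} (hx : τ x ≠ x) : wt w τ x = w x (τ x) := by
  simp [wt, hat, hx]

theorem stA_real (τ : Equiv.Perm (Fin n)) (t : Fin n → Bool) (ht : ∀ x, isP τ x → t (τ x) = !t x) :
    (stA τ t ht).real w = arcK w τ t := by
  unfold St.real arcK
  refine Finset.sum_congr rfl fun x _ => ?_
  by_cases hx : isP τ x
  · have e1 : (stA τ t ht).tl x = t x := if_pos hx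
    have e2 : (stA τ t ht).π x = τ x := if_pos hx
    rw [e1, e2]
    cases h : t x <;> simp [hx]
  · have e1 : (stA τ t ht).tl x = true := if_neg hx
    rw [e1]
    simp [hx]

theorem stC_real (S : St n) (t : Fin n → Bool) (ht : ∀ x, isP S.π x → t (S.π x) = !t x) :
    (stC S t ht).real w = arcK w S.π t + ret w S := by
  unfold St.real arcK ret
  rw [← Finset.sum_add_distrib]
  refine Finset.sum_congr rfl fun x _ => ?_
  have e2 : (stC S t ht).π x = S.π x := rfl
  rw [e2]
  by_cases hx : isP S.π x
  · have e1 : (stC S t ht).tl x = t x := if_pos hx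
    have hl : ¬ isLg S.π x := fun h => h.2 hx.2
    rw [e1]
    cases h : t x <;> simp [hx, hl]
  · have e1 : (stC S t ht).tl x = S.tl x := if_neg hx
    rw [e1]
    by_cases hf : S.π x = x
    · have ht1 := tl_of_fixed S hf
      have hl : ¬ isLg S.π x := fun h => h.1 hf
      simp [hx, hl, ht1]
    · have hl : isLg S.π x := ⟨hf, fun h => hx ⟨hf, h⟩⟩
      cases h : S.tl x
      · simp [hx, hl, wt_of_ne hf]
      · simp [hx, hl]

/-! ### Arcs of a path -/

@[simp] theorem arcs_nil {ι : Type} : arcs ([] : List ι) = [] := rfl
@[simp] theorem arcs_one {ι : Type} (x : ι) : arcs [x] = [] := rfl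
@[simp] theorem arcs_cons_cons {ι : Type} (x y : ι) (l : List ι) :
    arcs (x :: y :: l) = (x, y) :: arcs (y :: l) := rfl

theorem arcs_fst_mem {ι : Type} {P : List ι} {a : ι} (h : a ∈ (arcs P).map Prod.fst) : a ∈ P := by
  induction P with
  | nil => simp at h
  | cons x l ih =>
    cases l with
    | nil => simp at h
    | cons y l =>
      simp only [arcs_cons_cons, List.map_cons, List.mem_cons] at h
      rcases h with e | e
      · simp [e]
      · exact List.mem_cons_of_mem _ (ih (by simpa using e))

theorem arcs_fst_nodup {ι : Type} {P : List ι} (hP : P.Nodup) : ((arcs P).map Prod.fst).Nodup := by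
  induction P with
  | nil => simp
  | cons x l ih =>
    cases l with
    | nil => simp
    | cons y l =>
      rw [arcs_cons_cons, List.map_cons, List.nodup_cons]
      exact ⟨fun h => (List.nodup_cons.mp hP).1 (arcs_fst_mem h), ih (List.nodup_cons.mp hP).2⟩

theorem arcs_snd_nodup {ι : Type} {P : List ι} (hP : P.Nodup) : ((arcs P).map Prod.snd).Nodup := by
  unfold arcs
  rw [List.map_snd_zip (by simp)]
  exact hP.tail

theorem arcs_ne {ι : Type} {P : List ι} (hP : P.Nodup) {e : ι × ι} (he : e ∈ arcs P) :
    e.1 ≠ e.2 := by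
  induction P with
  | nil => simp at he
  | cons x l ih =>
    cases l with
    | nil => simp at he
    | cons y l =>
      rw [arcs_cons_cons, List.mem_cons] at he
      rcases he with rfl | he
      · intro h
        apply (List.nodup_cons.mp hP).1
        rw [show x = y from h]
        exact List.mem_cons_self
      · exact ih (List.nodup_cons.mp hP).2 he

theorem usable_UA (τ : Equiv.Perm (Fin n)) (t : Fin n → Bool) (ht : ∀ x, isP τ x → t (τ x) = !t x)
    {P : List (Fin n)} (hP : P.Nodup) : Usable (stA τ t ht) (UA τ t P) := by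
  refine ⟨?_, ?_, ?_, ?_⟩
  · exact (arcs_fst_nodup hP).sublist (List.filter_sublist.map _)
  · exact (arcs_snd_nodup hP).sublist (List.filter_sublist.map _)
  · intro e he
    have h := (List.mem_filter.mp he).2
    simp only [decide_eq_true_eq] at h
    show (if isP τ e.1 then t e.1 else true) = true
    by_cases hx : isP τ e.1
    · rw [if_pos hx]; exact h.2.1 hx
    · rw [if_neg hx]
  · intro e he
    obtain ⟨he', h⟩ := List.mem_filter.mp he
    simp only [decide_eq_true_eq] at h
    by_cases hy : isP τ e.2
    · refine ⟨τ e.2, ?_, ?_, ?_⟩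
      · show (if isP τ (τ e.2) then t (τ e.2) else true) = true
        rw [if_pos (isP_image hy), ht _ hy, h.2.2 hy]
        rfl
      · show piA τ (τ e.2) = e.2
        rw [piA_apply, if_pos (isP_image hy)]
        exact hy.2
      · intro hxy
        apply h.1
        refine ⟨hxy ▸ isP_image hy, ?_⟩
        rw [← hxy]
        exact hy.2.symm
    · refine ⟨e.2, ?_, ?_, ?_⟩
      · show (if isP τ e.2 then t e.2 else true) = true
        rw [if_neg hy]
      · show piA τ e.2 = e.2
        rw [piA_apply, if_neg hy]
      · exact fun h' => arcs_ne hP he' h'.symm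

theorem usable_UB (S : St n) (t : Fin n → Bool) (ht : ∀ x, isP S.π x → t (S.π x) = !t x)
    {P : List (Fin n)} (hP : P.Nodup) : Usable (stC S t ht) (UB S.π t P) := by
  refine ⟨?_, ?_, ?_, ?_⟩
  · exact (arcs_fst_nodup hP).sublist (List.filter_sublist.map _)
  · exact (arcs_snd_nodup hP).sublist (List.filter_sublist.map _)
  · intro e he
    have h := (List.mem_filter.mp he).2
    simp only [decide_eq_true_eq] at h
    show (if isP S.π e.1 then t e.1 else S.tl e.1) = true
    rw [if_pos h.1.1]
    exact h.2.1
  · intro e he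
    obtain ⟨he', h⟩ := List.mem_filter.mp he
    simp only [decide_eq_true_eq] at h
    have hy := h.1.2.1
    refine ⟨S.π e.2, ?_, hy.2, ?_⟩
    · show (if isP S.π (S.π e.2) then t (S.π e.2) else S.tl (S.π e.2)) = true
      rw [if_pos (isP_image hy), ht _ hy, h.2.2]
      rfl
    · intro hxy
      apply h.1.2.2
      rw [← hxy]
      exact hy.2.symm

/-! ### Sums over lists -/

section sums

variable {α β : Type}

theorem sum_if_bool (F : List α) (c : α → Bool) (a : ℕ) :
    (F.map (fun s => if c s = true then a else 0)).sum = (F.filter c).length * a := by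
  induction F with
  | nil => simp
  | cons s F ih =>
    simp only [List.map_cons, List.sum_cons, ih, List.filter_cons]
    cases c s <;> simp [add_mul, add_comm]

theorem sum_const_list (F : List α) (a : ℕ) : (F.map (fun _ => a)).sum = F.length * a := by
  induction F with
  | nil => simp
  | cons s F ih => simp [ih, add_mul, add_comm]

theorem sum_swap_list (F : List α) (L : List β) (g : α → β → ℕ) :
    (F.map (fun s => (L.map (fun e => g s e)).sum)).sum =
      (L.map (fun e => (F.map (fun s => g s e)).sum)).sum := by
  induction L with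
  | nil => simp
  | cons e L ih =>
    simp only [List.map_cons, List.sum_cons, List.sum_map_add, ih]

theorem sum_swap_fin (F : List α) {m : ℕ} (g : α → Fin m → ℕ) :
    (F.map (fun s => ∑ x, g s x)).sum = ∑ x, (F.map (fun s => g s x)).sum := by
  induction F with
  | nil => simp
  | cons s F ih =>
    simp only [List.map_cons, List.sum_cons, ih, Finset.sum_add_distrib]

theorem sumU_filter (w : Fin n → Fin n → ℕ) (L : List (Fin n × Fin n))
    (c : Fin n × Fin n → Prop) [DecidablePred c] :
    sumU w (L.filter (fun e => decide (c e))) = (L.map (fun e => if c e then w e.1 e.2 else 0)).sum := by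
  induction L with
  | nil => simp [sumU]
  | cons e L ih =>
    unfold sumU at ih ⊢
    by_cases h : c e <;> simp [List.filter_cons, h, ih]

theorem sum_combo (L : List β) (A B1 B2 B3 : β → ℕ) (a b c N : ℕ)
    (h : ∀ e ∈ L, 4 * A e = N * (a * B1 e + b * B2 e + c * B3 e)) :
    4 * (L.map A).sum = N * (a * (L.map B1).sum + b * (L.map B2).sum + c * (L.map B3).sum) := by
  induction L with
  | nil => simp
  | cons e L ih =>
    simp only [List.map_cons, List.sum_cons]
    have h1 := h e List.mem_cons_self
    have h2 := ih (fun x hx => h x (List.mem_cons_of_mem _ hx))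
    rw [mul_add, h1, h2]
    ring

theorem sum_split4 (L : List β) (G A B C D : β → ℕ) (h : ∀ e ∈ L, G e = A e + B e + C e + D e) :
    (L.map G).sum = (L.map A).sum + (L.map B).sum + (L.map C).sum + (L.map D).sum := by
  induction L with
  | nil => simp
  | cons e L ih =>
    simp only [List.map_cons, List.sum_cons]
    have h1 := h e List.mem_cons_self
    have h2 := ih (fun x hx => h x (List.mem_cons_of_mem _ hx))
    omega

theorem pathW_eq_arcs {ι : Type} (w : ι → ι → ℕ) (P : List ι) :
    pathW w P = ((arcs P).map (fun e => w e.1 e.2)).sum := by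
  induction P with
  | nil => simp [pathW]
  | cons x l ih =>
    cases l with
    | nil => simp [pathW]
    | cons y l =>
      simp only [pathW, arcs_cons_cons, List.map_cons, List.sum_cons, ih]

end sums

variable {τ : Equiv.Perm (Fin n)} {F : List (List Bool)} {tp : List Bool → Fin n → Bool}

theorem Seeds.bal_true (hF : Seeds τ F tp) {x : Fin n} (hx : isP τ x) :
    2 * (F.filter (fun s => tp s x)).length = F.length := hF.bal x hx

theorem Seeds.bal_false (hF : Seeds τ F tp) {x : Fin n} (hx : isP τ x) :
    2 * (F.filter (fun s => !tp s x)).length = F.length := by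
  have h := hF.bal (τ x) (isP_image hx)
  have : (fun s => tp s (τ x)) = (fun s => !tp s x) := by
    funext s
    exact hF.flip s x hx
  rwa [this] at h

theorem avg_arcK (hF : Seeds τ F tp) :
    2 * (F.map (fun s => arcK w τ (tp s))).sum = F.length * w2 w τ := by
  unfold arcK w2
  rw [sum_swap_fin, Finset.mul_sum, Finset.mul_sum]
  refine Finset.sum_congr rfl fun x _ => ?_
  by_cases hx : isP τ x
  · have e : (fun s => if isP τ x ∧ tp s x = false then w x (τ x) else 0) =
        (fun s => if (!tp s x) = true then w x (τ x) else 0) := by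
      funext s
      cases h : tp s x <;> simp [hx]
    rw [e, sum_if_bool, if_pos hx, wt_of_ne hx.1, ← mul_assoc, hF.bal_false hx]
  · simp [hx]

theorem avg_UA (hF : Seeds τ F tp) {P : List (Fin n)} (hP : P.Nodup) :
    4 * (F.map (fun s => sumU w (UA τ (tp s) P))).sum =
      F.length * (4 * arcSum w P (noEnd τ) + 2 * arcSum w P (oneEnd τ) + arcSum w P (across τ)) := by
  have e1 : (F.map (fun s => sumU w (UA τ (tp s) P))).sum =
      ((arcs P).map (fun e => (F.map (fun s =>
        if ¬ inner τ e ∧ (isP τ e.1 → tp s e.1 = true) ∧ (isP τ e.2 → tp s e.2 = false)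
        then w e.1 e.2 else 0)).sum)).sum := by
    rw [← sum_swap_list]
    congr 1
    apply List.map_congr_left
    intro s _
    exact sumU_filter w (arcs P) _
  rw [e1]
  unfold arcSum
  have := sum_combo (arcs P)
    (fun e => (F.map (fun s =>
        if ¬ inner τ e ∧ (isP τ e.1 → tp s e.1 = true) ∧ (isP τ e.2 → tp s e.2 = false)
        then w e.1 e.2 else 0)).sum)
    (fun e => if noEnd τ e then w e.1 e.2 else 0)
    (fun e => if oneEnd τ e then w e.1 e.2 else 0)
    (fun e => if across τ e then w e.1 e.2 else 0) 4 2 1 F.length ?_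
  · simpa using this
  · intro e he
    have hne := arcs_ne hP he
    by_cases hx : isP τ e.1 <;> by_cases hy : isP τ e.2
    · by_cases hi : e.2 = τ e.1
      · have h1 : inner τ e := ⟨hx, hi⟩
        have h2 : ¬ noEnd τ e := fun h => h.1 hx
        have h3 : ¬ oneEnd τ e := by
          rintro (h | h)
          · exact h.2 hy
          · exact h.1 hx
        have h4 : ¬ across τ e := fun h => h.2.2 hi
        simp [h1, h2, h3, h4]
      · have h1 : ¬ inner τ e := fun h => hi h.2
        have h2 : ¬ noEnd τ e := fun h => h.1 hx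
        have h3 : ¬ oneEnd τ e := by
          rintro (h | h)
          · exact h.2 hy
          · exact h.1 hx
        have h4 : across τ e := ⟨hx, hy, hi⟩
        have e' : (fun s => if ¬ inner τ e ∧ (isP τ e.1 → tp s e.1 = true) ∧
              (isP τ e.2 → tp s e.2 = false) then w e.1 e.2 else 0) =
            (fun s => if (tp s e.1 && !tp s e.2) = true then w e.1 e.2 else 0) := by
          funext s
          simp [h1, hx, hy]
        simp only [e', sum_if_bool, if_neg h2, if_neg h3, if_pos h4]
        rw [← mul_assoc, hF.ind e.1 e.2 hx hy hne.symm hi]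
        ring
    · have h1 : ¬ inner τ e := fun h => hy (isP_of_eq_image hx h.2)
      have h2 : ¬ noEnd τ e := fun h => h.1 hx
      have h3 : oneEnd τ e := Or.inl ⟨hx, hy⟩
      have h4 : ¬ across τ e := fun h => hy h.2.1
      have e' : (fun s => if ¬ inner τ e ∧ (isP τ e.1 → tp s e.1 = true) ∧
            (isP τ e.2 → tp s e.2 = false) then w e.1 e.2 else 0) =
          (fun s => if tp s e.1 = true then w e.1 e.2 else 0) := by
        funext s
        simp [h1, hx, hy]
      simp only [e', sum_if_bool, if_neg h2, if_pos h3, if_neg h4]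
      have := hF.bal_true hx
      calc 4 * ((F.filter (fun s => tp s e.1)).length * w e.1 e.2)
          = 2 * (2 * (F.filter (fun s => tp s e.1)).length) * w e.1 e.2 := by ring
        _ = F.length * (4 * 0 + 2 * w e.1 e.2 + 1 * 0) := by rw [this]; ring
    · have h1 : ¬ inner τ e := fun h => hx h.1
      have h2 : ¬ noEnd τ e := fun h => h.2 hy
      have h3 : oneEnd τ e := Or.inr ⟨hx, hy⟩
      have h4 : ¬ across τ e := fun h => hx h.1
      have e' : (fun s => if ¬ inner τ e ∧ (isP τ e.1 → tp s e.1 = true) ∧
            (isP τ e.2 → tp s e.2 = false) then w e.1 e.2 else 0) =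
          (fun s => if (!tp s e.2) = true then w e.1 e.2 else 0) := by
        funext s
        simp [h1, hx, hy]
      simp only [e', sum_if_bool, if_neg h2, if_pos h3, if_neg h4]
      have := hF.bal_false hy
      calc 4 * ((F.filter (fun s => !tp s e.2)).length * w e.1 e.2)
          = 2 * (2 * (F.filter (fun s => !tp s e.2)).length) * w e.1 e.2 := by ring
        _ = F.length * (4 * 0 + 2 * w e.1 e.2 + 1 * 0) := by rw [this]; ring
    · have h1 : ¬ inner τ e := fun h => hx h.1
      have h2 : noEnd τ e := ⟨hx, hy⟩
      have h3 : ¬ oneEnd τ e := by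
        rintro (h | h)
        · exact hx h.1
        · exact hy h.2
      have h4 : ¬ across τ e := fun h => hx h.1
      have e' : (fun s => if ¬ inner τ e ∧ (isP τ e.1 → tp s e.1 = true) ∧
            (isP τ e.2 → tp s e.2 = false) then w e.1 e.2 else 0) =
          (fun _ => w e.1 e.2) := by
        funext s
        simp [h1, hx, hy]
      simp only [e', sum_const_list, if_pos h2, if_neg h3, if_neg h4]
      ring

theorem avg_UB (hF : Seeds τ F tp) {P : List (Fin n)} (hP : P.Nodup) :
    4 * (F.map (fun s => sumU w (UB τ (tp s) P))).sum = F.length * arcSum w P (across τ) := by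
  have e1 : (F.map (fun s => sumU w (UB τ (tp s) P))).sum =
      ((arcs P).map (fun e => (F.map (fun s =>
        if across τ e ∧ tp s e.1 = true ∧ tp s e.2 = false
        then w e.1 e.2 else 0)).sum)).sum := by
    rw [← sum_swap_list]
    congr 1
    apply List.map_congr_left
    intro s _
    exact sumU_filter w (arcs P) _
  rw [e1]
  unfold arcSum
  have := sum_combo (arcs P)
    (fun e => (F.map (fun s =>
        if across τ e ∧ tp s e.1 = true ∧ tp s e.2 = false
        then w e.1 e.2 else 0)).sum)
    (fun e => if across τ e then w e.1 e.2 else 0)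
    (fun _ => 0) (fun _ => 0) 1 0 0 F.length ?_
  · simpa using this
  · intro e he
    have hne := arcs_ne hP he
    by_cases h4 : across τ e
    · have e' : (fun s => if across τ e ∧ tp s e.1 = true ∧ tp s e.2 = false
            then w e.1 e.2 else 0) =
          (fun s => if (tp s e.1 && !tp s e.2) = true then w e.1 e.2 else 0) := by
        funext s
        simp [h4]
      simp only [e', sum_if_bool, if_pos h4]
      rw [← mul_assoc, hF.ind e.1 e.2 h4.1 h4.2.1 hne.symm h4.2.2]
      ring
    · simp [h4]

theorem path_split (τ : Equiv.Perm (Fin n)) {P : List (Fin n)} (_hP : P.Nodup) :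
    pathW w P = arcSum w P (inner τ) + arcSum w P (across τ) + arcSum w P (oneEnd τ) +
      arcSum w P (noEnd τ) := by
  rw [pathW_eq_arcs]
  unfold arcSum
  apply sum_split4
  intro e _
  by_cases hx : isP τ e.1 <;> by_cases hy : isP τ e.2
  · by_cases hi : e.2 = τ e.1
    · have h1 : inner τ e := ⟨hx, hi⟩
      have h2 : ¬ noEnd τ e := fun h => h.1 hx
      have h3 : ¬ oneEnd τ e := by
        rintro (h | h)
        · exact h.2 hy
        · exact h.1 hx
      have h4 : ¬ across τ e := fun h => h.2.2 hi
      simp [h1, h2, h3, h4]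
    · have h1 : ¬ inner τ e := fun h => hi h.2
      have h2 : ¬ noEnd τ e := fun h => h.1 hx
      have h3 : ¬ oneEnd τ e := by
        rintro (h | h)
        · exact h.2 hy
        · exact h.1 hx
      have h4 : across τ e := ⟨hx, hy, hi⟩
      simp [h1, h2, h3, h4]
  · have h1 : ¬ inner τ e := fun h => hy (isP_of_eq_image hx h.2)
    have h2 : ¬ noEnd τ e := fun h => h.1 hx
    have h3 : oneEnd τ e := Or.inl ⟨hx, hy⟩
    have h4 : ¬ across τ e := fun h => hy h.2.1
    simp [h1, h2, h3, h4]
  · have h1 : ¬ inner τ e := fun h => hx h.1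
    have h2 : ¬ noEnd τ e := fun h => h.2 hy
    have h3 : oneEnd τ e := Or.inr ⟨hx, hy⟩
    have h4 : ¬ across τ e := fun h => hx h.1
    simp [h1, h2, h3, h4]
  · have h1 : ¬ inner τ e := fun h => hx h.1
    have h2 : noEnd τ e := ⟨hx, hy⟩
    have h3 : ¬ oneEnd τ e := by
      rintro (h | h)
      · exact hx h.1
      · exact hy h.2
    have h4 : ¬ across τ e := fun h => hx h.1
    simp [h1, h2, h3, h4]

theorem sum_le_1 (F : List (List Bool)) (a b x : List Bool → ℕ)
    (h : ∀ s ∈ F, 2 * a s + b s ≤ 2 * x s) :
    2 * (F.map a).sum + (F.map b).sum ≤ 2 * (F.map x).sum := by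
  induction F with
  | nil => simp
  | cons s F ih =>
    simp only [List.map_cons, List.sum_cons]
    have h1 := h s List.mem_cons_self
    have h2 := ih (fun y hy => h y (List.mem_cons_of_mem _ hy))
    omega

theorem sum_le_2 (F : List (List Bool)) (a b x : List Bool → ℕ) (r : ℕ)
    (h : ∀ s ∈ F, 2 * a s + 2 * r + b s ≤ 2 * x s) :
    2 * (F.map a).sum + 2 * (F.length * r) + (F.map b).sum ≤ 2 * (F.map x).sum := by
  induction F with
  | nil => simp
  | cons s F ih =>
    simp only [List.map_cons, List.sum_cons, List.length_cons, add_mul, one_mul]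
    have h1 := h s List.mem_cons_self
    have h2 := ih (fun y hy => h y (List.mem_cons_of_mem _ hy))
    omega

theorem sum_le_3 (F : List (List Bool)) (x : List Bool → ℕ) (best : ℕ)
    (h : ∀ s ∈ F, x s ≤ best) : (F.map x).sum ≤ F.length * best := by
  induction F with
  | nil => simp
  | cons s F ih =>
    simp only [List.map_cons, List.sum_cons, List.length_cons, add_mul, one_mul]
    have h1 := h s List.mem_cons_self
    have h2 := ih (fun y hy => h y (List.mem_cons_of_mem _ hy))
    omega

/-- The certificate. -/
theorem core_cert (hL : L1 w S) (hF : Seeds S.π F tp) {P : List (Fin n)} (hP : P.Nodup)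
    {X Y : List Bool → ℕ} {best : ℕ} (hC : S.real w ≤ best)
    (hX1 : ∀ s ∈ F, X s ≤ best) (hY1 : ∀ s ∈ F, Y s ≤ best)
    (hX : ∀ s ∈ F, 2 * arcK w S.π (tp s) + sumU w (UA S.π (tp s) P) ≤ 2 * X s)
    (hY : ∀ s ∈ F, 2 * arcK w S.π (tp s) + 2 * ret w S + sumU w (UB S.π (tp s) P) ≤ 2 * Y s) :
    7 * pathW w P ≤ 13 * best := by
  have hN : 0 < F.length := List.length_pos_iff.mpr hF.ne
  have a1 := sum_le_1 F _ _ _ hX
  have a2 := sum_le_2 F _ _ _ _ hY
  have a3 := sum_le_3 F _ _ hX1
  have a4 := sum_le_3 F _ _ hY1
  have b1 := avg_arcK (w := w) hF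
  have b2 := avg_UA (w := w) hF hP
  have b3 := avg_UB (w := w) hF hP
  have c1 := level1_real hL
  have c2 := level1_ret hL
  have c3 := level1_pair hL
  have c4 := level1_path hL hP
  have c5 := level1_inner hL hP
  have d := path_split (w := w) S.π hP
  set N := F.length
  set l := arcSum w P (noEnd S.π)
  set c := arcSum w P (oneEnd S.π)
  set T := arcSum w P (across S.π)
  set t := arcSum w P (inner S.π)
  have e1 : N * (4 * w2 w S.π + 4 * l + 2 * c + T) ≤ N * (8 * best) := by nlinarith
  have e2 : N * (4 * w2 w S.π + 8 * ret w S + T) ≤ N * (8 * best) := by nlinarith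
  have f1 := Nat.le_of_mul_le_mul_left e1 hN
  have f2 := Nat.le_of_mul_le_mul_left e2 hN
  omega

end Vale.Agent.Lib.P333F
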