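import Vale.Agent.Lib.P333F.Level1

/-!
(part LEVEL2, second half) Averages over the seeds and the certificate.
-/

namespace Vale.Agent.Lib.P333F

variable {n : ℕ} {w : Fin n → Fin n → ℕ} {S : St n}

namespace Level2Avg

open Level1Aux

/-- Exchange of a list sum and a finite sum. -/
theorem sum_swap {ι : Type} [Fintype ι] (F : List (List Bool)) (g : List Bool → ι → ℕ) :
    (F.map (fun s => ∑ x, g s x)).sum = ∑ x, (F.map (fun s => g s x)).sum := by
  induction F with
  | nil => simp
  | cons a l ih =>
    simp only [List.map_cons, List.sum_cons, ih, Finset.sum_add_distrib]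

/-- A sum of a constant on a filter. -/
theorem sum_ite_const (F : List (List Bool)) (p : List Bool → Bool) (c : ℕ) :
    (F.map (fun s => if p s = true then c else 0)).sum = (F.filter p).length * c := by
  induction F with
  | nil => simp
  | cons a l ih =>
    by_cases h : p a = true
    · simp only [List.map_cons, List.sum_cons, ih, List.filter_cons, h, if_true, List.length_cons]
      ring
    · simp [List.filter_cons, h, ih]

/-- The number of seeds where a bit is false. -/
theorem count_false (F : List (List Bool)) (p : List Bool → Bool) :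
    (F.filter (fun s => !p s)).length + (F.filter p).length = F.length := by
  induction F with
  | nil => simp
  | cons a l ih =>
    cases h : p a <;> simp [List.filter_cons, h] <;> omega

/-- Exchange for filters of a list of arcs. -/
theorem sum_filter_swap {β : Type} (F : List (List Bool)) (A : List β) (c : List Bool → β → Bool)
    (g : β → ℕ) :
    (F.map (fun s => ((A.filter (c s)).map g).sum)).sum =
      (A.map (fun e => (F.filter (fun s => c s e)).length * g e)).sum := by
  induction A with
  | nil => simp
  | cons a l ih =>
    have h1 : ∀ s, ((List.filter (c s) (a :: l)).map g).sum =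
        (if c s a = true then g a else 0) + ((l.filter (c s)).map g).sum := by
      intro s
      by_cases h : c s a = true
      · simp [List.filter_cons, h]
      · simp [List.filter_cons, h]
    simp only [h1, List.map_cons, List.sum_cons]
    rw [← ih, ← sum_ite_const F (fun s => c s a) (g a)]
    rw [List.sum_map_add]

/-- The sum over arcs is a weighted sum, given the count for each arc. -/
theorem sum_arcs_coef {β : Type} (A : List β) (cnt coef g : β → ℕ) (N K : ℕ)
    (h : ∀ e ∈ A, K * cnt e = N * coef e) :
    K * (A.map (fun e => cnt e * g e)).sum = N * (A.map (fun e => coef e * g e)).sum := by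
  induction A with
  | nil => simp
  | cons a l ih =>
    simp only [List.map_cons, List.sum_cons, mul_add]
    rw [ih (fun e he => h e (List.mem_cons_of_mem _ he))]
    have := h a List.mem_cons_self
    calc K * (cnt a * g a) + N * (l.map (fun e => coef e * g e)).sum
        = (K * cnt a) * g a + N * (l.map (fun e => coef e * g e)).sum := by ring
      _ = (N * coef a) * g a + N * (l.map (fun e => coef e * g e)).sum := by rw [this]
      _ = _ := by ring

theorem arcSum_eq (w : Fin n → Fin n → ℕ) (P : List (Fin n)) (f : Fin n × Fin n → Prop)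
    [DecidablePred f] :
    arcSum w P f = ((arcs P).map (fun e => (if f e then 1 else 0) * w e.1 e.2)).sum := by
  unfold arcSum
  congr 1
  apply List.map_congr_left
  intro e _
  by_cases h : f e <;> simp [h]

theorem pathW_eq (w : Fin n → Fin n → ℕ) (P : List (Fin n)) :
    pathW w P = ((arcs P).map (fun e => w e.1 e.2)).sum := by
  induction P with
  | nil => rfl
  | cons x l ih =>
    cases l with
    | nil => rfl
    | cons y l =>
      have : arcs (x :: y :: l) = (x, y) :: arcs (y :: l) := rfl
      rw [this, List.map_cons, List.sum_cons, ← ih]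
      rfl

theorem arc_ne {P : List (Fin n)} (hP : P.Nodup) {x y : Fin n} (he : (x, y) ∈ arcs P) : x ≠ y := by
  obtain ⟨i, hi, h1, h2⟩ := mem_arcs he
  intro e
  rw [← h1, ← h2] at e
  have := (List.Nodup.getElem_inj_iff hP).mp e
  omega

theorem isP_congr {τ : Equiv.Perm (Fin n)} {x : Fin n} (h : isP τ x) : isP τ (τ x) := isP_succ τ h

/-- The sum of a linear combination of the weights of the classes. -/
theorem sum_coef3 (A : List (Fin n × Fin n)) (g : Fin n × Fin n → ℕ) (f1 f2 f3 : Fin n × Fin n → ℕ)
    (a b c : ℕ) :
    (A.map (fun e => (a * f1 e + b * f2 e + c * f3 e) * g e)).sum =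
      a * (A.map (fun e => f1 e * g e)).sum + b * (A.map (fun e => f2 e * g e)).sum +
        c * (A.map (fun e => f3 e * g e)).sum := by
  induction A with
  | nil => simp
  | cons e l ih =>
    simp only [List.map_cons, List.sum_cons, ih]
    ring

end Level2Avg

open Level2Avg Level1Aux

variable {τ : Equiv.Perm (Fin n)} {F : List (List Bool)} {tp : List Bool → Fin n → Bool}

theorem avg_arcK (hF : Seeds τ F tp) :
    2 * (F.map (fun s => arcK w τ (tp s))).sum = F.length * w2 w τ := by
  unfold arcK w2
  rw [sum_swap, Finset.mul_sum, Finset.mul_sum]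
  refine Finset.sum_congr rfl (fun x _ => ?_)
  by_cases hx : isP τ x
  · have h1 : (F.map (fun s => if isP τ x ∧ tp s x = false then w x (τ x) else 0)).sum =
        (F.filter (fun s => !tp s x)).length * w x (τ x) := by
      rw [← sum_ite_const]
      congr 1
      apply List.map_congr_left
      intro s _
      cases h : tp s x <;> simp [h, hx]
    rw [h1, if_pos hx, wt_of_ne τ hx.1]
    have h2 := hF.bal x hx
    have h3 := count_false F (fun s => tp s x)
    have h4 : 2 * (F.filter (fun s => !tp s x)).length = F.length := by omega
    rw [← mul_assoc, h4]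
  · have h1 : (F.map (fun s => if isP τ x ∧ tp s x = false then w x (τ x) else 0)).sum = 0 := by
      rw [List.sum_eq_zero]
      intro y hy
      rw [List.mem_map] at hy
      obtain ⟨s, -, rfl⟩ := hy
      simp [hx]
    rw [h1, if_neg hx]
    simp

theorem avg_UA (hF : Seeds τ F tp) {P : List (Fin n)} (hP : P.Nodup) :
    4 * (F.map (fun s => sumU w (UA τ (tp s) P))).sum =
      F.length * (4 * arcSum w P (noEnd τ) + 2 * arcSum w P (oneEnd τ) + arcSum w P (across τ)) := by
  unfold sumU UA
  rw [sum_filter_swap F (arcs P) (fun s e => decide (¬ inner τ e ∧ (isP τ e.1 → tp s e.1 = true) ∧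
    (isP τ e.2 → tp s e.2 = false))) (fun e => w e.1 e.2)]
  rw [arcSum_eq, arcSum_eq, arcSum_eq]
  have := sum_coef3 (arcs P) (fun e => w e.1 e.2) (fun e => if noEnd τ e then 1 else 0)
    (fun e => if oneEnd τ e then 1 else 0) (fun e => if across τ e then 1 else 0) 4 2 1
  rw [one_mul] at this
  rw [← this]
  apply sum_arcs_coef
  rintro ⟨x, y⟩ he
  have hxy : x ≠ y := arc_ne hP he
  simp only
  by_cases hpx : isP τ x
  · by_cases hpy : isP τ y
    · by_cases hin : y = τ x
      · subst hin
        have h0 : F.filter (fun s => decide (¬ inner τ (x, τ x) ∧ (isP τ x → tp s x = true) ∧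
            (isP τ (τ x) → tp s (τ x) = false))) = [] := by
          rw [List.filter_eq_nil_iff]
          intro s _
          simp [inner, hpx]
        rw [h0]
        simp [noEnd, oneEnd, across, hpx, hpy]
      · have hf : F.filter (fun s => decide (¬ inner τ (x, y) ∧ (isP τ x → tp s x = true) ∧
            (isP τ y → tp s y = false))) = F.filter (fun s => tp s x && !tp s y) := by
          apply List.filter_congr
          intro s _
          simp [inner, hpx, hpy, hin]
        rw [hf, hF.ind x y hpx hpy hxy.symm hin]
        simp [noEnd, oneEnd, across, hpx, hpy, hin]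
    · have hin : y ≠ τ x := by
        rintro rfl
        exact hpy (isP_succ τ hpx)
      have hf : F.filter (fun s => decide (¬ inner τ (x, y) ∧ (isP τ x → tp s x = true) ∧
          (isP τ y → tp s y = false))) = F.filter (fun s => tp s x) := by
        apply List.filter_congr
        intro s _
        simp [inner, hpx, hpy, hin]
      rw [hf]
      have h2 := hF.bal x hpx
      simp only [noEnd, oneEnd, across, hpx, hpy]
      simp
      omega
  · by_cases hpy : isP τ y
    · have hf : F.filter (fun s => decide (¬ inner τ (x, y) ∧ (isP τ x → tp s x = true) ∧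
          (isP τ y → tp s y = false))) = F.filter (fun s => !tp s y) := by
        apply List.filter_congr
        intro s _
        simp [inner, hpx, hpy]
      rw [hf]
      have h2 := hF.bal y hpy
      have h3 := count_false F (fun s => tp s y)
      simp only [noEnd, oneEnd, across, hpx, hpy]
      simp
      omega
    · have hf : F.filter (fun s => decide (¬ inner τ (x, y) ∧ (isP τ x → tp s x = true) ∧
          (isP τ y → tp s y = false))) = F := by
        apply List.filter_eq_self.mpr
        intro s _
        simp [inner, hpx, hpy]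
      rw [hf]
      simp only [noEnd, oneEnd, across, hpx, hpy]
      simp
      omega

theorem avg_UB (hF : Seeds τ F tp) {P : List (Fin n)} (hP : P.Nodup) :
    4 * (F.map (fun s => sumU w (UB τ (tp s) P))).sum = F.length * arcSum w P (across τ) := by
  unfold sumU UB
  rw [sum_filter_swap F (arcs P) (fun s e => decide (across τ e ∧ tp s e.1 = true ∧ tp s e.2 = false))
    (fun e => w e.1 e.2)]
  rw [arcSum_eq]
  apply sum_arcs_coef
  rintro ⟨x, y⟩ he
  have hxy : x ≠ y := arc_ne hP he
  simp only
  by_cases hac : across τ (x, y)
  · have hf : F.filter (fun s => decide (across τ (x, y) ∧ tp s x = true ∧ tp s y = false)) =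
        F.filter (fun s => tp s x && !tp s y) := by
      apply List.filter_congr
      intro s _
      simp [hac]
    rw [hf, hF.ind x y hac.1 hac.2.1 hxy.symm hac.2.2, if_pos hac]
    simp
  · have h0 : F.filter (fun s => decide (across τ (x, y) ∧ tp s x = true ∧ tp s y = false)) = [] := by
      rw [List.filter_eq_nil_iff]
      intro s _
      simp [hac]
    rw [h0, if_neg hac]
    simp

theorem path_split (τ : Equiv.Perm (Fin n)) {P : List (Fin n)} (_hP : P.Nodup) :
    pathW w P = arcSum w P (inner τ) + arcSum w P (across τ) + arcSum w P (oneEnd τ) +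
      arcSum w P (noEnd τ) := by
  rw [pathW_eq, arcSum_eq, arcSum_eq, arcSum_eq, arcSum_eq]
  induction arcs P with
  | nil => simp
  | cons e l ih =>
    simp only [List.map_cons, List.sum_cons, ih]
    obtain ⟨x, y⟩ := e
    by_cases hpx : isP τ x
    · by_cases hin : y = τ x
      · subst hin
        have hpy := isP_succ τ hpx
        simp [inner, across, oneEnd, noEnd, hpx, hpy]
        ring
      · by_cases hpy : isP τ y
        · simp [inner, across, oneEnd, noEnd, hpx, hpy, hin]
          ring
        · simp [inner, across, oneEnd, noEnd, hpx, hpy, hin]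
          ring
    · by_cases hpy : isP τ y
      · simp [inner, across, oneEnd, noEnd, hpx, hpy]
        ring
      · simp [inner, across, oneEnd, noEnd, hpx, hpy]
        ring

/-- The certificate. -/
theorem core_cert (hL : L1 w S) (hF : Seeds S.π F tp) {P : List (Fin n)} (hP : P.Nodup)
    {X Y : List Bool → ℕ} {best : ℕ} (hC : S.real w ≤ best)
    (hX1 : ∀ s ∈ F, X s ≤ best) (hY1 : ∀ s ∈ F, Y s ≤ best)
    (hX : ∀ s ∈ F, 2 * arcK w S.π (tp s) + sumU w (UA S.π (tp s) P) ≤ 2 * X s)
    (hY : ∀ s ∈ F, 2 * arcK w S.π (tp s) + 2 * ret w S + sumU w (UB S.π (tp s) P) ≤ 2 * Y s) :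
    7 * pathW w P ≤ 13 * best := by
  set N := F.length with hN
  have hNpos : 0 < N := List.length_pos_iff.mpr hF.ne
  have hsumLe : ∀ f : List Bool → ℕ, (∀ s ∈ F, f s ≤ 2 * best) → (F.map f).sum ≤ N * (2 * best) := by
    intro f hf
    have := List.sum_le_card_nsmul (F.map f) (2 * best) (by
      intro y hy
      rw [List.mem_map] at hy
      obtain ⟨s, hs, rfl⟩ := hy
      exact hf s hs)
    simpa [hN] using this
  have hXs := hsumLe (fun s => 2 * arcK w S.π (tp s) + sumU w (UA S.π (tp s) P))
    (fun s hs => (hX s hs).trans (Nat.mul_le_mul_left _ (hX1 s hs)))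
  have hYs := hsumLe (fun s => 2 * arcK w S.π (tp s) + 2 * ret w S + sumU w (UB S.π (tp s) P))
    (fun s hs => (hY s hs).trans (Nat.mul_le_mul_left _ (hY1 s hs)))
  have hK := avg_arcK (w := w) hF
  have hUA := avg_UA (w := w) hF hP
  have hUB := avg_UB (w := w) hF hP
  set K := (F.map (fun s => arcK w S.π (tp s))).sum with hKdef
  set SA := (F.map (fun s => sumU w (UA S.π (tp s) P))).sum with hSA
  set SB := (F.map (fun s => sumU w (UB S.π (tp s) P))).sum with hSB
  have e1 : (F.map (fun s => 2 * arcK w S.π (tp s) + sumU w (UA S.π (tp s) P))).sum = 2 * K + SA := by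
    rw [List.sum_map_add, List.sum_map_mul_left]
  have e2 : (F.map (fun s => 2 * arcK w S.π (tp s) + 2 * ret w S + sumU w (UB S.π (tp s) P))).sum =
      2 * K + N * (2 * ret w S) + SB := by
    rw [List.sum_map_add, List.sum_map_add, List.sum_map_mul_left]
    simp only [List.map_const', List.sum_replicate, smul_eq_mul]
    rfl
  rw [e1] at hXs
  rw [e2] at hYs
  -- name the quantities
  have h1 := level1_real hL
  have h2 := level1_ret hL
  have h3 := level1_pair hL
  have h4 := level1_path hL hP
  have h5 := level1_inner hL hP
  have h6 := path_split (w := w) S.π hP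
  set W2 := w2 w S.π
  set Z := zz w S.π
  set H := hH w S
  set R := ret w S
  set i := arcSum w P (inner S.π)
  set t := arcSum w P (across S.π)
  set c := arcSum w P (oneEnd S.π)
  set l := arcSum w P (noEnd S.π)
  set W := pathW w P
  -- divide by `N`
  have ha : 4 * W2 + (4 * l + 2 * c + t) ≤ 8 * best := by
    apply Nat.le_of_mul_le_mul_left _ hNpos
    calc N * (4 * W2 + (4 * l + 2 * c + t)) = 4 * (N * W2) + N * (4 * l + 2 * c + t) := by ring
      _ = 4 * (2 * K + SA) := by rw [← hK, ← hUA]; ring
      _ ≤ 4 * (N * (2 * best)) := Nat.mul_le_mul_left _ hXs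
      _ = N * (8 * best) := by ring
  have hb : 4 * W2 + 8 * R + t ≤ 8 * best := by
    apply Nat.le_of_mul_le_mul_left _ hNpos
    calc N * (4 * W2 + 8 * R + t) = 4 * (N * W2) + 4 * (N * (2 * R)) + N * t := by ring
      _ = 4 * (2 * K + N * (2 * R) + SB) := by rw [← hK, ← hUB]; ring
      _ ≤ 4 * (N * (2 * best)) := Nat.mul_le_mul_left _ hYs
      _ = N * (8 * best) := by ring
  omega

end Vale.Agent.Lib.P333F
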