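import Vale.Agent.Lib.P333F.PTBase

/-!
(part PTASSIGN) `maxAssign` is computed in polynomial time.
-/

namespace Vale.Agent.Lib.P333F

open Vale.Agent.Lib.P310.M

variable {α β γ : Type} [Enc α] [Enc β] [Enc γ]

/-! ### Polynomial bounds in a parameter and a number of rounds -/

/-- `f a t` is bounded by a polynomial in the size of `a` and in `t`. -/
def PB (f : α → ℕ → ℕ) : Prop := ∃ c d, ∀ a t, f a t ≤ c * (sz (enc a) + t + 1) ^ d

omit [Enc β] in
lemma PB.const (k : ℕ) : PB (fun (_ : α) (_ : ℕ) => k) :=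
  ⟨k, 0, fun _ _ => by simp⟩

lemma PB.round : PB (fun (_ : α) (t : ℕ) => t) :=
  ⟨1, 1, fun a t => by simp only [pow_one, one_mul]; omega⟩

lemma PB.of_sz {f : α → β} (h : PT f) : PB (fun a (_ : ℕ) => sz (enc (f a))) := by
  obtain ⟨c, d, h⟩ := PT.szBound h
  refine ⟨c, d, fun a t => (h a).trans (Nat.mul_le_mul_left _ (Nat.pow_le_pow_left (by omega) d))⟩

lemma PB.mono {f g : α → ℕ → ℕ} (hg : PB g) (h : ∀ a t, f a t ≤ g a t) : PB f := by
  obtain ⟨c, d, hg⟩ := hg
  exact ⟨c, d, fun a t => (h a t).trans (hg a t)⟩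

lemma PB.add {f g : α → ℕ → ℕ} (hf : PB f) (hg : PB g) : PB (fun a t => f a t + g a t) := by
  obtain ⟨c1, d1, h1⟩ := hf
  obtain ⟨c2, d2, h2⟩ := hg
  refine ⟨c1 + c2, d1 + d2, fun a t => ?_⟩
  set N := sz (enc a) + t + 1
  have hN : 1 ≤ N := by omega
  have h3 : N ^ d1 ≤ N ^ (d1 + d2) := Nat.pow_le_pow_right hN (by omega)
  have h4 : N ^ d2 ≤ N ^ (d1 + d2) := Nat.pow_le_pow_right hN (by omega)
  calc f a t + g a t ≤ c1 * N ^ d1 + c2 * N ^ d2 := Nat.add_le_add (h1 a t) (h2 a t)
    _ ≤ c1 * N ^ (d1 + d2) + c2 * N ^ (d1 + d2) :=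
        Nat.add_le_add (Nat.mul_le_mul_left _ h3) (Nat.mul_le_mul_left _ h4)
    _ = (c1 + c2) * N ^ (d1 + d2) := by ring

lemma PB.mul {f g : α → ℕ → ℕ} (hf : PB f) (hg : PB g) : PB (fun a t => f a t * g a t) := by
  obtain ⟨c1, d1, h1⟩ := hf
  obtain ⟨c2, d2, h2⟩ := hg
  refine ⟨c1 * c2, d1 + d2, fun a t => ?_⟩
  set N := sz (enc a) + t + 1
  calc f a t * g a t ≤ (c1 * N ^ d1) * (c2 * N ^ d2) := Nat.mul_le_mul (h1 a t) (h2 a t)
    _ = (c1 * c2) * N ^ (d1 + d2) := by rw [pow_add]; ring

/-! ### Wrappers -/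

@[fun_prop] theorem bigM_pt {W : α → List (List ℕ)} (hW : PT W) : PT (fun a => bigM (W a)) := by
  unfold bigM; fun_prop

@[fun_prop] theorem arcC_pt {W : α → List (List ℕ)} {p : α → List ℕ} {i j : α → ℕ} (hW : PT W)
    (hp : PT p) (hi : PT i) (hj : PT j) : PT (fun a => arcC (W a) (p a) (i a) (j a)) := by
  unfold arcC; fun_prop

@[fun_prop] theorem dpInit_pt {W : α → List (List ℕ)} {p : α → List ℕ} {i : α → ℕ} (hW : PT W)
    (hp : PT p) (hi : PT i) : PT (fun a => dpInit (W a) (p a) (i a)) := by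
  unfold dpInit; fun_prop

@[fun_prop] theorem dpExt_pt {W : α → List (List ℕ)} {p : α → List ℕ} {r : α → List (ℕ × List ℕ)}
    {j l : α → ℕ} (hW : PT W) (hp : PT p) (hr : PT r) (hj : PT j) (hl : PT l) :
    PT (fun a => dpExt (W a) (p a) (r a) (j a) (l a)) := by
  unfold dpExt; fun_prop

@[fun_prop] theorem dpStep_pt {W : α → List (List ℕ)} {p : α → List ℕ} {r : α → List (ℕ × List ℕ)}
    (hW : PT W) (hp : PT p) (hr : PT r) : PT (fun a => dpStep (W a) (p a) (r a)) := by
  unfold dpStep
  refine PT.map' (by fun_prop) ?_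
  exact bestBy_pt (key := fun _ (e : ℕ × List ℕ) => e.1) (d := fun _ => (0, []))
    (by fun_prop) (by fun_prop) (by fun_prop)

/-! ### The size of the rows -/

/-- Bounds on a row of the table. -/
def RowBd (n V L : ℕ) (row : List (ℕ × List ℕ)) : Prop :=
  row.length ≤ n ∧ ∀ e ∈ row, e.1 ≤ V ∧ e.2.length ≤ L ∧ ∀ v ∈ e.2, v ≤ n

omit [Enc β] in
lemma bestBy_mem_or {β : Type} (key : β → ℕ) (d : β) (l : List β) : bestBy key d l ∈ l ∨ bestBy key d l = d := by
  unfold bestBy
  set m := l.filter (fun x => l.all (fun y => decide (key y ≤ key x)))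
  rw [List.getD_eq_getElem?_getD]
  cases h : m[0]? with
  | none => right; rfl
  | some v =>
    left
    have : v ∈ m := List.mem_of_getElem? h
    exact (List.mem_filter.mp this).1

lemma mat_le_bigM' (W : List (List ℕ)) (i j : ℕ) : mat W i j ≤ bigM W := by
  unfold mat bigM
  rw [List.getD_eq_getElem?_getD, List.getD_eq_getElem?_getD]
  cases h : W[i]? with
  | none => simp
  | some r =>
    have hr : r ∈ W := List.mem_of_getElem? h
    have h1 : r.sum ≤ (W.map List.sum).sum :=
      List.single_le_sum (by simp) _ (List.mem_map.mpr ⟨r, hr, rfl⟩)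
    simp only [Option.getD_some]
    cases h2 : r[j]? with
    | none => simp
    | some v =>
      have hv : v ∈ r := List.mem_of_getElem? h2
      have h3 : v ≤ r.sum := List.single_le_sum (by simp) _ hv
      simp only [Option.getD_some]
      omega

lemma arcC_le (W : List (List ℕ)) (p : List ℕ) (i j : ℕ) : arcC W p i j ≤ 2 * bigM W := by
  unfold arcC
  have := mat_le_bigM' W i (app p j)
  omega

lemma rowBd_init (W : List (List ℕ)) (p : List ℕ) (i : ℕ) :
    RowBd W.length (2 * bigM W) 1 (dpInit W p i) := by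
  refine ⟨by simp [dpInit], ?_⟩
  intro e he
  simp only [dpInit, List.mem_map, List.mem_range] at he
  obtain ⟨j, hj, rfl⟩ := he
  refine ⟨arcC_le _ _ _ _, by simp, ?_⟩
  intro v hv
  simp only [List.mem_singleton] at hv
  omega

lemma rowBd_step (W : List (List ℕ)) (p : List ℕ) {V L : ℕ} {row : List (ℕ × List ℕ)}
    (h : RowBd W.length V L row) :
    RowBd W.length (V + 2 * bigM W) (L + 1) (dpStep W p row) := by
  refine ⟨by simp [dpStep], ?_⟩
  intro e he
  simp only [dpStep, List.mem_map, List.mem_range] at he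
  obtain ⟨j, hj, rfl⟩ := he
  rcases bestBy_mem_or (fun e : ℕ × List ℕ => e.1) (0, [])
      ((List.range W.length).map (fun l => dpExt W p row j l)) with h1 | h1
  · simp only [List.mem_map, List.mem_range] at h1
    obtain ⟨l, hl, h2⟩ := h1
    rw [← h2]
    have h3 : (row.getD l (0, [])).1 ≤ V ∧ (row.getD l (0, [])).2.length ≤ L ∧
        ∀ v ∈ (row.getD l (0, [])).2, v ≤ W.length := by
      rw [List.getD_eq_getElem?_getD]
      cases h4 : row[l]? with
      | none => simp
      | some x =>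
        have : x ∈ row := List.mem_of_getElem? h4
        simpa using h.2 x this
    refine ⟨?_, ?_, ?_⟩
    · simp only [dpExt]
      have := arcC_le W p l j
      omega
    · simp only [dpExt, List.length_cons]
      omega
    · intro v hv
      simp only [dpExt, List.mem_cons] at hv
      rcases hv with rfl | hv
      · omega
      · exact h3.2.2 v hv
  · rw [h1]
    simp

lemma rowBd_level (W : List (List ℕ)) (p : List ℕ) (i : ℕ) (t : ℕ) :
    RowBd W.length ((t + 1) * (2 * bigM W)) (t + 1) (dpLevel W p i t) := by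
  have h1 : ∀ (m : List ℕ), RowBd W.length ((m.length + 1) * (2 * bigM W)) (m.length + 1)
      (m.foldr (fun _ row => dpStep W p row) (dpInit W p i)) := by
    intro m
    induction m with
    | nil =>
      simpa using rowBd_init W p i
    | cons y m ih =>
      have := rowBd_step W p ih
      simp only [List.foldr_cons, List.length_cons]
      convert this using 1
      ring
  have := h1 (List.range t)
  simpa [dpLevel] using this

lemma sz_natList_le {n : ℕ} (l : List ℕ) (h : ∀ v ∈ l, v ≤ n) :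
    sz (enc l) ≤ (2 * n + 2) * l.length + 1 := by
  have := PT.sz_list_le (K := 2 * n + 1) l (fun y hy => by
    rw [PT.sz_natEnc]
    have := h y hy
    omega)
  simpa [Nat.mul_comm, add_assoc, one_add_one_eq_two, two_mul, Nat.add_comm, Nat.add_left_comm] using this

lemma sz_row_le {n V L : ℕ} {row : List (ℕ × List ℕ)} (h : RowBd n V L row) :
    sz (enc row) ≤ (2 * V + 1 + ((2 * n + 2) * L + 1) + 1 + 1) * n + 1 := by
  have h1 := PT.sz_list_le (K := 2 * V + 1 + ((2 * n + 2) * L + 1) + 1) row (fun e he => by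
    obtain ⟨h2, h3, h4⟩ := h.2 e he
    have h5 : sz (enc e) = sz (enc e.1) + sz (enc e.2) + 1 := by
      obtain ⟨a, b⟩ := e
      exact PT.sz_enc_pair a b
    rw [h5, PT.sz_natEnc]
    have h6 := sz_natList_le (n := n) e.2 h4
    have h7 : (2 * n + 2) * e.2.length ≤ (2 * n + 2) * L := Nat.mul_le_mul_left _ h3
    omega)
  have h2 : (2 * V + 1 + ((2 * n + 2) * L + 1) + 1 + 1) * row.length ≤
      (2 * V + 1 + ((2 * n + 2) * L + 1) + 1 + 1) * n := Nat.mul_le_mul_left _ h.1
  omega

@[fun_prop] theorem dpLevel_pt {W : α → List (List ℕ)} {p : α → List ℕ} {i k : α → ℕ}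
    (hW : PT W) (hp : PT p) (hi : PT i) (hk : PT k) : PT (fun a => dpLevel (W a) (p a) (i a) (k a)) := by
  have hs : PT (fun z : α × List (ℕ × List ℕ) => dpStep (W z.1) (p z.1) z.2) := by fun_prop
  unfold dpLevel
  refine iter_pt (s := fun z : α × List (ℕ × List ℕ) => dpStep (W z.1) (p z.1) z.2) hk
    (by fun_prop) hs ?_
  have hn : PB (fun (a : α) (_ : ℕ) => (W a).length) :=
    (PB.of_sz (f := fun a => (W a).length) (by fun_prop)).mono (fun a t => by
      show (W a).length ≤ sz (enc (W a).length)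
      rw [PT.sz_natEnc]; omega)
  have hM : PB (fun (a : α) (_ : ℕ) => bigM (W a)) :=
    (PB.of_sz (f := fun a => bigM (W a)) (by fun_prop)).mono (fun a t => by
      show bigM (W a) ≤ sz (enc (bigM (W a)))
      rw [PT.sz_natEnc]; omega)
  have ht : PB (fun (_ : α) (t : ℕ) => t + 1) := PB.round.add (PB.const 1)
  have hc2 : ∀ k, PB (fun (_ : α) (_ : ℕ) => k) := fun k => PB.const k
  have hV : PB (fun (a : α) (t : ℕ) => (t + 1) * (2 * bigM (W a))) := ht.mul ((hc2 2).mul hM)
  have hnn : PB (fun (a : α) (_ : ℕ) => 2 * (W a).length + 2) := ((hc2 2).mul hn).add (hc2 2)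
  have hall : PB (fun (a : α) (t : ℕ) => (2 * ((t + 1) * (2 * bigM (W a))) + 1 +
      ((2 * (W a).length + 2) * (t + 1) + 1) + 1 + 1) * (W a).length + 1) :=
    ((((((hc2 2).mul hV).add (hc2 1)).add ((hnn.mul ht).add (hc2 1))).add (hc2 1)).add (hc2 1)).mul hn
      |>.add (hc2 1)
  obtain ⟨c, d, h⟩ := hall
  refine ⟨c, d, fun a t => ?_⟩
  have h1 := sz_row_le (rowBd_level (W a) (p a) (i a) t)
  exact h1.trans (h a t)

@[fun_prop] theorem dpEnt_pt {W : α → List (List ℕ)} {p : α → List ℕ} {i k : α → ℕ}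
    (hW : PT W) (hp : PT p) (hi : PT i) (hk : PT k) : PT (fun a => dpEnt (W a) (p a) (i a) (k a)) := by
  unfold dpEnt; fun_prop

@[fun_prop] theorem posAt_pt {W : α → List (List ℕ)} {p : α → List ℕ} {k i : α → ℕ}
    (hW : PT W) (hp : PT p) (hk : PT k) (hi : PT i) : PT (fun a => posAt (W a) (p a) (k a) (i a)) := by
  unfold posAt; fun_prop

@[fun_prop] theorem foundK_pt {W : α → List (List ℕ)} {p : α → List ℕ}
    (hW : PT W) (hp : PT p) : PT (fun a => foundK (W a) (p a)) := by
  unfold foundK; fun_prop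

@[fun_prop] theorem foundI_pt {W : α → List (List ℕ)} {p : α → List ℕ} {k : α → ℕ}
    (hW : PT W) (hp : PT p) (hk : PT k) : PT (fun a => foundI (W a) (p a) (k a)) := by
  unfold foundI; fun_prop

@[fun_prop] theorem rvOf_pt {W : α → List (List ℕ)} {p : α → List ℕ}
    (hW : PT W) (hp : PT p) : PT (fun a => rvOf (W a) (p a)) := by
  unfold rvOf; fun_prop

@[fun_prop] theorem prevL_pt {rv : α → List ℕ} {x : α → ℕ} (hr : PT rv) (hx : PT x) :
    PT (fun a => prevL (rv a) (x a)) := by
  unfold prevL; fun_prop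

@[fun_prop] theorem rotL_pt {n : α → ℕ} {p rv : α → List ℕ} (hn : PT n) (hp : PT p) (hr : PT rv) :
    PT (fun a => rotL (n a) (p a) (rv a)) := by
  unfold rotL; fun_prop

@[fun_prop] theorem improve_pt {W : α → List (List ℕ)} {p : α → List ℕ} (hW : PT W) (hp : PT p) :
    PT (fun a => improve (W a) (p a)) := by
  unfold improve; fun_prop

lemma improve_bd (W : List (List ℕ)) (p : List ℕ) : ∀ v ∈ improve W p, v ≤ W.length := by
  intro v hv
  simp only [improve, rotL, List.mem_map, List.mem_range] at hv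
  obtain ⟨x, _, rfl⟩ := hv
  have cl_le : ∀ n y : ℕ, cl n y ≤ n := fun n y => by
    unfold cl
    split <;> omega
  exact cl_le _ _

lemma iterate_bd (W : List (List ℕ)) (m : List ℕ) :
    (m.foldr (fun _ p => improve W p) (List.range W.length)).length = W.length ∧
    ∀ v ∈ m.foldr (fun _ p => improve W p) (List.range W.length), v ≤ W.length := by
  cases m with
  | nil =>
    simp only [List.foldr_nil, List.length_range, true_and]
    intro v hv
    have := List.mem_range.mp hv
    omega
  | cons y m =>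
    simp only [List.foldr_cons]
    exact ⟨by simp [improve, rotL], improve_bd W _⟩

/-- The assignment problem is solved in polynomial time. -/
@[fun_prop] theorem maxAssign_pt {W : α → List (List ℕ)} (hW : PT W) :
    PT (fun a => maxAssign (W a)) := by
  have hs : PT (fun z : α × List ℕ => improve (W z.1) z.2) := by fun_prop
  unfold maxAssign
  refine iter_pt (s := fun z : α × List ℕ => improve (W z.1) z.2) (by fun_prop) (by fun_prop) hs ?_
  have hn : PB (fun (a : α) (_ : ℕ) => (W a).length) :=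
    (PB.of_sz (f := fun a => (W a).length) (by fun_prop)).mono (fun a t => by
      show (W a).length ≤ sz (enc (W a).length)
      rw [PT.sz_natEnc]; omega)
  have hall : PB (fun (a : α) (_ : ℕ) => (2 * (W a).length + 2) * (W a).length + 1) :=
    (((PB.const 2).mul hn).add (PB.const 2)).mul hn |>.add (PB.const 1)
  obtain ⟨c, d, h⟩ := hall
  refine ⟨c, d, fun a t => ?_⟩
  obtain ⟨h1, h2⟩ := iterate_bd (W a) (List.range t)
  have h3 := sz_natList_le _ h2
  rw [h1] at h3
  exact h3.trans (h a t)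

end Vale.Agent.Lib.P333F
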