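import Vale.Agent.Lib.P333F.PTAssign

/-!
(part PTATSP) `atsp` is computed in polynomial time.
-/

namespace Vale.Agent.Lib.P333F

open Vale.Agent.Lib.P310.M

variable {α : Type} [Enc α]

@[fun_prop] theorem tailsL_pt {tl : α → List Bool} (h : PT tl) : PT (fun a => tailsL (tl a)) := by
  unfold tailsL; fun_prop

@[fun_prop] theorem realL_pt {w : α → List (List ℕ)} {st : α → List ℕ × List Bool} (hw : PT w)
    (hs : PT st) : PT (fun a => realL (w a) (st a)) := by
  unfold realL; fun_prop

@[fun_prop] theorem relMat_pt {w : α → List (List ℕ)} {π L : α → List ℕ} (hw : PT w) (hp : PT π)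
    (hL : PT L) : PT (fun a => relMat (w a) (π a) (L a)) := by
  unfold relMat; fun_prop

@[fun_prop] theorem thetaL_pt {L p : α → List ℕ} {x : α → ℕ} (hL : PT L) (hp : PT p) (hx : PT x) :
    PT (fun a => thetaL (L a) (p a) (x a)) := by
  unfold thetaL; fun_prop

@[fun_prop] theorem hatL_pt {w : α → List (List ℕ)} {π L p : α → List ℕ} {x : α → ℕ} (hw : PT w)
    (hπ : PT π) (hL : PT L) (hp : PT p) (hx : PT x) :
    PT (fun a => hatL (w a) (π a) (L a) (p a) (x a)) := by
  unfold hatL; fun_prop

@[fun_prop] theorem lexB_pt {x y u v : α → ℕ} (hx : PT x) (hy : PT y) (hu : PT u) (hv : PT v) :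
    PT (fun a => lexB (x a) (y a) (u a) (v a)) := by
  unfold lexB; fun_prop

@[fun_prop] theorem relP_pt {w : α → List (List ℕ)} {st : α → List ℕ × List Bool} (hw : PT w)
    (hs : PT st) : PT (fun a => relP (w a) (st a)) := by
  unfold relP; fun_prop

@[fun_prop] theorem relRho_pt {w : α → List (List ℕ)} {st : α → List ℕ × List Bool} (hw : PT w)
    (hs : PT st) : PT (fun a => relRho (w a) (st a)) := by
  unfold relRho; fun_prop

@[fun_prop] theorem relTl_pt {w : α → List (List ℕ)} {st : α → List ℕ × List Bool} (hw : PT w)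
    (hs : PT st) : PT (fun a => relTl (w a) (st a)) := by
  unfold relTl; fun_prop

@[fun_prop] theorem relink_pt {w : α → List (List ℕ)} {st : α → List ℕ × List Bool} (hw : PT w)
    (hs : PT st) : PT (fun a => relink (w a) (st a)) := by
  unfold relink; fun_prop

@[fun_prop] theorem initSt_pt {n : α → ℕ} (hn : PT n) : PT (fun a => initSt (n a)) := by
  unfold initSt; fun_prop

@[fun_prop] theorem perL_pt {π : α → List ℕ} {t : α → ℕ} (hp : PT π) (ht : PT t) :
    PT (fun a => perL (π a) (t a)) := by
  unfold perL; fun_prop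

@[fun_prop] theorem pathL_pt {π : α → List ℕ} {t : α → ℕ} (hp : PT π) (ht : PT t) :
    PT (fun a => pathL (π a) (t a)) := by
  unfold pathL; fun_prop

@[fun_prop] theorem orderOf_pt {st : α → List ℕ × List Bool} (hs : PT st) :
    PT (fun a => orderOf (st a)) := by
  unfold orderOf; fun_prop

@[fun_prop] theorem dbl_pt {L : α → List (List Bool)} (h : PT L) : PT (fun a => dbl (L a)) := by
  unfold dbl; fun_prop

lemma allV_bd (r : ℕ) (m : List ℕ) :
    (m.foldr (fun _ L => if L.length ≤ r then dbl L else L) [[]]).length ≤ 2 * r + 1 ∧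
    ∀ v ∈ m.foldr (fun _ L => if L.length ≤ r then dbl L else L) [[]], v.length ≤ m.length := by
  induction m with
  | nil => simp
  | cons y m ih =>
    obtain ⟨h1, h2⟩ := ih
    simp only [List.foldr_cons, List.length_cons]
    set L := m.foldr (fun _ L => if L.length ≤ r then dbl L else L) [[]]
    split
    · rename_i h3
      have h4 : (dbl L).length = 2 * L.length := by
        have : ∀ K : List (List Bool), (dbl K).length = 2 * K.length := by
          intro K
          induction K with
          | nil => rfl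
          | cons z K ih =>
            simp only [dbl, List.flatMap_cons, List.length_append, List.length_cons, List.length_nil] at ih ⊢
            omega
        exact this L
      refine ⟨by omega, ?_⟩
      intro v hv
      simp only [dbl, List.mem_flatMap, List.mem_cons, List.not_mem_nil, or_false] at hv
      obtain ⟨z, hz, hv⟩ := hv
      have := h2 z hz
      rcases hv with rfl | rfl <;> simp <;> omega
    · refine ⟨h1, fun v hv => ?_⟩
      have := h2 v hv
      omega

@[fun_prop] theorem allV_pt {r : α → ℕ} (h : PT r) : PT (fun a => allV (r a)) := by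
  have hs : PT (fun z : α × List (List Bool) => if z.2.length ≤ r z.1 then dbl z.2 else z.2) := by
    fun_prop
  unfold allV
  refine iter_pt (k := fun a => r a + 1) (b := fun _ => [[]])
    (s := fun z : α × List (List Bool) => if z.2.length ≤ r z.1 then dbl z.2 else z.2)
    (by fun_prop) (by fun_prop) hs ?_
  have hrr : PB (fun (a : α) (_ : ℕ) => r a) :=
    (PB.of_sz (f := fun a => r a) h).mono (fun a t => by
      rw [PT.sz_natEnc]; omega)
  have hall : PB (fun (a : α) (t : ℕ) => (4 * t + 2 + 1) * (2 * r a + 1) + 1) :=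
    ((((PB.const 4).mul PB.round).add (PB.const 3)).mul (((PB.const 2).mul hrr).add (PB.const 1))).add
      (PB.const 1)
  obtain ⟨c, d, h3⟩ := hall
  refine ⟨c, d, fun a t => ?_⟩
  obtain ⟨h1, h2⟩ := allV_bd (r a) (List.range t)
  simp only [List.length_range] at h2
  refine le_trans ?_ (h3 a t)
  have h4 := PT.sz_list_le (K := 4 * t + 2) _ (fun v hv => by
    have h5 := h2 v hv
    have h6 := PT.sz_list_le (K := 3) v (fun b _ => PT.sz_enc_bool b)
    have : (3 + 1) * v.length ≤ 4 * t := by omega
    omega)
  have h7 : (4 * t + 2 + 1) * (List.foldr (fun x L => if L.length ≤ r a then dbl L else L) [[]] (List.range t)).length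
      ≤ (4 * t + 2 + 1) * (2 * r a + 1) := Nat.mul_le_mul_left _ h1
  show sz (enc (List.foldr (fun x L => if L.length ≤ r a then dbl L else L) [[]] (List.range t))) ≤
    (4 * t + 2 + 1) * (2 * r a + 1) + 1
  omega

@[fun_prop] theorem parB_pt {s v : α → List Bool} (hs : PT s) (hv : PT v) :
    PT (fun a => parB (s a) (v a)) := by
  unfold parB
  have hf : PT (fun x : α × (Bool × Bool) × Bool => xor (x.2.1.1 && x.2.1.2) x.2.2) := by fun_prop
  exact PT.list_foldr (f := fun a => (s a).zip (v a)) (b := fun _ => false)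
    (s := fun x : α × (Bool × Bool) × Bool => xor (x.2.1.1 && x.2.1.2) x.2.2) (by fun_prop)
    (by fun_prop) hf ⟨3, 0, fun a l => by simpa using PT.sz_enc_bool _⟩

@[fun_prop] theorem isPairB_pt {τ : α → List ℕ} {x : α → ℕ} (hτ : PT τ) (hx : PT x) :
    PT (fun a => isPairB (τ a) (x a)) := by
  unfold isPairB; fun_prop

@[fun_prop] theorem pairsL_pt {τ : α → List ℕ} (hτ : PT τ) : PT (fun a => pairsL (τ a)) := by
  unfold pairsL; fun_prop

@[fun_prop] theorem idsL_pt {τ : α → List ℕ} (hτ : PT τ) : PT (fun a => idsL (τ a)) := by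
  unfold idsL; fun_prop

@[fun_prop] theorem repP_pt {τ : α → List ℕ} {x : α → ℕ} (hτ : PT τ) (hx : PT x) :
    PT (fun a => repP (τ a) (x a)) := by
  unfold repP; fun_prop

@[fun_prop] theorem idOf_pt {τ : α → List ℕ} {x : α → ℕ} (hτ : PT τ) (hx : PT x) :
    PT (fun a => idOf (τ a) (x a)) := by
  unfold idOf; fun_prop

@[fun_prop] theorem tailP_pt {τ : α → List ℕ} {s : α → List Bool} {x : α → ℕ} (hτ : PT τ)
    (hs : PT s) (hx : PT x) : PT (fun a => tailP (τ a) (s a) (x a)) := by
  unfold tailP; fun_prop

@[fun_prop] theorem stB_pt {τ : α → List ℕ} {s : α → List Bool} (hτ : PT τ) (hs : PT s) :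
    PT (fun a => stB (τ a) (s a)) := by
  unfold stB; fun_prop

@[fun_prop] theorem stB'_pt {τ : α → List ℕ} {tc s : α → List Bool} (hτ : PT τ) (htc : PT tc)
    (hs : PT s) : PT (fun a => stB' (τ a) (tc a) (s a)) := by
  unfold stB'; fun_prop

@[fun_prop] theorem candsL_pt {w : α → List (List ℕ)} {C : α → List ℕ × List Bool} (hw : PT w)
    (hC : PT C) : PT (fun a => candsL (w a) (C a)) := by
  unfold candsL; fun_prop

@[fun_prop] theorem bestSt_pt {w : α → List (List ℕ)} (hw : PT w) : PT (fun a => bestSt (w a)) := by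
  unfold bestSt
  exact bestBy_pt (key := fun a st => realL (w a) st) (d := fun _ => ([], []))
    (by fun_prop) (by fun_prop) (by fun_prop)

@[fun_prop] theorem atsp_pt {w : α → List (List ℕ)} (hw : PT w) : PT (fun a => atsp (w a)) := by
  unfold atsp; fun_prop

end Vale.Agent.Lib.P333F
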