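import Vale.Agent.Lib.P310.M.PTFun
import Vale.Agent.Lib.P333F.Defs

/-!
(part PTBASE) Polynomial time for the basic list functions, and iteration.
-/

namespace Vale.Agent.Lib.P333F

open Vale.Agent.Lib.P310.M List

variable {α β γ : Type} [Enc α] [Enc β] [Enc γ]

@[fun_prop] theorem app_pt {p : α → List ℕ} {i : α → ℕ} (hp : PT p) (hi : PT i) :
    PT (fun a => app (p a) (i a)) := by
  unfold app; fun_prop

@[fun_prop] theorem mat_pt {W : α → List (List ℕ)} {i j : α → ℕ} (hW : PT W) (hi : PT i) (hj : PT j) :
    PT (fun a => mat (W a) (i a) (j a)) := by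
  unfold mat; fun_prop

@[fun_prop] theorem cl_pt {n y : α → ℕ} (hn : PT n) (hy : PT y) : PT (fun a => cl (n a) (y a)) := by
  unfold cl; fun_prop

@[fun_prop] theorem tail_pt {l : α → List β} (hl : PT l) : PT (fun a => (l a).tail) := PT.tail hl

@[fun_prop] theorem drop_pt {l : α → List β} {i : α → ℕ} (hl : PT l) (hi : PT i) :
    PT (fun a => (l a).drop (i a)) := PT.drop hl hi

lemma take_eq_aux (l : List β) (s k : ℕ) :
    ((l.zip (List.range' s l.length)).filter (fun x => decide (x.2 < s + k))).map Prod.fst
      = l.take k := by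
  induction l generalizing s k with
  | nil => simp
  | cons y l ih =>
    cases k with
    | zero =>
      simp only [List.length_cons, List.range'_succ, List.zip_cons_cons, List.filter_cons,
        List.take_zero]
      simp only [add_zero, lt_self_iff_false, decide_false, Bool.false_eq_true, if_false]
      rw [List.filter_eq_nil_iff.mpr]
      · rfl
      · intro e he
        have := (List.of_mem_zip (a := e.1) (b := e.2) he).2
        rw [List.mem_range'_1] at this
        simp only [decide_eq_true_eq]
        omega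
    | succ k =>
      simp only [List.length_cons, List.range'_succ, List.zip_cons_cons, List.filter_cons,
        List.take_succ_cons]
      have h1 : s < s + (k + 1) := by omega
      simp only [h1, decide_true, if_true, List.map_cons]
      have := ih (s + 1) k
      rw [show s + 1 + k = s + (k + 1) by omega] at this
      rw [this]

lemma take_eq (l : List β) (k : ℕ) :
    l.take k = ((l.zip (List.range l.length)).filter (fun x => decide (x.2 < k))).map Prod.fst := by
  have := take_eq_aux l 0 k
  simp only [zero_add, ← List.range_eq_range'] at this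
  exact this.symm

@[fun_prop] theorem take_pt {l : α → List β} {i : α → ℕ} (hl : PT l) (hi : PT i) :
    PT (fun a => (l a).take (i a)) := by
  have h : PT (fun a => ((l a).zip (List.range (l a).length)).filter
      (fun x => decide (x.2 < i a))) := by fun_prop
  have h2 : PT (fun a => (((l a).zip (List.range (l a).length)).filter
      (fun x => decide (x.2 < i a))).map Prod.fst) := by fun_prop
  exact (funext fun a => take_eq (l a) (i a) : (fun a => (l a).take (i a)) = _) ▸ h2

lemma sum_le_sz (l : List ℕ) : l.sum ≤ sz (enc l) := by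
  induction l with
  | nil => simp
  | cons y l ih =>
    rw [PT.sz_enc_cons, List.sum_cons, PT.sz_natEnc]
    omega

@[fun_prop] theorem sum_pt {l : α → List ℕ} (hl : PT l) : PT (fun a => (l a).sum) := by
  have hs : PT (fun x : α × ℕ × ℕ => x.2.1 + x.2.2) := by fun_prop
  have H := PT.list_foldr (f := l) (b := fun _ : α => (0 : ℕ)) (s := fun x : α × ℕ × ℕ => x.2.1 + x.2.2)
    hl (PT.const 0) hs ⟨3, 1, by
      intro a m
      have h0 : m.foldr (fun y acc => (fun x : α × ℕ × ℕ => x.2.1 + x.2.2) (a, y, acc)) 0 = m.sum := by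
        induction m with
        | nil => rfl
        | cons y m ih => simp only [List.foldr_cons, List.sum_cons, ih]
      rw [h0, PT.sz_natEnc]
      have := sum_le_sz m
      have h2 := sz_pos (enc a)
      rw [pow_one]
      omega⟩
  refine (funext fun a => ?_ : (fun a => (l a).sum) = _) ▸ H
  generalize l a = m
  induction m with
  | nil => rfl
  | cons y m ih => simp only [List.foldr_cons, List.sum_cons, ih]

/-- Iteration of a step function, given a polynomial bound for the sizes of the iterates. -/
theorem iter_pt {k : α → ℕ} {b : α → γ} {s : α × γ → γ} (hk : PT k) (hb : PT b) (hs : PT s)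
    (hB : ∃ c d, ∀ (a : α) (t : ℕ),
      sz (enc ((List.range t).foldr (fun _ y => s (a, y)) (b a))) ≤ c * (sz (enc a) + t + 1) ^ d) :
    PT (fun a => (List.range (k a)).foldr (fun _ y => s (a, y)) (b a)) := by
  obtain ⟨c, d, hB⟩ := hB
  have hr : PT (fun a => List.range (k a)) := by fun_prop
  have hs' : PT (fun x : α × ℕ × γ => s (x.1, x.2.2)) := by
    have : PT (fun x : α × ℕ × γ => (x.1, x.2.2)) := by fun_prop
    exact hs.comp this
  have key : ∀ (a : α) (l : List ℕ),
      l.foldr (fun _ acc => s (a, acc)) (b a) =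
        (List.range l.length).foldr (fun _ acc => s (a, acc)) (b a) := by
    intro a l
    have h1 : ∀ (m : List ℕ), m.foldr (fun _ acc => s (a, acc)) (b a)
        = (fun y => s (a, y))^[m.length] (b a) := by
      intro m
      induction m with
      | nil => rfl
      | cons y m ih =>
        simp only [List.foldr_cons, List.length_cons, Function.iterate_succ_apply', ih]
    rw [h1 l, h1 (List.range l.length)]
    simp
  exact PT.list_foldr (f := fun a => List.range (k a)) (b := b)
    (s := fun x : α × ℕ × γ => s (x.1, x.2.2)) hr hb hs' ⟨c, d, by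
      intro a l
      have h0 := key a l
      show sz (enc (l.foldr (fun _ acc => s (a, acc)) (b a))) ≤ _
      rw [h0]
      refine (hB a l.length).trans (Nat.mul_le_mul_left _ (Nat.pow_le_pow_left ?_ d))
      have := PT.length_le_sz l
      omega⟩

lemma sz_app_le (p : List ℕ) (y : ℕ) : sz (enc (app p y)) ≤ sz (enc p) + 1 := by
  unfold app
  rw [List.getD_eq_getElem?_getD]
  cases h : p[y]? with
  | none =>
    have h2 := PT.sz_natEnc 0
    simp only [Option.getD_none, h2]
    omega
  | some v =>
    have : v ∈ p := List.mem_of_getElem? h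
    have := PT.sz_le_of_mem this
    simp only [Option.getD_some]
    omega

lemma sz_powL_le (p : List ℕ) (k x : ℕ) : sz (enc (powL p k x)) ≤ sz (enc x) + sz (enc p) + 1 := by
  have h1 : ∀ (m : List ℕ), sz (enc (m.foldr (fun _ y => app p y) x)) ≤ sz (enc x) + sz (enc p) + 1 := by
    intro m
    cases m with
    | nil => simp only [List.foldr_nil]; omega
    | cons y m =>
      simp only [List.foldr_cons]
      have := sz_app_le p (m.foldr (fun _ y => app p y) x)
      omega
  exact h1 _

@[fun_prop] theorem powL_pt {p : α → List ℕ} {k x : α → ℕ} (hp : PT p) (hk : PT k) (hx : PT x) :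
    PT (fun a => powL (p a) (k a) (x a)) := by
  obtain ⟨c1, d1, h1⟩ := PT.szBound hx
  obtain ⟨c2, d2, h2⟩ := PT.szBound hp
  have hs : PT (fun z : α × ℕ => app (p z.1) z.2) := by fun_prop
  refine iter_pt (s := fun z : α × ℕ => app (p z.1) z.2) hk hx hs ⟨c1 + c2 + 1, d1 + d2, ?_⟩
  intro a t
  have h3 := sz_powL_le (p a) t (x a)
  have h4 := h1 a
  have h5 := h2 a
  show sz (enc (powL (p a) t (x a))) ≤ _
  set N := sz (enc a) + t + 1 with hN
  have hN1 : 1 ≤ N := by omega
  have h6 : (sz (enc a) + 1) ^ d1 ≤ N ^ (d1 + d2) :=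
    (Nat.pow_le_pow_left (by omega) d1).trans (Nat.pow_le_pow_right hN1 (by omega))
  have h7 : (sz (enc a) + 1) ^ d2 ≤ N ^ (d1 + d2) :=
    (Nat.pow_le_pow_left (by omega) d2).trans (Nat.pow_le_pow_right hN1 (by omega))
  have h8 : 1 ≤ N ^ (d1 + d2) := Nat.one_le_pow _ _ hN1
  have h9 : c1 * (sz (enc a) + 1) ^ d1 ≤ c1 * N ^ (d1 + d2) := Nat.mul_le_mul_left _ h6
  have h10 : c2 * (sz (enc a) + 1) ^ d2 ≤ c2 * N ^ (d1 + d2) := Nat.mul_le_mul_left _ h7
  have h11 : (c1 + c2 + 1) * N ^ (d1 + d2) = c1 * N ^ (d1 + d2) + c2 * N ^ (d1 + d2) + N ^ (d1 + d2) := by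
    ring
  rw [h11]
  omega

@[fun_prop] theorem iterL_pt {p : α → List ℕ} {x : α → ℕ} (hp : PT p) (hx : PT x) :
    PT (fun a => iterL (p a) (x a)) := by
  unfold iterL; fun_prop

@[fun_prop] theorem bestBy_pt {key : α → β → ℕ} {d : α → β} {l : α → List β}
    (hk : PT (fun x : α × β => key x.1 x.2)) (hd : PT d) (hl : PT l) :
    PT (fun a => bestBy (key a) (d a) (l a)) := by
  unfold bestBy; fun_prop

@[fun_prop] theorem maxL_pt {l : α → List ℕ} (hl : PT l) : PT (fun a => maxL (l a)) := by
  unfold maxL
  exact bestBy_pt (key := fun _ x => x) (d := fun _ => 0) (by fun_prop) (by fun_prop) hl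

end Vale.Agent.Lib.P333F
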