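import Vale.Agent.Lib.P333F.PTAtsp

/-!
(part PTSTR) The algorithm for strings is computed in polynomial time.
-/

namespace Vale.Agent.Lib.P333F

open Vale.Agent.Lib.P310.M

variable {α β : Type} [Enc α] [Enc β] [DecidableEq α]

@[fun_prop] theorem ovL_pt {a b : β → List α} (ha : PT a) (hb : PT b) :
    PT (fun x => ovL (a x) (b x)) := by
  unfold ovL; fun_prop

@[fun_prop] theorem mergeL_pt {l : β → List (List α)} (hl : PT l) : PT (fun x => mergeL (l x)) := by
  unfold mergeL; fun_prop

@[fun_prop] theorem isFac_pt {a b : β → List α} (ha : PT a) (hb : PT b) :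
    PT (fun x => isFac (a x) (b x)) := by
  unfold isFac; fun_prop

@[fun_prop] theorem keepS_pt {S : β → List (List α)} {i : β → ℕ} (hS : PT S) (hi : PT i) :
    PT (fun x => keepS (S x) (i x)) := by
  unfold keepS; fun_prop

@[fun_prop] theorem antichainL_pt {l : β → List (List α)} (hl : PT l) :
    PT (fun x => antichainL (l x)) := by
  unfold antichainL; fun_prop

@[fun_prop] theorem ovMat_pt {l : β → List (List α)} (hl : PT l) : PT (fun x => ovMat (l x)) := by
  unfold ovMat; fun_prop

/-- Polynomial time for `lexB`. -/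
@[fun_prop] theorem lexB_str_pt {a x b y : β → ℕ} (ha : PT a) (hx : PT x) (hb : PT b) (hy : PT y) :
    PT (fun t => lexB (a t) (x t) (b t) (y t)) := by
  unfold lexB; fun_prop

@[fun_prop] theorem cutFlags_pt {W : β → List (List ℕ)} {σ : β → List ℕ} (hW : PT W) (hσ : PT σ) :
    PT (fun x => cutFlags (W x) (σ x)) := by
  unfold cutFlags; fun_prop

/-- Polynomial time for `perL`. -/
@[fun_prop] theorem perL_str_pt {π : β → List ℕ} {t : β → ℕ} (hπ : PT π) (ht : PT t) :
    PT (fun x => perL (π x) (t x)) := by
  unfold perL; fun_prop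

/-- Polynomial time for `pathL`. -/
@[fun_prop] theorem pathL_str_pt {π : β → List ℕ} {t : β → ℕ} (hπ : PT π) (ht : PT t) :
    PT (fun x => pathL (π x) (t x)) := by
  unfold pathL; fun_prop

@[fun_prop] theorem openedL_pt {S : β → List (List α)} {σ : β → List ℕ} {c : β → ℕ}
    (hS : PT S) (hσ : PT σ) (hc : PT c) : PT (fun x => openedL (S x) (σ x) (c x)) := by
  unfold openedL; fun_prop

@[fun_prop] theorem openAll_pt {l : β → List (List α)} (hl : PT l) : PT (fun x => openAll (l x)) := by
  unfold openAll; fun_prop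

@[fun_prop] theorem mergeAtsp_pt {l : β → List (List α)} (hl : PT l) :
    PT (fun x => mergeAtsp (l x)) := by
  unfold mergeAtsp; fun_prop

/-- The algorithm is computed in polynomial time. -/
theorem scsAlg_pt : PT (scsAlg : List (List α) → List α) := by
  unfold scsAlg; fun_prop

end Vale.Agent.Lib.P333F
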