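import Vale.Agent.Lib.P333F.Defs

/-!
(part PERM) Permutations stored as lists, against `Equiv.Perm (Fin n)`.
-/

namespace Vale.Agent.Lib.P333F

open List (range)

variable {n : ℕ} {p : List ℕ}

theorem length_of_perm (h : p.Perm (range n)) : p.length = n := by
  simpa using h.length_eq

theorem app_lt_of_perm (h : p.Perm (range n)) {x : ℕ} (hx : x < n) : app p x < n := by
  have hlen : p.length = n := length_of_perm h
  have hx' : x < p.length := by omega
  have hm : p[x] ∈ p := List.getElem_mem hx'
  have hm' := h.mem_iff.mp hm
  have : app p x = p[x] := by simp [app, List.getD_eq_getElem?_getD, hx']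
  rw [this]
  simpa using hm'

theorem app_injOn_of_perm (h : p.Perm (range n)) {x y : ℕ} (hx : x < n) (hy : y < n)
    (hxy : app p x = app p y) : x = y := by
  have hlen : p.length = n := length_of_perm h
  have hx' : x < p.length := by omega
  have hy' : y < p.length := by omega
  have e1 : app p x = p[x] := by simp [app, List.getD_eq_getElem?_getD, hx']
  have e2 : app p y = p[y] := by simp [app, List.getD_eq_getElem?_getD, hy']
  have hnd : p.Nodup := h.nodup_iff.mpr List.nodup_range
  rw [e1, e2] at hxy
  exact (hnd.getElem_inj_iff).mp hxy

/-- A permutation stored as a list, as an equivalence. -/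
noncomputable def permOfL (h : p.Perm (range n)) : Equiv.Perm (Fin n) :=
  Equiv.ofBijective (fun x => ⟨app p x, app_lt_of_perm h x.2⟩) (by
    apply Finite.injective_iff_bijective.mp
    intro x y hxy
    have : app p x = app p y := congrArg Fin.val hxy
    exact Fin.ext (app_injOn_of_perm h x.2 y.2 this))

@[simp] theorem permOfL_val (h : p.Perm (range n)) (x : Fin n) :
    ((permOfL h x : Fin n) : ℕ) = app p x := rfl

/-- Iteration along a list ignoring its elements. -/
theorem foldr_const {β γ : Type} (l : List β) (g : γ → γ) (x : γ) :
    l.foldr (fun _ y => g y) x = g^[l.length] x := by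
  induction l with
  | nil => rfl
  | cons a l ih =>
    simp only [List.foldr_cons, List.length_cons, Function.iterate_succ_apply', ih]

theorem powL_zero (p : List ℕ) (x : ℕ) : powL p 0 x = x := rfl

theorem powL_succ (p : List ℕ) (k x : ℕ) : powL p (k + 1) x = app p (powL p k x) := by
  simp [powL, foldr_const, Function.iterate_succ_apply']

theorem powL_eq (h : p.Perm (range n)) (k : ℕ) (x : Fin n) :
    powL p k x = (((permOfL h) ^ k) x : Fin n) := by
  induction k with
  | zero => simp [powL_zero]
  | succ k ih =>
    rw [powL_succ, ih, pow_succ', Equiv.Perm.mul_apply, permOfL_val]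

theorem mem_iterL (h : p.Perm (range n)) (x y : Fin n) :
    (y : ℕ) ∈ iterL p x ↔ (permOfL h).SameCycle x y := by
  have hlen : p.length = n := length_of_perm h
  constructor
  · intro hm
    simp only [iterL, List.mem_map, List.mem_range] at hm
    obtain ⟨k, _, hk⟩ := hm
    rw [powL_eq h] at hk
    refine ⟨(k : ℤ), ?_⟩
    rw [zpow_natCast]
    exact Fin.ext hk
  · intro hs
    simp only [iterL, List.mem_map, List.mem_range]
    classical
    by_cases hx : (permOfL h) x = x
    · have hy : y = x := by
        obtain ⟨i, hi⟩ := hs
        have : ((permOfL h) ^ i) x = x := by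
          have h1 : Function.IsFixedPt (permOfL h) x := hx
          exact (Equiv.Perm.zpow_apply_eq_self_of_apply_eq_self hx i)
        rw [← hi, this]
      refine ⟨0, ?_, ?_⟩
      · rw [hlen]; exact Nat.lt_of_le_of_lt (Nat.zero_le _) x.2
      · simp [powL_zero, hy]
    · obtain ⟨k, hk, hk'⟩ := hs.exists_pow_eq_of_mem_support (Equiv.Perm.mem_support.mpr hx)
      refine ⟨k, ?_, ?_⟩
      · rw [hlen]
        have h1 : ((permOfL h).cycleOf x).support.card ≤ (Finset.univ : Finset (Fin n)).card :=
          Finset.card_le_card (Finset.subset_univ _)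
        simp only [Finset.card_univ, Fintype.card_fin] at h1
        omega
      · rw [powL_eq h, hk']

theorem iterL_lt (h : p.Perm (range n)) {x y : ℕ} (hx : x < n) (hy : y ∈ iterL p x) : y < n := by
  simp only [iterL, List.mem_map, List.mem_range] at hy
  obtain ⟨k, _, rfl⟩ := hy
  have := powL_eq h k ⟨x, hx⟩
  simp only at this
  rw [this]
  exact Fin.is_lt _

/-- An equivalence as a list. -/
def listOfPerm (q : Equiv.Perm (Fin n)) : List ℕ := (List.finRange n).map (fun x => (q x : ℕ))

theorem listOfPerm_perm (q : Equiv.Perm (Fin n)) : (listOfPerm q).Perm (range n) := by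
  have h1 : ((List.finRange n).map q).Perm (List.finRange n) := Equiv.Perm.map_finRange_perm q
  have h2 := h1.map (fun x : Fin n => (x : ℕ))
  rw [List.map_map, List.map_coe_finRange_eq_range] at h2
  exact h2

theorem app_listOfPerm (q : Equiv.Perm (Fin n)) (x : Fin n) : app (listOfPerm q) x = q x := by
  simp [app, listOfPerm, List.getD_eq_getElem?_getD]

/-- List sums over `range n` are sums over `Fin n`. -/
theorem sum_range_map (f : ℕ → ℕ) : ((range n).map f).sum = ∑ x : Fin n, f x := by
  rw [Fin.sum_univ_def, ← List.map_coe_finRange_eq_range, List.map_map]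
  rfl

theorem exists_max_key {β : Type} (key : β → ℕ) {l : List β} (hl : l ≠ []) :
    ∃ x ∈ l, ∀ y ∈ l, key y ≤ key x := by
  induction l with
  | nil => exact absurd rfl hl
  | cons a l ih =>
    by_cases hl' : l = []
    · subst hl'
      exact ⟨a, by simp, by simp⟩
    · obtain ⟨x, hx, hmax⟩ := ih hl'
      by_cases hax : key a ≤ key x
      · refine ⟨x, List.mem_cons_of_mem _ hx, ?_⟩
        intro y hy
        rcases List.mem_cons.mp hy with rfl | hy
        · exact hax
        · exact hmax y hy
      · refine ⟨a, List.mem_cons_self, ?_⟩
        intro y hy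
        rcases List.mem_cons.mp hy with rfl | hy
        · exact le_rfl
        · have := hmax y hy
          omega

/-- The largest key. -/
theorem bestBy_spec {β : Type} (key : β → ℕ) (d : β) {l : List β} (hl : l ≠ []) :
    bestBy key d l ∈ l ∧ ∀ y ∈ l, key y ≤ key (bestBy key d l) := by
  obtain ⟨x, hx, hmax⟩ := exists_max_key key hl
  have hne : l.filter (fun x => l.all (fun y => decide (key y ≤ key x))) ≠ [] := by
    intro he
    have : x ∈ l.filter (fun x => l.all (fun y => decide (key y ≤ key x))) := by
      simp only [List.mem_filter, List.all_eq_true, decide_eq_true_eq]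
      exact ⟨hx, hmax⟩
    rw [he] at this
    simp at this
  have hm : bestBy key d l ∈ l.filter (fun x => l.all (fun y => decide (key y ≤ key x))) := by
    unfold bestBy
    cases hf : l.filter (fun x => l.all (fun y => decide (key y ≤ key x))) with
    | nil => exact absurd hf hne
    | cons a t => simp
  simp only [List.mem_filter, List.all_eq_true, decide_eq_true_eq] at hm
  exact hm

end Vale.Agent.Lib.P333F
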