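import Vale.Agent.Lib.P333F.RelCore
import Vale.Agent.Lib.P333F.Assign

/-!
(part RELLIST) The list function `relink` computes the abstract relinking.
-/

namespace Vale.Agent.Lib.P333F

open List (range)

variable {n : ℕ}

/-- The lists `π`, `tl` store the path system `S`. -/
structure Rep (S : St n) (π : List ℕ) (tl : List Bool) : Prop where
  perm : π.Perm (range n)
  tlen : tl.length = n
  app_eq : ∀ x : Fin n, app π x = S.π x
  tl_eq : ∀ x : Fin n, tl.getD x false = S.tl x

/-- The matrix as a function on `Fin n`. -/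
def matF (w : List (List ℕ)) : Fin n → Fin n → ℕ := fun x y => mat w x y

theorem realL_eq (w : List (List ℕ)) {S : St n} {π : List ℕ} {tl : List Bool} (h : Rep S π tl) :
    realL w (π, tl) = S.real (matF w) := by
  have hlen : π.length = n := length_of_perm h.perm
  unfold realL St.real
  simp only
  rw [hlen, sum_range_map]
  refine Finset.sum_congr rfl fun x _ => ?_
  rw [h.tl_eq x, h.app_eq x]
  rfl

theorem rep_init : Rep (St.init n) (initSt n).1 (initSt n).2 := by
  refine ⟨List.Perm.refl _, by simp [initSt], ?_, ?_⟩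
  · intro x
    have hx := x.2
    simp [initSt, St.init, app, hx]
  · intro x
    have hx := x.2
    simp [initSt, St.init, hx]

/-! ### Lists of tails -/

theorem rl_mem_tailsL {tl : List Bool} {x : ℕ} :
    x ∈ tailsL tl ↔ x < tl.length ∧ tl.getD x false = true := by
  simp [tailsL]

theorem rl_nodup_tailsL (tl : List Bool) : (tailsL tl).Nodup :=
  (List.nodup_range).filter _

theorem rl_perm_of_inj {m : ℕ} {f : ℕ → ℕ} (h1 : ∀ x, x < m → f x < m)
    (h2 : ∀ x y, x < m → y < m → f x = f y → x = y) : ((range m).map f).Perm (range m) := by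
  have hnd : ((range m).map f).Nodup := by
    refine List.Nodup.map_on ?_ List.nodup_range
    intro x hx y hy hxy
    exact h2 x y (List.mem_range.mp hx) (List.mem_range.mp hy) hxy
  have hsub : (range m).map f ⊆ range m := by
    intro y hy
    obtain ⟨x, hx, rfl⟩ := List.mem_map.mp hy
    exact List.mem_range.mpr (h1 x (List.mem_range.mp hx))
  exact (List.subperm_of_subset hnd hsub).perm_of_length_le (by simp)

theorem rl_app_map_range {m : ℕ} (f : ℕ → ℕ) {x : ℕ} (hx : x < m) :
    app ((range m).map f) x = f x := by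
  simp [app, hx]

theorem rl_getD_mem {L : List ℕ} {i : ℕ} (hi : i < L.length) : L.getD i 0 ∈ L := by
  rw [List.getD_eq_getElem _ _ hi]
  exact List.getElem_mem hi

theorem rl_idxOf_getD {L : List ℕ} (hL : L.Nodup) {i : ℕ} (hi : i < L.length) :
    L.idxOf (L.getD i 0) = i := by
  rw [List.getD_eq_getElem _ _ hi]
  exact hL.idxOf_getElem i hi

theorem rl_getD_idxOf {L : List ℕ} {x : ℕ} (hx : x ∈ L) : L.getD (L.idxOf x) 0 = x := by
  rw [List.getD_eq_getElem _ _ (List.idxOf_lt_length_iff.mpr hx)]
  exact List.getElem_idxOf (List.idxOf_lt_length_iff.mpr hx)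

theorem rl_getD_inj {L : List ℕ} (hL : L.Nodup) {i j : ℕ} (hi : i < L.length) (hj : j < L.length)
    (h : L.getD i 0 = L.getD j 0) : i = j := by
  rw [← rl_idxOf_getD hL hi, ← rl_idxOf_getD hL hj, h]

theorem rl_app_inj {m : ℕ} {p : List ℕ} (hp : p.Perm (range m)) {x y : ℕ} (hx : x < m) (hy : y < m)
    (h : app p x = app p y) : x = y := by
  have h1 : permOfL hp ⟨x, hx⟩ = permOfL hp ⟨y, hy⟩ := Fin.ext h
  exact congrArg Fin.val ((permOfL hp).injective h1)

/-! ### The map on nodes given by an assignment on the tails -/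

theorem rl_thetaL_mem {L p : List ℕ} (hp : p.Perm (range L.length)) {x : ℕ} (hx : x ∈ L) :
    thetaL L p x ∈ L := by
  unfold thetaL
  rw [if_pos hx]
  exact rl_getD_mem (app_lt_of_perm hp (List.idxOf_lt_length_iff.mpr hx))

theorem rl_thetaL_lt {L p : List ℕ} (hn : ∀ x ∈ L, x < n) (hp : p.Perm (range L.length)) {x : ℕ}
    (hx : x < n) : thetaL L p x < n := by
  by_cases hxL : x ∈ L
  · exact hn _ (rl_thetaL_mem hp hxL)
  · unfold thetaL
    rw [if_neg hxL]
    exact hx

theorem rl_thetaL_inj {L p : List ℕ} (hL : L.Nodup) (hp : p.Perm (range L.length)) {x y : ℕ}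
    (h : thetaL L p x = thetaL L p y) : x = y := by
  by_cases hx : x ∈ L <;> by_cases hy : y ∈ L
  · have h1 := h
    unfold thetaL at h1
    rw [if_pos hx, if_pos hy] at h1
    have hix := List.idxOf_lt_length_iff.mpr hx
    have hiy := List.idxOf_lt_length_iff.mpr hy
    have h2 := rl_getD_inj hL (app_lt_of_perm hp hix) (app_lt_of_perm hp hiy) h1
    have h3 := rl_app_inj hp hix hiy h2
    rw [← rl_getD_idxOf hx, ← rl_getD_idxOf hy, h3]
  · exfalso
    have h1 := rl_thetaL_mem hp hx
    rw [h] at h1
    unfold thetaL at h1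
    rw [if_neg hy] at h1
    exact hy h1
  · exfalso
    have h1 := rl_thetaL_mem hp hy
    rw [← h] at h1
    unfold thetaL at h1
    rw [if_neg hx] at h1
    exact hx h1
  · unfold thetaL at h
    rwa [if_neg hx, if_neg hy] at h

theorem rl_thetaL_perm {L p : List ℕ} (hL : L.Nodup) (hn : ∀ x ∈ L, x < n)
    (hp : p.Perm (range L.length)) : ((range n).map (thetaL L p)).Perm (range n) :=
  rl_perm_of_inj (fun _ hx => rl_thetaL_lt hn hp hx) (fun _ _ _ _ h => rl_thetaL_inj hL hp h)

/-- The permutation of the nodes given by an assignment on the tails. -/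
noncomputable def rlTheta {L p : List ℕ} (hL : L.Nodup) (hn : ∀ x ∈ L, x < n)
    (hp : p.Perm (range L.length)) : Equiv.Perm (Fin n) :=
  permOfL (rl_thetaL_perm hL hn hp)

theorem rlTheta_val {L p : List ℕ} (hL : L.Nodup) (hn : ∀ x ∈ L, x < n)
    (hp : p.Perm (range L.length)) (x : Fin n) :
    ((rlTheta hL hn hp x : Fin n) : ℕ) = thetaL L p x := by
  unfold rlTheta
  rw [permOfL_val, rl_app_map_range _ x.2]

/-! ### The weight of an assignment on the tails -/

theorem rl_sum_range_eq_sum_L {L : List ℕ} (hL : L.Nodup) (hn : ∀ x ∈ L, x < n) (f : ℕ → ℕ)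
    (hf : ∀ x, x < n → x ∉ L → f x = 0) :
    ((range n).map f).sum = ((range L.length).map (fun i => f (L.getD i 0))).sum := by
  classical
  have h1 : ((range n).map f).sum = ∑ x ∈ Finset.range n, f x := by
    rw [← List.toFinset_range, List.sum_toFinset _ List.nodup_range]
  have h2 : (L.map f).sum = ∑ x ∈ L.toFinset, f x := (List.sum_toFinset _ hL).symm
  have h3 : ∑ x ∈ L.toFinset, f x = ∑ x ∈ Finset.range n, f x := by
    apply Finset.sum_subset
    · intro x hx
      exact Finset.mem_range.mpr (hn x (List.mem_toFinset.mp hx))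
    · intro x hx hxL
      exact hf x (Finset.mem_range.mp hx) (fun h => hxL (List.mem_toFinset.mpr h))
  have h4 : L = (range L.length).map (fun i => L.getD i 0) := by
    apply List.ext_getElem
    · simp
    · intro i h5 h6
      simp only [List.getElem_map, List.getElem_range]
      rw [List.getD_eq_getElem _ _ h5]
  have h5 : (L.map f).sum = ((range L.length).map (fun i => f (L.getD i 0))).sum := by
    conv_lhs => rw [h4]
    rw [List.map_map]
    rfl
  rw [h1, ← h3, ← h2, h5]

theorem rl_mat_relMat (w : List (List ℕ)) (π L : List ℕ) {i j : ℕ} (hi : i < L.length)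
    (hj : j < L.length) :
    mat (relMat w π L) i j =
      if i = j then 0 else mat w (L.getD i 0) (app π (L.getD j 0)) := by
  simp [mat, relMat, hi, hj]

theorem rl_weightL_relMat (w : List (List ℕ)) (π : List ℕ) {L q : List ℕ} (hL : L.Nodup)
    (hn : ∀ x ∈ L, x < n) (hq : q.Perm (range L.length)) :
    weightL (relMat w π L) q = ((range n).map (hatL w π L q)).sum := by
  have hlen : (relMat w π L).length = L.length := by simp [relMat]
  rw [rl_sum_range_eq_sum_L hL hn]
  · unfold weightL
    rw [hlen]
    apply congrArg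
    apply List.map_congr_left
    intro i hi
    have hi' := List.mem_range.mp hi
    rw [rl_mat_relMat w π L hi' (app_lt_of_perm hq hi')]
    have hth : thetaL L q (L.getD i 0) = L.getD (app q i) 0 := by
      unfold thetaL
      rw [if_pos (rl_getD_mem hi'), rl_idxOf_getD hL hi']
    unfold hatL
    rw [hth]
    by_cases hc : i = app q i
    · rw [if_pos hc, if_pos (by rw [← hc])]
    · rw [if_neg hc, if_neg (fun h => hc (rl_getD_inj hL (app_lt_of_perm hq hi') hi' h).symm)]
  · intro x _ hxL
    unfold hatL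
    have : thetaL L q x = x := by
      unfold thetaL
      rw [if_neg hxL]
    rw [if_pos this]

/-! ### Relink -/

section

variable {S : St n} {π : List ℕ} {tl : List Bool}

theorem Rep.mem_tails (h : Rep S π tl) (x : Fin n) : (x : ℕ) ∈ tailsL tl ↔ S.tl x = true := by
  rw [rl_mem_tailsL, h.tlen, h.tl_eq]
  exact ⟨fun h1 => h1.2, fun h1 => ⟨x.2, h1⟩⟩

theorem Rep.tails_lt (h : Rep S π tl) : ∀ x ∈ tailsL tl, x < n := by
  intro x hx
  have := (rl_mem_tailsL.mp hx).1
  rwa [h.tlen] at this

theorem relP_perm (w : List (List ℕ)) (π : List ℕ) (tl : List Bool) :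
    (relP w (π, tl)).Perm (range (tailsL tl).length) := by
  have h := maxAssign_perm (relMat w π (tailsL tl))
  have hlen : (relMat w π (tailsL tl)).length = (tailsL tl).length := by simp [relMat]
  rw [hlen] at h
  exact h

/-- `θ` of the algorithm. -/
noncomputable def Rep.theta (h : Rep S π tl) (w : List (List ℕ)) : Equiv.Perm (Fin n) :=
  rlTheta (rl_nodup_tailsL tl) h.tails_lt (relP_perm w π tl)

theorem Rep.theta_val (h : Rep S π tl) (w : List (List ℕ)) (x : Fin n) :
    ((h.theta w x : Fin n) : ℕ) = thetaL (tailsL tl) (relP w (π, tl)) x :=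
  rlTheta_val _ _ _ x

theorem Rep.theta_fixNon (h : Rep S π tl) (w : List (List ℕ)) : FixNon S (h.theta w) := by
  intro x hx
  apply Fin.ext
  rw [h.theta_val w x]
  unfold thetaL
  rw [if_neg]
  rw [h.mem_tails]
  rw [hx]
  simp

/-- The hat values of a list assignment. -/
theorem Rep.hatL_eq (h : Rep S π tl) (w : List (List ℕ)) {q : List ℕ} {θ : Equiv.Perm (Fin n)}
    (hθ : ∀ x : Fin n, ((θ x : Fin n) : ℕ) = thetaL (tailsL tl) q x) (x : Fin n) :
    hatL w π (tailsL tl) q x = hat (matF w) S.π θ x := by
  unfold hatL hat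
  rw [← hθ x]
  by_cases hc : θ x = x
  · rw [if_pos hc, if_pos (by rw [hc])]
  · rw [if_neg hc, if_neg (fun h1 => hc (Fin.ext h1))]
    rw [h.app_eq (θ x)]
    rfl

theorem Rep.sum_hat_eq (h : Rep S π tl) (w : List (List ℕ)) {q : List ℕ}
    (hq : q.Perm (range (tailsL tl).length)) {θ : Equiv.Perm (Fin n)}
    (hθ : ∀ x : Fin n, ((θ x : Fin n) : ℕ) = thetaL (tailsL tl) q x) :
    ∑ x, hat (matF w) S.π θ x = weightL (relMat w π (tailsL tl)) q := by
  rw [rl_weightL_relMat w π (rl_nodup_tailsL tl) h.tails_lt hq, sum_range_map]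
  exact Finset.sum_congr rfl fun x _ => (h.hatL_eq w hθ x).symm

/-- The optimality of the assignment of the algorithm. -/
theorem Rep.theta_opt (h : Rep S π tl) (w : List (List ℕ)) (θ' : Equiv.Perm (Fin n))
    (hθ' : FixNon S θ') : ∑ x, hat (matF w) S.π θ' x ≤ ∑ x, hat (matF w) S.π (h.theta w) x := by
  classical
  set L := tailsL tl with hLdef
  have hLnd : L.Nodup := rl_nodup_tailsL tl
  have hn := h.tails_lt
  -- the map `θ'` on natural numbers
  let F : ℕ → ℕ := fun x => if hx : x < n then ((θ' ⟨x, hx⟩ : Fin n) : ℕ) else x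
  have hF : ∀ x : Fin n, F x = θ' x := by
    intro x
    simp only [F, x.2, dif_pos]
  have hFmem : ∀ x ∈ L, F x ∈ L := by
    intro x hx
    have hxn := hn x hx
    have h1 : F x = ((θ' ⟨x, hxn⟩ : Fin n) : ℕ) := hF ⟨x, hxn⟩
    rw [h1, h.mem_tails]
    by_contra hc
    have hc' : S.tl (θ' ⟨x, hxn⟩) = false := by simpa using hc
    have h2 := hθ' _ hc'
    have h3 : θ' ⟨x, hxn⟩ = ⟨x, hxn⟩ := θ'.injective h2
    rw [h3] at hc
    exact hc ((h.mem_tails ⟨x, hxn⟩).mp hx)
  have hFinj : ∀ x y, x ∈ L → y ∈ L → F x = F y → x = y := by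
    intro x y hx hy hxy
    have hxn := hn x hx
    have hyn := hn y hy
    have h1 : F x = ((θ' ⟨x, hxn⟩ : Fin n) : ℕ) := hF ⟨x, hxn⟩
    have h2 : F y = ((θ' ⟨y, hyn⟩ : Fin n) : ℕ) := hF ⟨y, hyn⟩
    rw [h1, h2] at hxy
    exact congrArg Fin.val (θ'.injective (Fin.ext hxy))
  let g : ℕ → ℕ := fun r => L.idxOf (F (L.getD r 0))
  have hq : ((range L.length).map g).Perm (range L.length) := by
    apply rl_perm_of_inj
    · intro r hr
      exact List.idxOf_lt_length_iff.mpr (hFmem _ (rl_getD_mem hr))
    · intro r r' hr hr' hgg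
      have hm := hFmem _ (rl_getD_mem hr)
      have hm' := hFmem _ (rl_getD_mem hr')
      have h1 : F (L.getD r 0) = F (L.getD r' 0) := by
        rw [← rl_getD_idxOf hm, ← rl_getD_idxOf hm']
        exact congrArg (fun i => L.getD i 0) hgg
      exact rl_getD_inj hLnd hr hr' (hFinj _ _ (rl_getD_mem hr) (rl_getD_mem hr') h1)
  have hθq : ∀ x : Fin n, ((θ' x : Fin n) : ℕ) = thetaL L ((range L.length).map g) x := by
    intro x
    unfold thetaL
    by_cases hx : (x : ℕ) ∈ L
    · rw [if_pos hx, rl_app_map_range g (List.idxOf_lt_length_iff.mpr hx)]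
      simp only [g]
      rw [rl_getD_idxOf hx, rl_getD_idxOf (hFmem _ hx)]
      exact (hF x).symm
    · rw [if_neg hx]
      have hc : S.tl x = false := by
        rw [h.mem_tails x] at hx
        simpa using hx
      rw [hθ' x hc]
  rw [h.sum_hat_eq w hq hθq, h.sum_hat_eq w (relP_perm w π tl) (h.theta_val w)]
  exact maxAssign_opt _ (by
    have hlen : (relMat w π L).length = L.length := by simp [relMat]
    rw [hlen]
    exact hq)

theorem rl_lexB_iff (a b : ℕ) (x y : Fin n) : lexB a x b y = true ↔ lexLe a x b y := by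
  unfold lexB lexLe
  simp only [Bool.or_eq_true, Bool.and_eq_true, decide_eq_true_eq, Fin.le_def]

theorem Rep.relRho_perm (h : Rep S π tl) (w : List (List ℕ)) :
    (relink w (π, tl)).1.Perm (range n) := by
  have hlen : π.length = n := length_of_perm h.perm
  show (relRho w (π, tl)).Perm (range n)
  unfold relRho
  simp only
  rw [hlen]
  apply rl_perm_of_inj
  · intro x hx
    have h1 := rl_thetaL_lt h.tails_lt (relP_perm w π tl) hx
    exact app_lt_of_perm h.perm h1
  · intro x y hx hy hxy
    have h1 := rl_thetaL_lt h.tails_lt (relP_perm w π tl) hx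
    have h2 := rl_thetaL_lt h.tails_lt (relP_perm w π tl) hy
    have h3 := rl_app_inj h.perm h1 h2 hxy
    exact rl_thetaL_inj (rl_nodup_tailsL tl) (relP_perm w π tl) h3

theorem Rep.app_relRho (h : Rep S π tl) (w : List (List ℕ)) (x : Fin n) :
    app (relink w (π, tl)).1 x = (rho S.π (h.theta w)) x := by
  have hlen : π.length = n := length_of_perm h.perm
  show app (relRho w (π, tl)) x = _
  unfold relRho
  simp only
  rw [hlen, rl_app_map_range _ x.2, ← h.theta_val w x, h.app_eq (h.theta w x)]
  rfl

theorem Rep.rel_rep (h : Rep S π tl) (w : List (List ℕ)) :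
    Rep (S.relink (matF w) (h.theta w) (h.theta_fixNon w)) (relink w (π, tl)).1
      (relink w (π, tl)).2 := by
  classical
  have hlen : π.length = n := length_of_perm h.perm
  have hperm := h.relRho_perm w
  refine ⟨hperm, ?_, fun x => h.app_relRho w x, ?_⟩
  · show (relTl w (π, tl)).length = n
    simp [relTl, hlen]
  · intro x
    show (relTl w (π, tl)).getD x false = newTl (matF w) S (h.theta w) x
    have hx := x.2
    have e1 : (relTl w (π, tl)).getD x false =
        (tl.getD x false && (iterL (relRho w (π, tl)) x).all (fun y => !(tl.getD y false) ||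
          lexB (hatL w π (tailsL tl) (relP w (π, tl)) x) x
            (hatL w π (tailsL tl) (relP w (π, tl)) y) y)) := by
      simp [relTl, hlen, hx]
    rw [e1, Bool.eq_iff_iff]
    unfold newTl
    rw [decide_eq_true_iff, Bool.and_eq_true, List.all_eq_true, h.tl_eq x]
    -- the permutation of `relRho`
    have hrho : permOfL hperm = rho S.π (h.theta w) := by
      apply Equiv.ext
      intro y
      apply Fin.ext
      rw [permOfL_val]
      exact h.app_relRho w y
    have hper' : (relRho w (π, tl)).Perm (range n) := hperm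
    have hrho' : permOfL hper' = rho S.π (h.theta w) := hrho
    refine and_congr_right fun _ => ?_
    constructor
    · intro hall y hy hty
      have hmem : (y : ℕ) ∈ iterL (relRho w (π, tl)) x := by
        rw [mem_iterL hper', hrho']
        exact hy
      have h1 := hall y hmem
      rw [Bool.or_eq_true] at h1
      rcases h1 with h1 | h1
      · rw [h.tl_eq y, hty] at h1
        simp at h1
      · rw [rl_lexB_iff] at h1
        rw [h.hatL_eq w (h.theta_val w) x, h.hatL_eq w (h.theta_val w) y] at h1
        exact h1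
    · intro hall y hy
      have hyn : y < n := iterL_lt hper' hx hy
      have hmem : ((⟨y, hyn⟩ : Fin n) : ℕ) ∈ iterL (relRho w (π, tl)) x := hy
      rw [mem_iterL hper', hrho'] at hmem
      rw [Bool.or_eq_true]
      by_cases hty : S.tl ⟨y, hyn⟩ = true
      · right
        have h1 := hall ⟨y, hyn⟩ hmem hty
        have h2 := h.hatL_eq w (h.theta_val w) x
        have h3 := h.hatL_eq w (h.theta_val w) ⟨y, hyn⟩
        have h4 : lexB (hatL w π (tailsL tl) (relP w (π, tl)) x) x
            (hatL w π (tailsL tl) (relP w (π, tl)) (⟨y, hyn⟩ : Fin n)) (⟨y, hyn⟩ : Fin n) = true := by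
          rw [rl_lexB_iff, h2, h3]
          exact h1
        exact h4
      · left
        have h1 := h.tl_eq ⟨y, hyn⟩
        have h2 : tl.getD y false = S.tl ⟨y, hyn⟩ := h1
        rw [h2]
        simpa using hty

end

theorem relink_rep (w : List (List ℕ)) (S : St n) {π : List ℕ} {tl : List Bool} (h : Rep S π tl) :
    ∃ (θ : Equiv.Perm (Fin n)) (hθ : FixNon S θ),
      Rep (S.relink (matF w) θ hθ) (relink w (π, tl)).1 (relink w (π, tl)).2 ∧
      ∀ θ', FixNon S θ' → ∑ x, hat (matF w) S.π θ' x ≤ ∑ x, hat (matF w) S.π θ x :=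
  ⟨h.theta w, h.theta_fixNon w, h.rel_rep w, fun θ' hθ' => h.theta_opt w θ' hθ'⟩

/-- The use of `relink`: at least half of the weight of usable arcs is gained. -/
theorem relink_usable (w : List (List ℕ)) (S : St n) {π : List ℕ} {tl : List Bool} (h : Rep S π tl)
    {U : List (Fin n × Fin n)} (hU : Usable S U) :
    2 * realL w (π, tl) + sumU (matF w) U ≤ 2 * realL w (relink w (π, tl)) := by
  obtain ⟨θ, hθ, hrep, hopt⟩ := relink_rep w S h
  obtain ⟨θ', hθ', hle⟩ := usable_ext (matF w) S hU
  have h1 := hopt θ' hθ'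
  have h2 := real_relink (matF w) S hθ
  have h3 : realL w (relink w (π, tl)) = (S.relink (matF w) θ hθ).real (matF w) := by
    have := realL_eq w hrep
    simpa using this
  rw [h3, realL_eq w h]
  omega

/-- The result of `relink` is a path system. -/
theorem relink_ex (w : List (List ℕ)) (S : St n) {π : List ℕ} {tl : List Bool} (h : Rep S π tl) :
    ∃ S' : St n, Rep S' (relink w (π, tl)).1 (relink w (π, tl)).2 := by
  obtain ⟨θ, hθ, hrep, -⟩ := relink_rep w S h
  exact ⟨_, hrep⟩

/-- The first level. -/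
theorem level1_of_relink (w : List (List ℕ)) :
    ∃ S : St n, Rep S (relink w (initSt n)).1 (relink w (initSt n)).2 ∧ L1 (matF w) S := by
  have h0 : Rep (St.init n) (initSt n).1 (initSt n).2 := rep_init
  obtain ⟨θ, hθ, hrep, hopt⟩ := relink_rep w (St.init n) h0
  have hπ : (St.init n).π = 1 := rfl
  have hrho : rho (1 : Equiv.Perm (Fin n)) θ = θ := by
    exact Equiv.ext fun x => rfl
  refine ⟨(St.init n).relink (matF w) θ hθ, hrep, ?_, ?_⟩
  · intro q
    have hq : FixNon (St.init n) q := by
      intro x hx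
      simp [St.init] at hx
    have h1 := hopt q hq
    rw [hπ] at h1
    have h2 : ((St.init n).relink (matF w) θ hθ).π = θ := hrho
    rw [h2]
    exact h1
  · intro x y hx hxy
    have h2 : ((St.init n).relink (matF w) θ hθ).π = θ := hrho
    rw [h2] at hxy ⊢
    have h3 : newTl (matF w) (St.init n) θ x = true := hx
    unfold newTl at h3
    rw [decide_eq_true_iff] at h3
    have h4 := h3.2 y (by rw [hπ, hrho]; exact hxy) rfl
    rw [hπ] at h4
    rcases h4 with h5 | h5
    · exact h5.le
    · exact h5.1.le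

end Vale.Agent.Lib.P333F
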