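import Vale.Agent.Lib.P333F.Walk

/-!
(part ROT) Rotating an assignment along a closed walk without repeated vertices.
-/

namespace Vale.Agent.Lib.P333F

open List (range)

variable {n : ℕ} {p : List ℕ}

theorem rot_cl_eq {n y : ℕ} (h : y < n) : cl n y = y := by
  unfold cl; rw [if_pos h.le]

theorem rot_app_map (n : ℕ) (F : ℕ → ℕ) {x : ℕ} (hx : x < n) :
    app ((range n).map F) x = F x := by
  unfold app
  rw [List.getD_eq_getElem _ _ (by simpa using hx)]
  simp

theorem rot_app_inj (h : p.Perm (range n)) {a b : ℕ} (ha : a < n) (hb : b < n)
    (hab : app p a = app p b) : a = b := by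
  have hlen : p.length = n := length_of_perm h
  have hnd : p.Nodup := h.nodup_iff.2 List.nodup_range
  unfold app at hab
  rw [List.getD_eq_getElem _ _ (by omega), List.getD_eq_getElem _ _ (by omega)] at hab
  exact (hnd.getElem_inj_iff).1 hab

theorem rotL_nil (h : p.Perm (range n)) : rotL n p [] = p := by
  have hlen : p.length = n := length_of_perm h
  apply List.ext_getElem
  · simp [rotL, hlen]
  · intro i h1 h2
    have hi : i < n := by simpa [rotL] using h1
    simp only [rotL, List.getElem_map, List.getElem_range]
    simp only [List.not_mem_nil, if_false]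
    rw [rot_cl_eq (app_lt_of_perm h hi)]
    unfold app
    rw [List.getD_eq_getElem _ _ (by omega)]

theorem prevL_mem {rv : List ℕ} {x : ℕ} (hx : x ∈ rv) : prevL rv x ∈ rv := by
  have hpos : 0 < rv.length := List.length_pos_of_mem hx
  have hi : rv.idxOf x < rv.length := List.idxOf_lt_length_of_mem hx
  unfold prevL
  split_ifs with h0
  · rw [List.getD_eq_getElem _ _ (by omega)]; exact List.getElem_mem _
  · rw [List.getD_eq_getElem _ _ (by omega)]; exact List.getElem_mem _

theorem prevL_inj {rv : List ℕ} (hnd : rv.Nodup) {x y : ℕ} (hx : x ∈ rv) (hy : y ∈ rv)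
    (h : prevL rv x = prevL rv y) : x = y := by
  have hpos : 0 < rv.length := List.length_pos_of_mem hx
  have hi : rv.idxOf x < rv.length := List.idxOf_lt_length_of_mem hx
  have hj : rv.idxOf y < rv.length := List.idxOf_lt_length_of_mem hy
  have key : rv.idxOf x = rv.idxOf y := by
    unfold prevL at h
    split_ifs at h with h0 h1 h1
    · omega
    · rw [List.getD_eq_getElem _ _ (by omega), List.getD_eq_getElem _ _ (by omega)] at h
      have := (hnd.getElem_inj_iff).1 h
      omega
    · rw [List.getD_eq_getElem _ _ (by omega), List.getD_eq_getElem _ _ (by omega)] at h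
      have := (hnd.getElem_inj_iff).1 h
      omega
    · rw [List.getD_eq_getElem _ _ (by omega), List.getD_eq_getElem _ _ (by omega)] at h
      have := (hnd.getElem_inj_iff).1 h
      omega
  rw [← List.getElem_idxOf hi, ← List.getElem_idxOf hj]
  simp [key]

theorem rotL_perm (h : p.Perm (range n)) {rv : List ℕ} (hnd : rv.Nodup) (hv : ∀ v ∈ rv, v < n) :
    (rotL n p rv).Perm (range n) := by
  -- the shift map
  set g : ℕ → ℕ := fun x => if x ∈ rv then prevL rv x else x with hg
  have hglt : ∀ x, x < n → g x < n := by
    intro x hx
    simp only [hg]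
    split_ifs with hm
    · exact hv _ (prevL_mem hm)
    · exact hx
  have hginj : ∀ x y, g x = g y → x = y := by
    intro x y hxy
    simp only [hg] at hxy
    split_ifs at hxy with h1 h2 h2
    · exact prevL_inj hnd h1 h2 hxy
    · exact absurd (hxy ▸ prevL_mem h1) h2
    · exact absurd (hxy.symm ▸ prevL_mem h2) h1
    · exact hxy
  have heq : rotL n p rv = (range n).map (fun x => app p (g x)) := by
    unfold rotL
    apply List.map_congr_left
    intro x hx
    have hx' : x < n := by simpa using hx
    have : (if x ∈ rv then app p (prevL rv x) else app p x) = app p (g x) := by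
      simp only [hg]; split_ifs <;> rfl
    rw [this, rot_cl_eq (app_lt_of_perm h (hglt x hx'))]
  rw [heq]
  have hnd' : ((range n).map (fun x => app p (g x))).Nodup := by
    apply List.Nodup.map_on _ List.nodup_range
    intro x hx y hy hxy
    have hx' : x < n := by simpa using hx
    have hy' : y < n := by simpa using hy
    exact hginj _ _ (rot_app_inj h (hglt x hx') (hglt y hy') hxy)
  have hsub : ((range n).map (fun x => app p (g x))).Subperm (range n) := by
    apply List.subperm_of_subset hnd'
    intro a ha
    obtain ⟨x, hx, rfl⟩ := List.mem_map.1 ha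
    have hx' : x < n := by simpa using hx
    simpa using app_lt_of_perm h (hglt x hx')
  exact hsub.perm_of_length_le (by simp)

theorem rot_getD_le_sum (l : List ℕ) (j : ℕ) : l.getD j 0 ≤ l.sum := by
  induction l generalizing j with
  | nil => simp
  | cons a l ih =>
    cases j with
    | zero => simp
    | succ j =>
      have := ih j
      simp only [List.getD_cons_succ, List.sum_cons]
      omega

theorem rot_row_le (W : List (List ℕ)) (i : ℕ) : (W.getD i []).sum ≤ (W.map List.sum).sum := by
  induction W generalizing i with
  | nil => simp
  | cons a W ih =>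
    cases i with
    | zero => simp
    | succ i =>
      have := ih i
      simp only [List.getD_cons_succ, List.map_cons, List.sum_cons]
      omega

theorem mat_le_bigM (W : List (List ℕ)) (i j : ℕ) : mat W i j < bigM W := by
  unfold mat bigM
  have h1 := rot_getD_le_sum (W.getD i []) j
  have h2 := rot_row_le W i
  omega

theorem weightL_lt_bigM (W : List (List ℕ)) (p : List ℕ) : weightL W p < bigM W := by
  unfold weightL bigM
  have h1 : ((range W.length).map (fun i => mat W i (app p i))).sum ≤
      ((range W.length).map (fun i => (W.getD i []).sum)).sum := by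
    apply List.sum_le_sum
    intro i _
    exact rot_getD_le_sum _ _
  have h2 : (range W.length).map (fun i => (W.getD i []).sum) = W.map List.sum := by
    apply List.ext_getElem
    · simp
    · intro i h1 h2
      have hi : i < W.length := by simpa using h1
      simp only [List.getElem_map, List.getElem_range]
      rw [List.getD_eq_getElem _ _ hi]
  rw [h2] at h1
  omega

/-- Consecutive elements: the sum over the tail along the predecessor map is a path weight. -/
theorem rot_chain_sum (c : ℕ → ℕ → ℕ) (P : ℕ → ℕ) (l : List ℕ) (v : ℕ)
    (h : ∀ (s : ℕ) (hs : s < l.length), P l[s] = (v :: l).getD s 0) :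
    (l.map (fun x => c x (P x))).sum = pathW (fun b a => c a b) (v :: l) := by
  induction l generalizing v with
  | nil => simp [pathW]
  | cons x l ih =>
    have h0 : P x = v := by
      have := h 0 (by simp)
      simpa only [List.getElem_cons_zero, List.getD_cons_zero] using this
    have h1 : (l.map (fun x => c x (P x))).sum = pathW (fun b a => c a b) (x :: l) := by
      apply ih x
      intro s hs
      have := h (s + 1) (by simpa using hs)
      simpa using this
    simp only [List.map_cons, List.sum_cons, pathW, h0, h1]

/-- The value of a closed walk without repeated vertices is the sum over its vertices. -/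
theorem cycV_eq_sum (c : ℕ → ℕ → ℕ) {rv : List ℕ} (hne : rv ≠ []) (hnd : rv.Nodup) :
    cycV c rv = (rv.map (fun x => c x (prevL rv x))).sum := by
  obtain ⟨v, tl, rfl⟩ := List.exists_cons_of_ne_nil hne
  have hchain : ∀ (s : ℕ) (hs : s < tl.length), prevL (v :: tl) tl[s] = (v :: tl).getD s 0 := by
    intro s hs
    have hidx : (v :: tl).idxOf tl[s] = s + 1 := by
      have := hnd.idxOf_getElem (s + 1) (by simpa using hs)
      simpa using this
    unfold prevL
    rw [hidx]
    simp
  have h1 := rot_chain_sum c (prevL (v :: tl)) tl v hchain
  have h2 : prevL (v :: tl) v = (v :: tl).getD ((v :: tl).length - 1) 0 := by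
    unfold prevL
    simp
  unfold cycV
  simp only [List.map_cons, List.sum_cons]
  rw [h1, h2]
  simp only [List.getD_cons_zero]
  omega

theorem rot_sum_split (F : ℕ → ℕ) {rv : List ℕ} (hnd : rv.Nodup) (hv : ∀ v ∈ rv, v < n) :
    ((range n).map F).sum = (rv.map F).sum + (((range n).filter (· ∉ rv)).map F).sum := by
  have hp : (range n).Perm (rv ++ (range n).filter (· ∉ rv)) := by
    apply (List.perm_ext_iff_of_nodup List.nodup_range _).2
    · intro a
      simp only [List.mem_range, List.mem_append, List.mem_filter, decide_eq_true_eq]
      constructor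
      · intro ha
        by_cases hm : a ∈ rv
        · exact Or.inl hm
        · exact Or.inr ⟨ha, hm⟩
      · rintro (hm | ⟨ha, _⟩)
        · exact hv a hm
        · exact ha
    · apply List.Nodup.append hnd (List.nodup_range.filter _)
      intro a h1 h2
      simp only [List.mem_filter, decide_eq_true_eq] at h2
      exact h2.2 h1
  have := (hp.map F).sum_eq
  rw [this, List.map_append, List.sum_append]

theorem rot_sum_pointwise (f g h : ℕ → ℕ) (M : ℕ) (l : List ℕ)
    (H : ∀ x ∈ l, f x + g x = h x + M) :
    (l.map f).sum + (l.map g).sum = (l.map h).sum + l.length * M := by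
  induction l with
  | nil => simp
  | cons a l ih =>
    have h1 := H a (by simp)
    have h2 := ih (fun x hx => H x (by simp [hx]))
    simp only [List.map_cons, List.sum_cons, List.length_cons, Nat.succ_mul]
    omega

theorem rotL_weight (W : List (List ℕ)) (h : p.Perm (range W.length)) {rv : List ℕ} (hne : rv ≠ [])
    (hnd : rv.Nodup) (hv : ∀ v ∈ rv, v < W.length) :
    weightL W (rotL W.length p rv) + rv.length * bigM W = weightL W p + cycV (arcC W p) rv := by
  -- the three sums
  set A : ℕ → ℕ := fun i => mat W i (app p i) with hA
  set B : ℕ → ℕ := fun i => mat W i (app p (prevL rv i)) with hB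
  set T : ℕ → ℕ := fun i => mat W i (app (rotL W.length p rv) i) with hT
  have hT' : ∀ x, x < W.length → T x = if x ∈ rv then B x else A x := by
    intro x hx
    simp only [hT, hA, hB]
    have : app (rotL W.length p rv) x =
        cl W.length (if x ∈ rv then app p (prevL rv x) else app p x) := by
      unfold rotL
      exact rot_app_map _ _ hx
    rw [this]
    by_cases hm : x ∈ rv
    · rw [if_pos hm, if_pos hm, rot_cl_eq (app_lt_of_perm h (hv _ (prevL_mem hm)))]
    · rw [if_neg hm, if_neg hm, rot_cl_eq (app_lt_of_perm h hx)]
  have h1 := rot_sum_split (n := W.length) T hnd hv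
  have h2 := rot_sum_split (n := W.length) A hnd hv
  have h3 : (rv.map T).sum = (rv.map B).sum := by
    congr 1
    apply List.map_congr_left
    intro x hx
    rw [hT' x (hv x hx), if_pos hx]
  have h4 : (((range W.length).filter (· ∉ rv)).map T).sum =
      (((range W.length).filter (· ∉ rv)).map A).sum := by
    congr 1
    apply List.map_congr_left
    intro x hx
    simp only [List.mem_filter, List.mem_range, decide_eq_true_eq] at hx
    rw [hT' x hx.1, if_neg hx.2]
  have h5 : (rv.map (fun x => arcC W p x (prevL rv x))).sum + (rv.map A).sum =
      (rv.map B).sum + rv.length * bigM W := by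
    apply rot_sum_pointwise
    intro x _
    simp only [arcC, hA, hB]
    have := mat_le_bigM W x (app p x)
    omega
  have h6 := cycV_eq_sum (arcC W p) hne hnd
  unfold weightL
  rw [h6]
  show ((range W.length).map T).sum + _ = ((range W.length).map A).sum + _
  omega

end Vale.Agent.Lib.P333F
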