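import Vale.Agent.Lib.P333F.Defs
import Vale.Agent.Lib.P333.Order

/-!
(part STRBASE) List level strings against the definitions of Lib/P333.
-/

namespace Vale.Agent.Lib.P333F

open List (range)
open Vale.Agent.Lib.P333

variable {α : Type} [DecidableEq α]

/-- The list maximum is the supremum over the underlying finite set. -/
theorem maxL_eq_sup (l : List ℕ) : maxL l = l.toFinset.sup id := by
  classical
  rcases List.eq_nil_or_concat l with rfl | _
  · simp [maxL, bestBy]
  have hne : l.toFinset.Nonempty := by
    rcases l with _ | ⟨a, l⟩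
    · simp_all
    · exact ⟨a, by simp⟩
  obtain ⟨m, hm, hm2⟩ := Finset.exists_mem_eq_sup _ hne (id : ℕ → ℕ)
  rw [hm2]
  simp only [id] at hm2 ⊢
  have hmem : m ∈ l := List.mem_toFinset.mp hm
  have hle : ∀ y ∈ l, y ≤ m := by
    intro y hy
    have := Finset.le_sup (f := (id : ℕ → ℕ)) (List.mem_toFinset.mpr hy)
    simpa [hm2] using this
  have hin : m ∈ l.filter (fun x => l.all (fun y => decide (y ≤ x))) := by
    refine List.mem_filter.mpr ⟨hmem, ?_⟩
    simp only [List.all_eq_true, decide_eq_true_eq]
    exact hle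
  have hall : ∀ x ∈ l.filter (fun x => l.all (fun y => decide (y ≤ x))), x = m := by
    intro x hx
    obtain ⟨hx1, hx2⟩ := List.mem_filter.mp hx
    simp only [List.all_eq_true, decide_eq_true_eq] at hx2
    exact le_antisymm (hle x hx1) (hx2 m hmem)
  unfold maxL bestBy
  rcases hf : l.filter (fun x => l.all (fun y => decide (y ≤ x))) with _ | ⟨a, t⟩
  · rw [hf] at hin
    simp at hin
  · rw [hf] at hall
    simpa using hall a (by simp)

theorem ovL_eq (a b : List α) : ovL a b = ov a b := by
  unfold ovL ov
  rw [maxL_eq_sup]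
  congr 1
  ext k
  simp [List.mem_toFinset, Finset.mem_filter]

theorem ov_le_right' (a b : List α) : ov a b ≤ b.length := by
  by_cases ha : a = []
  · subst ha
    simp [ov]
  · exact ov_le_right b ha

theorem mergeL_eq (l : List (List α)) : mergeL l = mergeAll l := by
  induction l with
  | nil => simp [mergeL, mergeAll]
  | cons a L ih =>
    cases L with
    | nil => simp [mergeL, mergeAll]
    | cons b L =>
      have h1 : mergeL (a :: b :: L) =
          a ++ b.drop (ovL a b) ++ ((b :: L).zip L).flatMap (fun e => e.2.drop (ovL e.1 e.2)) := by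
        simp [mergeL, List.append_assoc]
      have h2 : mergeL (b :: L) =
          b ++ ((b :: L).zip L).flatMap (fun e => e.2.drop (ovL e.1 e.2)) := by
        simp [mergeL]
      show _ = a ++ (mergeAll (b :: L)).drop (ov a b)
      rw [← ih, h1, h2, ovL_eq, List.drop_append_of_le_length (ov_le_right' a b), List.append_assoc]

theorem isFac_iff (a b : List α) : isFac a b = true ↔ a <:+: b := by
  unfold isFac
  simp only [List.any_eq_true, List.mem_range, decide_eq_true_eq]
  constructor
  · rintro ⟨i, -, hi⟩
    have h1 : a <+: b.drop i := by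
      rw [← hi]
      exact List.take_prefix _ _
    exact h1.isInfix.trans (List.drop_suffix _ _).isInfix
  · rintro ⟨s, t, rfl⟩
    refine ⟨s.length, ?_, ?_⟩
    · simp
    · rw [List.append_assoc, List.drop_left]
      simp

theorem mem_antichain {S : List (List α)} {x : List α} :
    x ∈ antichainL S ↔ ∃ i, i < S.length ∧ keepS S i = true ∧ S.getD i [] = x := by
  unfold antichainL
  simp only [List.mem_map, List.mem_filter, List.mem_range]
  constructor
  · rintro ⟨i, ⟨h1, h2⟩, h3⟩
    exact ⟨i, h1, h2, h3⟩
  · rintro ⟨i, h1, h2, h3⟩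
    exact ⟨i, ⟨h1, h2⟩, h3⟩

theorem keepS_ne {S : List (List α)} {i : ℕ} (h : keepS S i = true) : S.getD i [] ≠ [] := by
  unfold keepS at h
  simp only [Bool.and_eq_true, decide_eq_true_eq] at h
  exact h.1

theorem keepS_free {S : List (List α)} {i j : ℕ} (h : keepS S i = true) (hj : j < S.length)
    (hij : j ≠ i) (hf : S.getD i [] <:+: S.getD j []) :
    S.getD j [] = S.getD i [] ∧ i < j := by
  unfold keepS at h
  simp only [Bool.and_eq_true, List.all_eq_true, List.mem_range, Bool.or_eq_true,
    decide_eq_true_eq, Bool.not_eq_true'] at h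
  rcases h.2 j hj with (h1 | h2) | h3
  · exact absurd h1 hij
  · rw [(isFac_iff _ _).mpr hf] at h2
    simp at h2
  · exact h3

theorem antichain_ne (S : List (List α)) : ∀ x ∈ antichainL S, x ≠ [] := by
  intro x hx
  obtain ⟨i, -, h2, rfl⟩ := mem_antichain.mp hx
  exact keepS_ne h2

theorem antichain_free (S : List (List α)) {i j : ℕ} (hi : i < (antichainL S).length)
    (hj : j < (antichainL S).length) (hij : i ≠ j) :
    ¬ (antichainL S).getD i [] <:+: (antichainL S).getD j [] := by
  intro hf
  set I := (range S.length).filter (keepS S) with hI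
  have hnd : I.Nodup := (List.nodup_range).filter _
  have hA : antichainL S = I.map (fun k => S.getD k []) := rfl
  have hlen : (antichainL S).length = I.length := by simp [hA]
  have hi' : i < I.length := hlen ▸ hi
  have hj' : j < I.length := hlen ▸ hj
  have hgi : (antichainL S).getD i [] = S.getD (I[i]) [] := by
    rw [hA]
    simp [List.getD_eq_getElem?_getD, hi']
  have hgj : (antichainL S).getD j [] = S.getD (I[j]) [] := by
    rw [hA]
    simp [List.getD_eq_getElem?_getD, hj']
  rw [hgi, hgj] at hf
  have hmi : I[i] ∈ I := List.getElem_mem _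
  have hmj : I[j] ∈ I := List.getElem_mem _
  obtain ⟨hi1, hi2⟩ := List.mem_filter.mp hmi
  obtain ⟨hj1, hj2⟩ := List.mem_filter.mp hmj
  have hne : I[j] ≠ I[i] := by
    intro h
    exact hij ((List.Nodup.getElem_inj_iff hnd).mp h.symm)
  obtain ⟨h1, h2⟩ := keepS_free hi2 (List.mem_range.mp hj1) hne hf
  have hf2 : S.getD (I[j]) [] <:+: S.getD (I[i]) [] := by
    rw [h1]
  obtain ⟨-, h3⟩ := keepS_free hj2 (List.mem_range.mp hi1) hne.symm hf2
  omega

theorem antichain_cover (S : List (List α)) {s : List α} (hs : s ∈ S) (hne : s ≠ []) :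
    ∃ x ∈ antichainL S, s <:+: x := by
  classical
  set F := (Finset.range S.length).filter (fun i => s <:+: S.getD i []) with hF
  obtain ⟨i0, hi0⟩ := List.getElem_of_mem hs
  obtain ⟨hi0lt, hi0eq⟩ := hi0
  have hF0 : i0 ∈ F := by
    refine Finset.mem_filter.mpr ⟨Finset.mem_range.mpr hi0lt, ?_⟩
    simp [List.getD_eq_getElem?_getD, hi0lt, hi0eq]
  obtain ⟨i1, hi1, hmax⟩ := Finset.exists_max_image F (fun i => (S.getD i []).length) ⟨i0, hF0⟩
  let P : ℕ → Prop := fun i => i ∈ F ∧ ∀ j ∈ F, (S.getD j []).length ≤ (S.getD i []).length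
  have hP : ∃ i, P i := ⟨i1, hi1, hmax⟩
  obtain ⟨i, hPi, hmin⟩ : ∃ i, P i ∧ ∀ j, P j → i ≤ j :=
    ⟨Nat.find hP, Nat.find_spec hP, fun j hj => Nat.find_min' hP hj⟩
  obtain ⟨hiF, himax⟩ := hPi
  obtain ⟨hilt, his⟩ := Finset.mem_filter.mp hiF
  have hilt' := Finset.mem_range.mp hilt
  refine ⟨S.getD i [], mem_antichain.mpr ⟨i, hilt', ?_, rfl⟩, his⟩
  unfold keepS
  simp only [Bool.and_eq_true, List.all_eq_true, List.mem_range, Bool.or_eq_true,
    decide_eq_true_eq, Bool.not_eq_true']
  refine ⟨?_, ?_⟩
  · intro h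
    rw [h] at his
    exact hne (List.eq_nil_of_infix_nil his)
  · intro j hj
    by_cases hji : j = i
    · exact Or.inl (Or.inl hji)
    by_cases hfac : S.getD i [] <:+: S.getD j []
    · right
      have hjF : j ∈ F := Finset.mem_filter.mpr ⟨Finset.mem_range.mpr hj, his.trans hfac⟩
      have hlen := himax j hjF
      have heq : S.getD i [] = S.getD j [] := hfac.eq_of_length_le hlen
      refine ⟨heq.symm, ?_⟩
      have hPj : P j := ⟨hjF, fun k hk => by rw [← heq]; exact himax k hk⟩
      have := hmin j hPj
      omega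
    · left
      right
      by_contra hc
      apply hfac
      apply (isFac_iff _ _).mp
      simpa using hc

theorem antichain_sub (S : List (List α)) : ∀ x ∈ antichainL S, x ∈ S := by
  intro x hx
  obtain ⟨i, h1, -, rfl⟩ := mem_antichain.mp hx
  simp [List.getD_eq_getElem?_getD, h1]

theorem zip_tail_range {β : Type} (f : ℕ → β) (t : ℕ) :
    ((range (t + 1)).map f).zip ((range (t + 1)).map f).tail =
      (range t).map (fun j => (f j, f (j + 1))) := by
  apply List.ext_getElem
  · simp
  · intro k h1 h2
    simp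

/-- The merge of the path `[h, σ h, ..., σ^t h]` is the chain. -/
theorem mergeL_chain {ι : Type} [Fintype ι] [DecidableEq ι] (s : ι → List α) (σ : Equiv.Perm ι) (h : ι)
    (t : ℕ) : mergeL ((range (t + 1)).map (fun j => s ((σ ^ j) h))) = chain s σ h t := by
  induction t with
  | zero => simp [mergeL, chain]
  | succ t ih =>
    have h1 : ∀ m, mergeL ((range (m + 1)).map (fun j => s ((σ ^ j) h))) =
        s h ++ (range m).flatMap (fun j => (s ((σ ^ (j + 1)) h)).drop
          (ovL (s ((σ ^ j) h)) (s ((σ ^ (j + 1)) h)))) := by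
      intro m
      unfold mergeL
      rw [zip_tail_range, List.flatMap_map]
      congr 1
      simp [List.getD_eq_getElem?_getD]
    rw [h1] at ih ⊢
    rw [List.range_succ, List.flatMap_append, ← List.append_assoc, ih]
    simp [chain, ovL_eq]

end Vale.Agent.Lib.P333F
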