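import Vale.Agent.Lib.P333F.StrBase
import Vale.Agent.Lib.P333F.Atsp

/-!
(part STRSPEC) The guarantee of the algorithm for strings, from `merge_order_bound` of Lib/P333
and `atsp_spec`.
-/

namespace Vale.Agent.Lib.P333F

open List (range)
open Vale.Agent.Lib.P333

variable {α : Type} [DecidableEq α]

/-- The strings as a family indexed by `Fin`. -/
def famOf (A : List (List α)) : Fin A.length → List α := fun i => A.getD i []

theorem length_ovMat (A : List (List α)) : (ovMat A).length = A.length := by
  simp [ovMat]

theorem mat_ovMat (A : List (List α)) {i j : ℕ} (hi : i < A.length) (hj : j < A.length) :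
    mat (ovMat A) i j = ov (A.getD i []) (A.getD j []) := by
  rw [← ovL_eq]
  unfold mat ovMat
  simp [List.getD_eq_getElem?_getD, hi, hj]

theorem famOf_ne (A : List (List α)) (hne : ∀ x ∈ A, x ≠ []) (i : Fin A.length) :
    famOf A i ≠ [] := by
  apply hne
  unfold famOf
  rw [List.getD_eq_getElem _ _ i.2]
  exact List.getElem_mem _

/-- The cost of a cover and its total overlap add up to the total length. -/
theorem coverCost_add (A : List (List α)) (hne : ∀ x ∈ A, x ≠ []) (τ : Equiv.Perm (Fin A.length)) :
    coverCost (famOf A) τ + ∑ x, ov (famOf A x) (famOf A (τ x)) = ∑ x, (famOf A x).length := by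
  unfold coverCost
  rw [← Finset.sum_add_distrib]
  exact Finset.sum_congr rfl fun x _ => dist_add_ov (famOf_ne A hne) x (τ x)

theorem weightL_ovMat (A : List (List α)) {p : List ℕ} (hp : ∀ x : Fin A.length, app p x < A.length) :
    weightL (ovMat A) p = ∑ x : Fin A.length, ov (famOf A x) (A.getD (app p x) []) := by
  unfold weightL
  rw [length_ovMat, sum_range_map]
  exact Finset.sum_congr rfl fun x _ => mat_ovMat A x.2 (hp x)

/-- The permutation computed from the overlap matrix is a minimum weight cycle cover. -/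
theorem maxAssign_isMinCover (A : List (List α)) (hne : ∀ x ∈ A, x ≠ [])
    (h : (maxAssign (ovMat A)).Perm (range A.length)) :
    IsMinCover (famOf A) (permOfL h) := by
  intro τ
  have hq : (listOfPerm τ).Perm (range (ovMat A).length) := by
    rw [length_ovMat]
    exact listOfPerm_perm τ
  have h1 := maxAssign_opt (ovMat A) hq
  rw [weightL_ovMat A (p := listOfPerm τ) (fun x => by rw [app_listOfPerm]; exact (τ x).2),
    weightL_ovMat A (p := maxAssign (ovMat A)) (fun x => app_lt_of_perm h x.2)] at h1
  have h2 : ∑ x : Fin A.length, ov (famOf A x) (A.getD (app (listOfPerm τ) x) []) =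
      ∑ x, ov (famOf A x) (famOf A (τ x)) :=
    Finset.sum_congr rfl fun x _ => by rw [app_listOfPerm]; rfl
  have h3 : ∑ x : Fin A.length, ov (famOf A x) (A.getD (app (maxAssign (ovMat A)) x) []) =
      ∑ x, ov (famOf A x) (famOf A (permOfL h x)) :=
    Finset.sum_congr rfl fun x _ => rfl
  rw [h2, h3] at h1
  have h4 := coverCost_add A hne τ
  have h5 := coverCost_add A hne (permOfL h)
  omega


/-- The key of the weakest arc. -/
def ovA (A : List (List α)) (x : ℕ) : ℕ := mat (ovMat A) x (app (maxAssign (ovMat A)) x)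

theorem mem_tailsL (fl : List Bool) (t : ℕ) :
    t ∈ tailsL fl ↔ t < fl.length ∧ fl.getD t false = true := by
  simp [tailsL]

theorem lexB_iff (a x b y : ℕ) : lexB a x b y = true ↔ a < b ∨ (a = b ∧ x ≤ y) := by
  simp [lexB]

theorem length_cutFlags (W : List (List ℕ)) (σ : List ℕ) : (cutFlags W σ).length = W.length := by
  simp [cutFlags]

theorem cutFlag_iff (A : List (List α)) (h : (maxAssign (ovMat A)).Perm (range A.length))
    (x : Fin A.length) :
    (cutFlags (ovMat A) (maxAssign (ovMat A))).getD x false = true ↔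
      ∀ y : Fin A.length, (permOfL h).SameCycle x y →
        lexB (ovA A x) x (ovA A y) y = true := by
  have hx : (x : ℕ) < (ovMat A).length := by rw [length_ovMat]; exact x.2
  have h1 : (cutFlags (ovMat A) (maxAssign (ovMat A))).getD x false =
      (iterL (maxAssign (ovMat A)) x).all (fun y =>
        lexB (ovA A x) x (ovA A y) y) := by
    unfold cutFlags
    rw [List.getD_eq_getElem _ _ (by simpa using hx)]
    simp [ovA]
  rw [h1, List.all_eq_true]
  constructor
  · intro hall y hy
    exact hall y ((mem_iterL h x y).mpr hy)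
  · intro hall y hy
    have hlt := iterL_lt h x.2 hy
    exact hall ⟨y, hlt⟩ ((mem_iterL h x ⟨y, hlt⟩).mp hy)

/-- The tail of a cycle: least weak arc. -/
noncomputable def cutF (A : List (List α)) (hA : 0 < A.length) (X : Finset (Fin A.length)) :
    Fin A.length :=
  if hX : X.Nonempty then
    Classical.choose (Finset.exists_min_image X (fun x => toLex (ovA A x, (x : ℕ))) hX)
  else ⟨0, hA⟩

theorem cutF_spec (A : List (List α)) (hA : 0 < A.length) {X : Finset (Fin A.length)}
    (hX : X.Nonempty) : cutF A hA X ∈ X ∧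
      ∀ y ∈ X, lexB (ovA A (cutF A hA X)) (cutF A hA X) (ovA A y) y = true := by
  have h := Classical.choose_spec
    (Finset.exists_min_image X (fun x => toLex (ovA A x, (x : ℕ))) hX)
  unfold cutF
  rw [dif_pos hX]
  refine ⟨h.1, fun y hy => ?_⟩
  have h2 := h.2 y hy
  rw [Prod.Lex.le_iff] at h2
  rw [lexB_iff]
  simpa using h2

theorem ov_famOf_eq (A : List (List α)) (h : (maxAssign (ovMat A)).Perm (range A.length))
    (x : Fin A.length) :
    ov (famOf A x) (famOf A (permOfL h x)) = ovA A x :=
  (mat_ovMat A x.2 (app_lt_of_perm h x.2)).symm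

/-- The flags single out a weakest arc in each cycle. -/
theorem exists_cut (A : List (List α)) (hA : A ≠ [])
    (h : (maxAssign (ovMat A)).Perm (range A.length)) :
    ∃ cut : Finset (Fin A.length) → Fin A.length, IsWeakestCut (famOf A) (permOfL h) cut ∧
      (∀ X ∈ cycles (permOfL h), ((cut X : ℕ) ∈ tailsL (cutFlags (ovMat A) (maxAssign (ovMat A))))) ∧
      (∀ t : Fin A.length, (t : ℕ) ∈ tailsL (cutFlags (ovMat A) (maxAssign (ovMat A))) →
        cut (orbit (permOfL h) t) = t) := by
  have hA' : 0 < A.length := List.length_pos_iff.mpr hA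
  refine ⟨cutF A hA', ?_, ?_, ?_⟩
  · intro X hX
    obtain ⟨h1, h2⟩ := cutF_spec A hA' (cycles_nonempty hX)
    refine ⟨h1, fun j hj => ?_⟩
    rw [ov_famOf_eq, ov_famOf_eq]
    rcases (lexB_iff _ _ _ _).mp (h2 j hj) with h3 | h3
    · exact h3.le
    · exact h3.1.le
  · intro X hX
    obtain ⟨h1, h2⟩ := cutF_spec A hA' (cycles_nonempty hX)
    rw [mem_tailsL, length_cutFlags, length_ovMat]
    refine ⟨(cutF A hA' X).2, (cutFlag_iff A h _).mpr fun y hy => h2 y ?_⟩
    rw [← orbit_of_mem hX h1]
    exact mem_orbit.mpr hy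
  · intro t ht
    rw [mem_tailsL] at ht
    have hO : (orbit (permOfL h) t).Nonempty := ⟨t, self_mem_orbit _ t⟩
    obtain ⟨h1, h2⟩ := cutF_spec A hA' hO
    have h3 := (cutFlag_iff A h t).mp ht.2 _ (mem_orbit.mp h1)
    have h4 := h2 t (self_mem_orbit _ t)
    rw [lexB_iff] at h3 h4
    apply Fin.ext
    omega

theorem filter_range_getD {n k0 : ℕ} {P : ℕ → Bool} (h0 : k0 < n) (hP : P k0 = true)
    (hm : ∀ k < k0, P k = false) : ((range n).filter P).getD 0 0 = k0 := by
  obtain ⟨m, rfl⟩ : ∃ m, n = k0 + (m + 1) := ⟨n - k0 - 1, by omega⟩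
  rw [List.range_add, List.filter_append]
  have h1 : (range k0).filter P = [] := by
    rw [List.filter_eq_nil_iff]
    intro a ha
    simp [hm a (List.mem_range.mp ha)]
  rw [h1, List.nil_append, List.range_succ_eq_map]
  simp [hP]

theorem perL_eq {n : ℕ} {p : List ℕ} (h : p.Perm (range n)) (t : Fin n) :
    perL p t = Function.minimalPeriod (permOfL h) t := by
  have hpos := minPeriod_pos (permOfL h) t
  have hle : Function.minimalPeriod (permOfL h) t ≤ n := by
    have h1 := card_orbit (permOfL h) t
    have h2 := Finset.card_le_univ (orbit (permOfL h) t)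
    simp only [Fintype.card_fin] at h2
    omega
  have hlen := length_of_perm h
  unfold perL
  rw [hlen, filter_range_getD (k0 := Function.minimalPeriod (permOfL h) t - 1)]
  · omega
  · omega
  · simp only [decide_eq_true_eq]
    rw [powL_eq h]
    have e : Function.minimalPeriod (permOfL h) t - 1 + 1 = Function.minimalPeriod (permOfL h) t := by
      omega
    rw [e, ← Equiv.Perm.iterate_eq_pow, iterate_minPeriod]
  · intro k hk
    simp only [decide_eq_false_iff_not]
    rw [powL_eq h]
    intro heq
    have h1 : Function.IsPeriodicPt (permOfL h) (k + 1) t := by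
      show (⇑(permOfL h))^[k + 1] t = t
      rw [Equiv.Perm.iterate_eq_pow]
      exact Fin.ext heq
    have h2 := h1.minimalPeriod_le (by omega)
    omega

theorem openedL_eq (A : List (List α)) (h : (maxAssign (ovMat A)).Perm (range A.length))
    {cut : Finset (Fin A.length) → Fin A.length} (t : Fin A.length)
    (hct : cut (orbit (permOfL h) t) = t) :
    openedL A (maxAssign (ovMat A)) t = opened (famOf A) (permOfL h) cut (orbit (permOfL h) t) := by
  unfold openedL opened
  rw [hct, card_orbit, ← mergeL_chain]
  have hpos := minPeriod_pos (permOfL h) t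
  have e : Function.minimalPeriod (permOfL h) t - 1 + 1 = Function.minimalPeriod (permOfL h) t := by
    omega
  rw [e]
  unfold pathL
  rw [perL_eq h, List.map_map]
  refine congrArg mergeL (List.map_congr_left ?_)
  intro k _
  simp only [Function.comp_apply]
  rw [powL_eq h]
  have e2 : ((permOfL h) ^ (k + 1)) t = ((permOfL h) ^ k) (permOfL h t) := by
    rw [pow_succ]
    rfl
  rw [e2]
  rfl

theorem pathOv_map (M : List (List α)) : ∀ l : List ℕ, (∀ i ∈ l, i < M.length) →
    pathOv (l.map (fun i => M.getD i [])) = pathW (mat (ovMat M)) l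
  | [], _ => rfl
  | [_], _ => rfl
  | x :: y :: l, hl => by
    have hx : x < M.length := hl x (by simp)
    have hy : y < M.length := hl y (by simp)
    have ih := pathOv_map M (y :: l) (fun i hi => hl i (List.mem_cons_of_mem _ hi))
    have h1 : pathOv ((x :: y :: l).map (fun i => M.getD i [])) =
        ov (M.getD x []) (M.getD y []) + pathOv ((y :: l).map (fun i => M.getD i [])) := rfl
    have h2 : pathW (mat (ovMat M)) (x :: y :: l) =
        mat (ovMat M) x y + pathW (mat (ovMat M)) (y :: l) := rfl
    rw [h1, h2, ih, mat_ovMat M hx hy]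

/-- Merge the strings of `M` in the order found by a given Hamiltonian path algorithm. -/
def mergeWith (alg : List (List ℕ) → List ℕ) (M : List (List α)) : List α :=
  mergeL ((alg (ovMat M)).map (fun i => M.getD i []))

/-- The algorithm for the shortest common superstring problem, for a given Hamiltonian path
algorithm. -/
def scsWith (alg : List (List ℕ) → List ℕ) (S : List (List α)) : List α :=
  mergeWith alg (openAll (antichainL S))

/-- Main theorem for an antichain, for any Hamiltonian path algorithm with a guarantee. -/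
theorem mergeWith_spec (alg : List (List ℕ) → List ℕ) (a b : ℕ) (ha : a ≤ b) (hb : 0 < b)
    (hperm : ∀ w, (alg w).Perm (range w.length))
    (hbd : ∀ w P, P.Perm (range w.length) → a * pathW (mat w) P ≤ b * pathW (mat w) (alg w))
    (A : List (List α)) (hne : ∀ x ∈ A, x ≠ [])
    (hfree : ∀ i j, i < A.length → j < A.length → i ≠ j → ¬ A.getD i [] <:+: A.getD j []) :
    (∀ s ∈ A, s <:+: mergeWith alg (openAll A)) ∧
      ∀ Ω : List α, (∀ s ∈ A, s <:+: Ω) →
        b * (mergeWith alg (openAll A)).length ≤ (3 * b - a) * Ω.length := by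
  by_cases hA : A = []
  · subst hA
    have h0 : openAll ([] : List (List α)) = [] := by
      simp [openAll, cutFlags, tailsL, ovMat]
    have h1 : alg (ovMat ([] : List (List α))) = [] := by
      have := hperm (ovMat ([] : List (List α)))
      simpa [ovMat] using this
    have h2 : mergeWith alg ([] : List (List α)) = [] := by
      unfold mergeWith
      rw [h1]
      simp [mergeL]
    rw [h0, h2]
    simp
  have hA' : 0 < A.length := List.length_pos_iff.mpr hA
  have h : (maxAssign (ovMat A)).Perm (range A.length) := by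
    have := maxAssign_perm (ovMat A)
    rwa [length_ovMat] at this
  obtain ⟨cut, hcut, hcutmem, hcutuniq⟩ := exists_cut A hA h
  have hmin := maxAssign_isMinCover A hne h
  have hneF := famOf_ne A hne
  have hfreeF : ∀ i j : Fin A.length, i ≠ j → ¬ famOf A i <:+: famOf A j :=
    fun i j hij => hfree i j i.2 j.2 (fun e => hij (Fin.ext e))
  set σ := permOfL h with hσ
  set T := tailsL (cutFlags (ovMat A) (maxAssign (ovMat A))) with hT
  have hTlt : ∀ x ∈ T, x < A.length := by
    intro x hx
    have h1 := ((mem_tailsL _ _).mp hx).1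
    rwa [length_cutFlags, length_ovMat] at h1
  have hTnd : T.Nodup := List.nodup_range.filter _
  let toF : ℕ → Fin A.length := fun x => ⟨x % A.length, Nat.mod_lt _ hA'⟩
  have htoF : ∀ x, x < A.length → ((toF x : Fin A.length) : ℕ) = x := fun x hx => Nat.mod_eq_of_lt hx
  have hTget : ∀ i, (hi : i < T.length) → T.getD i 0 = T[i] := fun i hi =>
    List.getD_eq_getElem _ _ hi
  have hTmem : ∀ i, i < T.length → T.getD i 0 ∈ T := fun i hi => by
    rw [hTget i hi]
    exact List.getElem_mem _
  have hTval : ∀ i, i < T.length → ((toF (T.getD i 0) : Fin A.length) : ℕ) = T.getD i 0 :=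
    fun i hi => htoF _ (hTlt _ (hTmem i hi))
  let X : ℕ → Finset (Fin A.length) := fun i => orbit σ (toF (T.getD i 0))
  have hXcut : ∀ i, i < T.length → cut (X i) = toF (T.getD i 0) := fun i hi =>
    hcutuniq _ (by rw [hTval i hi]; exact hTmem i hi)
  have hXcyc : ∀ i, X i ∈ cycles σ := fun i => orbit_mem_cycles _ _
  set M := openAll A with hM
  have hMT : M = T.map (openedL A (maxAssign (ovMat A))) := rfl
  have hMlen : M.length = T.length := by rw [hMT, List.length_map]
  have hMget : ∀ i, i < T.length → M.getD i [] = opened (famOf A) σ cut (X i) := by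
    intro i hi
    have h1 : M.getD i [] = openedL A (maxAssign (ovMat A)) (T.getD i 0) := by
      rw [hMT, List.getD_eq_getElem _ _ (by simpa using hi), hTget i hi]
      simp
    rw [h1]
    have h2 := openedL_eq A h (cut := cut) (toF (T.getD i 0)) (hXcut i hi)
    rw [hTval i hi] at h2
    exact h2
  have hord : (alg (ovMat M)).Perm (range T.length) := by
    have := hperm (ovMat M)
    rwa [length_ovMat, hMlen] at this
  have hordlt : ∀ i ∈ alg (ovMat M), i < T.length := fun i hi =>
    List.mem_range.mp (hord.mem_iff.mp hi)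
  have hordmem : ∀ i, i < T.length → i ∈ alg (ovMat M) := fun i hi =>
    hord.mem_iff.mpr (List.mem_range.mpr hi)
  have hmerge : mergeWith alg M = mergeAll (((alg (ovMat M)).map X).map (opened (famOf A) σ cut)) := by
    have h1 : (alg (ovMat M)).map (fun i => M.getD i []) =
        ((alg (ovMat M)).map X).map (opened (famOf A) σ cut) := by
      rw [List.map_map]
      apply List.map_congr_left
      intro i hi
      exact hMget i (hordlt i hi)
    show mergeL ((alg (ovMat M)).map (fun i => M.getD i [])) = _
    rw [mergeL_eq, h1]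
  have hnd : ((alg (ovMat M)).map X).Nodup := by
    refine List.Nodup.map_on ?_ (hord.nodup_iff.mpr List.nodup_range)
    intro i hi j hj hij
    have hi' := hordlt i hi
    have hj' := hordlt j hj
    have h1 : toF (T.getD i 0) = toF (T.getD j 0) := by
      rw [← hXcut i hi', ← hXcut j hj', hij]
    have h2 : T.getD i 0 = T.getD j 0 := by
      rw [← hTval i hi', ← hTval j hj', h1]
    rw [hTget i hi', hTget j hj'] at h2
    exact (hTnd.getElem_inj_iff).mp h2
  have hcover : ∀ Y ∈ cycles σ, ∃ i, i < T.length ∧ X i = Y ∧ T.getD i 0 = cut Y := by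
    intro Y hY
    have h1 := hcutmem Y hY
    obtain ⟨i, hi, hie⟩ := List.getElem_of_mem h1
    refine ⟨i, hi, ?_, by rw [hTget i hi, hie]⟩
    have h2 : toF (T.getD i 0) = cut Y := by
      apply Fin.ext
      rw [hTval i hi, hTget i hi, hie]
    show orbit σ (toF (T.getD i 0)) = Y
    rw [h2]
    exact orbit_of_mem hY (hcut Y hY).1
  have hL : ((alg (ovMat M)).map X).toFinset = cycles σ := by
    ext Y
    rw [List.mem_toFinset, List.mem_map]
    constructor
    · rintro ⟨i, -, rfl⟩
      exact hXcyc i
    · intro hY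
      obtain ⟨i, hi, hiY, -⟩ := hcover Y hY
      exact ⟨i, hordmem i hi, hiY⟩
  have hbest : ∀ L' : List (Finset (Fin A.length)), L'.Nodup → L'.toFinset = cycles σ →
      ((a : ℚ) / b) * (pathOv (L'.map (opened (famOf A) σ cut)) : ℚ) ≤
        (pathOv (((alg (ovMat M)).map X).map (opened (famOf A) σ cut)) : ℚ) := by
    intro L' hnd' hL'
    have hmemL' : ∀ Y, Y ∈ L' ↔ Y ∈ cycles σ := by
      intro Y
      rw [← hL', List.mem_toFinset]
    let idx : Finset (Fin A.length) → ℕ := fun Y => T.idxOf ((cut Y : Fin A.length) : ℕ)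
    have hidx : ∀ Y ∈ cycles σ, idx Y < T.length ∧ X (idx Y) = Y := by
      intro Y hY
      obtain ⟨i, hi, hiY, hic⟩ := hcover Y hY
      have h1 : idx Y = i := by
        show T.idxOf ((cut Y : Fin A.length) : ℕ) = i
        rw [← hic, hTget i hi]
        exact hTnd.idxOf_getElem i hi
      rw [h1]
      exact ⟨hi, hiY⟩
    have hP : (L'.map idx).Perm (range T.length) := by
      refine (List.perm_ext_iff_of_nodup ?_ List.nodup_range).mpr ?_
      · refine List.Nodup.map_on ?_ hnd'
        intro Y hY Y' hY' he
        rw [← (hidx Y ((hmemL' Y).mp hY)).2, ← (hidx Y' ((hmemL' Y').mp hY')).2, he]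
      · intro k
        rw [List.mem_map, List.mem_range]
        constructor
        · rintro ⟨Y, hY, rfl⟩
          exact (hidx Y ((hmemL' Y).mp hY)).1
        · intro hk
          refine ⟨X k, (hmemL' _).mpr (hXcyc k), ?_⟩
          show T.idxOf ((cut (X k) : Fin A.length) : ℕ) = k
          rw [hXcut k hk, hTval k hk, hTget k hk]
          exact hTnd.idxOf_getElem k hk
    have hP' : (L'.map idx).Perm (range (ovMat M).length) := by
      rwa [length_ovMat, hMlen]
    have h1 := hbd (ovMat M) _ hP'
    have hmap1 : L'.map (opened (famOf A) σ cut) = (L'.map idx).map (fun i => M.getD i []) := by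
      rw [List.map_map]
      apply List.map_congr_left
      intro Y hY
      have hY' := hidx Y ((hmemL' Y).mp hY)
      simp only [Function.comp_apply]
      rw [hMget _ hY'.1, hY'.2]
    have hmap2 : ((alg (ovMat M)).map X).map (opened (famOf A) σ cut) =
        (alg (ovMat M)).map (fun i => M.getD i []) := by
      rw [List.map_map]
      apply List.map_congr_left
      intro i hi
      exact (hMget i (hordlt i hi)).symm
    rw [hmap1, hmap2, pathOv_map M _ (fun i hi => by
        rw [hMlen]
        exact List.mem_range.mp (hP.mem_iff.mp hi)),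
      pathOv_map M _ (fun i hi => by
        rw [hMlen]
        exact hordlt i hi)]
    have h2 : (a : ℚ) * (pathW (mat (ovMat M)) (L'.map idx) : ℚ) ≤
        b * (pathW (mat (ovMat M)) (alg (ovMat M)) : ℚ) := by
      exact_mod_cast h1
    have hb' : (0 : ℚ) < b := by exact_mod_cast hb
    rw [div_mul_eq_mul_div, div_le_iff₀ hb', mul_comm _ (b : ℚ)]
    exact h2
  have hb' : (0 : ℚ) < b := by exact_mod_cast hb
  have hab : (a : ℚ) ≤ b := by exact_mod_cast ha
  obtain ⟨h1, h2⟩ := merge_order_bound hneF hfreeF hmin hcut ((a : ℚ) / b) (by positivity)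
    ((div_le_one hb').mpr hab) ((alg (ovMat M)).map X) hnd hL hbest
  rw [← hmerge] at h1 h2
  refine ⟨fun x hx => ?_, fun Ω hΩ => ?_⟩
  · obtain ⟨i, hi, rfl⟩ := List.getElem_of_mem hx
    have h3 := h1 ⟨i, hi⟩
    unfold famOf at h3
    rwa [List.getD_eq_getElem _ _ hi] at h3
  · have h3 := h2 Ω (fun i => hΩ _ (by
      unfold famOf
      rw [List.getD_eq_getElem _ _ i.2]
      exact List.getElem_mem _))
    have h4 : ((b * (mergeWith alg M).length : ℕ) : ℚ) ≤ (((3 * b - a) * Ω.length : ℕ) : ℚ) := by
      rw [Nat.cast_mul, Nat.cast_mul, Nat.cast_sub (by omega)]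
      push_cast
      have h5 := mul_le_mul_of_nonneg_left h3 hb'.le
      have h6 : (b : ℚ) * ((3 - (a : ℚ) / b) * (Ω.length : ℚ)) = (3 * b - a) * (Ω.length : ℚ) := by
        field_simp
      rw [h6] at h5
      exact h5
    exact_mod_cast h4

/-- Main theorem for an antichain. -/
theorem mergeAtsp_spec (A : List (List α)) (hne : ∀ x ∈ A, x ≠ [])
    (hfree : ∀ i j, i < A.length → j < A.length → i ≠ j → ¬ A.getD i [] <:+: A.getD j []) :
    (∀ s ∈ A, s <:+: mergeAtsp (openAll A)) ∧
      ∀ Ω : List α, (∀ s ∈ A, s <:+: Ω) → 13 * (mergeAtsp (openAll A)).length ≤ 32 * Ω.length :=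
  mergeWith_spec atsp 7 13 (by norm_num) (by norm_num) atsp_perm
    (fun w _ hP => atsp_spec w hP) A hne hfree

/-- The guarantee of the algorithm, for any Hamiltonian path algorithm with a guarantee. -/
theorem scsWith_spec (alg : List (List ℕ) → List ℕ) (a b : ℕ) (ha : a ≤ b) (hb : 0 < b)
    (hperm : ∀ w, (alg w).Perm (range w.length))
    (hbd : ∀ w P, P.Perm (range w.length) → a * pathW (mat w) P ≤ b * pathW (mat w) (alg w))
    (S : List (List α)) :
    (∀ s ∈ S, s <:+: scsWith alg S) ∧
      ∀ Ω : List α, (∀ s ∈ S, s <:+: Ω) → b * (scsWith alg S).length ≤ (3 * b - a) * Ω.length := by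
  obtain ⟨h1, h2⟩ := mergeWith_spec alg a b ha hb hperm hbd (antichainL S) (antichain_ne S)
    (fun i j hi hj hij => antichain_free S hi hj hij)
  refine ⟨fun s hs => ?_, fun Ω hΩ => h2 Ω fun x hx => hΩ x (antichain_sub S x hx)⟩
  by_cases hne : s = []
  · subst hne
    exact List.nil_infix
  · obtain ⟨x, hx, hsx⟩ := antichain_cover S hs hne
    exact hsx.trans (h1 x hx)

theorem scsAlg_eq_scsWith (S : List (List α)) : scsAlg S = scsWith atsp S := rfl

/-- The guarantee of the algorithm. -/
theorem scsAlg_spec (S : List (List α)) :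
    (∀ s ∈ S, s <:+: scsAlg S) ∧
      ∀ Ω : List α, (∀ s ∈ S, s <:+: Ω) → 13 * (scsAlg S).length ≤ 32 * Ω.length := by
  obtain ⟨h1, h2⟩ := mergeAtsp_spec (antichainL S) (antichain_ne S)
    (fun i j hi hj hij => antichain_free S hi hj hij)
  refine ⟨fun s hs => ?_, fun Ω hΩ => h2 Ω fun x hx => hΩ x (antichain_sub S x hx)⟩
  by_cases hne : s = []
  · subst hne
    exact List.nil_infix
  · obtain ⟨x, hx, hsx⟩ := antichain_cover S hs hne
    exact hsx.trans (h1 x hx)

end Vale.Agent.Lib.P333F
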