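import Vale.Agent.Lib.P333F.Perm

/-!
(part WALK) Closed walks and the dynamic program for the best walk with a given number of arcs.
A walk is stored reversed: the list `[v_k, ..., v_1]` stands for `i → v_1 → ... → v_k`.
-/

namespace Vale.Agent.Lib.P333F

open List (range)

/-- The value of the closed walk stored (reversed) in `l`: the arcs `l[s+1] → l[s]` and the
closing arc `l[0] → l[last]`. -/
def cycV (c : ℕ → ℕ → ℕ) (l : List ℕ) : ℕ :=
  pathW (fun b a => c a b) l + c (l.getD 0 0) (l.getD (l.length - 1) 0)

theorem walk_exists_dup : ∀ {l : List ℕ}, ¬ l.Nodup → ∃ A x B C, l = A ++ x :: (B ++ x :: C) := by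
  intro l
  induction l with
  | nil => simp
  | cons a t ih =>
    intro h
    by_cases hmem : a ∈ t
    · obtain ⟨s, u, hu⟩ := List.append_of_mem hmem
      exact ⟨[], a, s, u, by simp [hu]⟩
    · have h' : ¬ t.Nodup := fun hn => h (List.nodup_cons.2 ⟨hmem, hn⟩)
      obtain ⟨A, x, B, C, rfl⟩ := ih h'
      exact ⟨a :: A, x, B, C, rfl⟩

theorem walk_pathW_append (w : ℕ → ℕ → ℕ) (A : List ℕ) (x : ℕ) (D : List ℕ) :
    pathW w (A ++ x :: D) = pathW w (A ++ [x]) + pathW w (x :: D) := by
  induction A with
  | nil => simp [pathW]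
  | cons a A ih =>
    cases A with
    | nil => simp [pathW]
    | cons b A =>
      simp only [List.cons_append, pathW] at ih ⊢
      omega

theorem walk_last_append (A D : List ℕ) (hD : D ≠ []) :
    (A ++ D).getD ((A ++ D).length - 1) 0 = D.getD (D.length - 1) 0 := by
  have hD' : 0 < D.length := List.length_pos_iff.2 hD
  rw [List.getD_append_right _ _ _ _ (by simp only [List.length_append]; omega)]
  simp only [List.length_append]
  congr 1
  omega

theorem walk_pathW_snoc (w : ℕ → ℕ → ℕ) : ∀ (D : List ℕ) (x : ℕ), D ≠ [] →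
    pathW w (D ++ [x]) = pathW w D + w (D.getD (D.length - 1) 0) x := by
  intro D x
  induction D with
  | nil => simp
  | cons a D ih =>
    intro _
    cases D with
    | nil => simp [pathW]
    | cons b D =>
      have := ih (by simp)
      simp only [List.cons_append, pathW, List.length_cons] at this ⊢
      simp only [Nat.add_sub_cancel] at this ⊢
      simp only [List.getD_cons_succ]
      omega

theorem walk_pathW_cons (w : ℕ → ℕ → ℕ) (j : ℕ) {rv : List ℕ} (h : rv ≠ []) :
    pathW w (j :: rv) = w j (rv.getD 0 0) + pathW w rv := by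
  cases rv with
  | nil => exact absurd rfl h
  | cons a t => simp [pathW]

theorem walk_cycV_split (c : ℕ → ℕ → ℕ) (A : List ℕ) (x : ℕ) (B C : List ℕ) :
    cycV c (A ++ x :: (B ++ x :: C)) = cycV c (x :: B) + cycV c (A ++ x :: C) := by
  unfold cycV
  have h1 := walk_pathW_append (fun b a => c a b) A x (B ++ x :: C)
  have h2 := walk_pathW_append (fun b a => c a b) (x :: B) x C
  have h3 := walk_pathW_snoc (fun b a => c a b) (x :: B) x (by simp)
  have h4 := walk_pathW_append (fun b a => c a b) A x C
  simp only [List.cons_append] at h2 h3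
  have h5 : (A ++ x :: (B ++ x :: C)).getD 0 0 = (A ++ x :: C).getD 0 0 := by
    cases A <;> simp
  have h6 : (A ++ x :: (B ++ x :: C)).getD ((A ++ x :: (B ++ x :: C)).length - 1) 0 =
      (x :: C).getD ((x :: C).length - 1) 0 := by
    have := walk_last_append (A ++ x :: B) (x :: C) (by simp)
    simpa using this
  have h7 := walk_last_append A (x :: C) (by simp)
  rw [h1, h2, h3, h4, h5, h6, h7]
  simp only [List.getD_cons_zero]
  omega

/-- A closed walk with a repeated vertex splits into two shorter closed walks, so one of them has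
larger average value than `M`. -/
theorem exists_shorter (c : ℕ → ℕ → ℕ) (M : ℕ) {l : List ℕ} (hnd : ¬ l.Nodup)
    (hpos : l.length * M < cycV c l) :
    ∃ l' : List ℕ, l' ≠ [] ∧ l'.length < l.length ∧ (∀ v ∈ l', v ∈ l) ∧ l'.length * M < cycV c l' := by
  obtain ⟨A, x, B, C, rfl⟩ := walk_exists_dup hnd
  rw [walk_cycV_split] at hpos
  have hlen : (A ++ x :: (B ++ x :: C)).length = (x :: B).length + (A ++ x :: C).length := by
    simp only [List.length_append, List.length_cons]
    omega
  rw [hlen, add_mul] at hpos
  by_cases h : (x :: B).length * M < cycV c (x :: B)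
  · refine ⟨x :: B, by simp, ?_, ?_, h⟩
    · simp only [List.length_append, List.length_cons]
      omega
    · intro v hv
      simp only [List.mem_cons, List.mem_append] at hv ⊢
      tauto
  · have h2 : (A ++ x :: C).length * M < cycV c (A ++ x :: C) := by omega
    refine ⟨A ++ x :: C, by simp, ?_, ?_, h2⟩
    · simp only [List.length_append, List.length_cons]
      omega
    · intro v hv
      simp only [List.mem_cons, List.mem_append] at hv ⊢
      tauto

variable (W : List (List ℕ)) (p : List ℕ)

theorem walk_dpLevel_succ (i k : ℕ) : dpLevel W p i (k + 1) = dpStep W p (dpLevel W p i k) := by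
  unfold dpLevel
  rw [foldr_const, foldr_const]
  simp only [List.length_range, Function.iterate_succ_apply']

theorem walk_dpInit_getD (i : ℕ) {j : ℕ} (hj : j < W.length) :
    (dpInit W p i).getD j (0, []) = (arcC W p i j, [j]) := by
  simp [dpInit, List.getD_eq_getElem?_getD, hj]

theorem walk_dpStep_getD (row : List (ℕ × List ℕ)) {j : ℕ} (hj : j < W.length) :
    ∃ l < W.length, (dpStep W p row).getD j (0, []) = dpExt W p row j l ∧
      ∀ l' < W.length, (dpExt W p row j l').1 ≤ ((dpStep W p row).getD j (0, [])).1 := by
  have h : (dpStep W p row).getD j (0, []) = bestBy (fun e : ℕ × List ℕ => e.1) (0, [])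
      ((range W.length).map (fun l => dpExt W p row j l)) := by
    simp [dpStep, List.getD_eq_getElem?_getD, hj]
  have hne : (range W.length).map (fun l => dpExt W p row j l) ≠ [] := by
    simp only [ne_eq, List.map_eq_nil_iff, List.range_eq_nil]
    omega
  obtain ⟨h1, h2⟩ := bestBy_spec (fun e : ℕ × List ℕ => e.1) (0, []) hne
  obtain ⟨l, hl, he⟩ := List.mem_map.1 h1
  refine ⟨l, List.mem_range.1 hl, by rw [h, he], fun l' hl' => ?_⟩
  rw [h]
  exact h2 _ (List.mem_map.2 ⟨l', List.mem_range.2 hl', rfl⟩)

/-- The entries of the table are walks from `i` with `k + 1` arcs to the vertex `j`. -/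
theorem dpLevel_spec {i : ℕ} (k : ℕ) {j : ℕ} (hj : j < W.length) :
    ((dpLevel W p i k).getD j (0, [])).2.length = k + 1 ∧
    ((dpLevel W p i k).getD j (0, [])).2.getD 0 0 = j ∧
    (∀ v ∈ ((dpLevel W p i k).getD j (0, [])).2, v < W.length) ∧
    ((dpLevel W p i k).getD j (0, [])).1 =
      pathW (fun b a => arcC W p a b) ((dpLevel W p i k).getD j (0, [])).2 +
        arcC W p i (((dpLevel W p i k).getD j (0, [])).2.getD k 0) := by
  induction k generalizing j with
  | zero =>
    have h0 : dpLevel W p i 0 = dpInit W p i := by simp [dpLevel]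
    rw [h0, walk_dpInit_getD W p i hj]
    simp [pathW, hj]
  | succ k ih =>
    obtain ⟨l, hl, he, -⟩ := walk_dpStep_getD W p (dpLevel W p i k) hj
    rw [walk_dpLevel_succ, he]
    obtain ⟨h1, h2, h3, h4⟩ := ih hl
    simp only [dpExt]
    have hne : ((dpLevel W p i k).getD l (0, [])).2 ≠ [] := by
      intro h
      rw [h] at h1
      simp at h1
    refine ⟨by rw [List.length_cons, h1], by simp, ?_, ?_⟩
    · intro v hv
      rcases List.mem_cons.1 hv with rfl | hv
      · exact hj
      · exact h3 v hv
    · rw [walk_pathW_cons _ _ hne, h2, h4]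
      simp only [List.getD_cons_succ]
      omega

/-- The entries of the table are the best walks. -/
theorem dpLevel_max {i : ℕ} (k : ℕ) {j : ℕ} (hj : j < W.length) (rv : List ℕ)
    (hlen : rv.length = k + 1) (hhead : rv.getD 0 0 = j) (hv : ∀ v ∈ rv, v < W.length) :
    pathW (fun b a => arcC W p a b) rv + arcC W p i (rv.getD k 0) ≤
      ((dpLevel W p i k).getD j (0, [])).1 := by
  induction k generalizing j rv with
  | zero =>
    have h0 : dpLevel W p i 0 = dpInit W p i := by simp [dpLevel]
    rw [h0, walk_dpInit_getD W p i hj]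
    obtain ⟨a, rfl⟩ := List.length_eq_one_iff.1 hlen
    simp only [List.getD_cons_zero] at hhead
    subst hhead
    simp [pathW]
  | succ k ih =>
    cases rv with
    | nil => simp at hlen
    | cons a rv' =>
      simp only [List.getD_cons_zero] at hhead
      subst hhead
      simp only [List.length_cons, Nat.add_right_cancel_iff] at hlen
      have hne : rv' ≠ [] := by
        intro h
        rw [h] at hlen
        simp at hlen
      have hmem : rv'.getD 0 0 ∈ rv' := by
        cases rv' with
        | nil => exact absurd rfl hne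
        | cons b t => simp
      have hl := hv _ (List.mem_cons_of_mem _ hmem)
      have h1 := ih hl rv' hlen rfl (fun v hv' => hv v (List.mem_cons_of_mem _ hv'))
      obtain ⟨l, _, he, hmax⟩ := walk_dpStep_getD W p (dpLevel W p i k) hj
      rw [walk_dpLevel_succ]
      have h2 := hmax _ hl
      simp only [dpExt] at h2
      rw [walk_pathW_cons _ _ hne]
      simp only [List.getD_cons_succ]
      omega

/-- The closed walk at `i` found by the table. -/
theorem dpEnt_spec {i : ℕ} (hi : i < W.length) (k : ℕ) :
    (dpEnt W p i k).2.length = k + 1 ∧ (dpEnt W p i k).2.getD 0 0 = i ∧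
    (∀ v ∈ (dpEnt W p i k).2, v < W.length) ∧
    (dpEnt W p i k).1 = cycV (arcC W p) (dpEnt W p i k).2 := by
  obtain ⟨h1, h2, h3, h4⟩ := dpLevel_spec W p (i := i) k hi
  refine ⟨h1, h2, h3, ?_⟩
  unfold dpEnt
  rw [h4]
  unfold cycV
  rw [h1, h2]
  simp

/-- Every closed walk of `k + 1` arcs through `i` is at most the one found by the table. -/
theorem dpEnt_max {k : ℕ} (l : List ℕ) (hl : l.length = k + 1) (hv : ∀ v ∈ l, v < W.length) :
    cycV (arcC W p) l ≤ (dpEnt W p (l.getD 0 0) k).1 := by
  have hmem : l.getD 0 0 ∈ l := by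
    cases l with
    | nil => simp at hl
    | cons b t => simp
  have h := dpLevel_max W p (i := l.getD 0 0) k (hv _ hmem) l hl rfl hv
  unfold cycV dpEnt
  rw [hl]
  simpa using h

theorem walk_head_mem {L : List ℕ} (h : L ≠ []) : L.getD 0 0 ∈ L := by
  cases L with
  | nil => exact absurd rfl h
  | cons a t => simp

theorem walk_head_le {L : List ℕ} (hs : L.Pairwise (· < ·)) {k : ℕ} (hk : k ∈ L) : L.getD 0 0 ≤ k := by
  cases L with
  | nil => simp at hk
  | cons a t =>
    simp only [List.getD_cons_zero]
    rcases List.mem_cons.1 hk with rfl | hk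
    · exact le_rfl
    · exact le_of_lt ((List.pairwise_cons.1 hs).1 k hk)

/-- The walk returned by the search: empty if no improving closed walk with at most `n` arcs
exists, and otherwise improving and without repeated vertices. -/
theorem rvOf_spec :
    (rvOf W p = [] ∧ ∀ l : List ℕ, l ≠ [] → l.length ≤ W.length → (∀ v ∈ l, v < W.length) →
        cycV (arcC W p) l ≤ l.length * bigM W) ∨
    (rvOf W p ≠ [] ∧ (rvOf W p).Nodup ∧ (∀ v ∈ rvOf W p, v < W.length) ∧
      (rvOf W p).length * bigM W < cycV (arcC W p) (rvOf W p)) := by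
  by_cases h0 : (foundK W p).length = 0
  · left
    refine ⟨by simp [rvOf, h0], fun l hne hlen hv => ?_⟩
    have hnil : foundK W p = [] := List.length_eq_zero_iff.1 h0
    obtain ⟨k, hk⟩ : ∃ k, l.length = k + 1 :=
      ⟨l.length - 1, by have := List.length_pos_iff.2 hne; omega⟩
    have h1 := dpEnt_max W p l hk hv
    have hi := hv _ (walk_head_mem hne)
    have h2 : ¬ (range W.length).any (fun i => posAt W p k i) = true := by
      have := List.filter_eq_nil_iff.1 hnil k (List.mem_range.2 (by omega))
      simpa using this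
    have h3 : posAt W p k (l.getD 0 0) ≠ true := by
      intro h
      apply h2
      exact List.any_eq_true.2 ⟨_, List.mem_range.2 hi, h⟩
    have h4 : ¬ (k + 1) * bigM W < (dpEnt W p (l.getD 0 0) k).1 := by
      intro h
      exact h3 (decide_eq_true h)
    rw [hk]
    omega
  · right
    have hne : foundK W p ≠ [] := fun h => h0 (by simp [h])
    set k := (foundK W p).getD 0 0 with hkdef
    have hkmem : k ∈ foundK W p := walk_head_mem hne
    have hkmin : ∀ k', k' ∈ foundK W p → k ≤ k' := fun k' hk' =>
      walk_head_le (List.pairwise_lt_range.filter _) hk'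
    obtain ⟨hkn, hkany⟩ := List.mem_filter.1 hkmem
    have hkn' := List.mem_range.1 hkn
    obtain ⟨i0, hi0, hpos0⟩ := List.any_eq_true.1 hkany
    have hIne : foundI W p k ≠ [] := by
      intro h
      have := List.filter_eq_nil_iff.1 h i0 hi0
      exact this hpos0
    set i := (foundI W p k).getD 0 0 with hidef
    have himem : i ∈ foundI W p k := walk_head_mem hIne
    obtain ⟨hin, hipos⟩ := List.mem_filter.1 himem
    have hin' := List.mem_range.1 hin
    have hrv : rvOf W p = (dpEnt W p i k).2 := by
      simp only [rvOf]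
      rw [if_neg h0]
    obtain ⟨s1, s2, s3, s4⟩ := dpEnt_spec W p hin' k
    have hposv : (k + 1) * bigM W < (dpEnt W p i k).1 := by
      simpa [posAt] using hipos
    rw [hrv]
    have hgt : (dpEnt W p i k).2.length * bigM W < cycV (arcC W p) (dpEnt W p i k).2 := by
      rw [s1, ← s4]
      exact hposv
    refine ⟨?_, ?_, s3, hgt⟩
    · intro h
      rw [h] at s1
      simp at s1
    · by_contra hnd
      obtain ⟨l', hne', hlen', hsub, hval⟩ := exists_shorter (arcC W p) (bigM W) hnd hgt
      obtain ⟨k', hk'⟩ : ∃ k', l'.length = k' + 1 :=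
        ⟨l'.length - 1, by have := List.length_pos_iff.2 hne'; omega⟩
      have hv' : ∀ v ∈ l', v < W.length := fun v hv => s3 v (hsub v hv)
      have h1 := dpEnt_max W p l' hk' hv'
      have hi' := hv' _ (walk_head_mem hne')
      have hk'lt : k' < k := by rw [s1] at hlen'; omega
      have hmem : k' ∈ foundK W p := by
        refine List.mem_filter.2 ⟨List.mem_range.2 (by omega), ?_⟩
        refine List.any_eq_true.2 ⟨_, List.mem_range.2 hi', ?_⟩
        have : (k' + 1) * bigM W < (dpEnt W p (l'.getD 0 0) k').1 := by
          rw [hk'] at hval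
          omega
        exact decide_eq_true this
      have := hkmin k' hmem
      omega

end Vale.Agent.Lib.P333F
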